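import Mathlib

/-!
# Level sets of the fibre-length function of a convex body in `X × ℝ`
-/

namespace Vale.Agent.Lib.P243

open MeasureTheory Set

variable {X : Type*} [NormedAddCommGroup X] [NormedSpace ℝ X]

/-- Points whose fibre contains two points at signed distance `t`. -/
def lev (K : Set (X × ℝ)) (t : ℝ) : Set X := {p | ∃ z, (p, z) ∈ K ∧ (p, z + t) ∈ K}

/-- The graph of `lev`. -/
def levGraph (K : Set (X × ℝ)) : Set (X × ℝ) := {q | q.1 ∈ lev K q.2}

theorem lev_zero (K : Set (X × ℝ)) : lev K 0 = Prod.fst '' K := by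
  ext p
  constructor
  · rintro ⟨z, hz, -⟩
    exact ⟨(p, z), hz, rfl⟩
  · rintro ⟨⟨p', z⟩, hz, rfl⟩
    exact ⟨z, hz, by simpa using hz⟩

theorem lev_comb {K : Set (X × ℝ)} (hK : Convex ℝ K) {p0 p1 : X} {t0 t1 a b : ℝ}
    (h0 : p0 ∈ lev K t0) (h1 : p1 ∈ lev K t1) (ha : 0 ≤ a) (hb : 0 ≤ b) (hab : a + b = 1) :
    a • p0 + b • p1 ∈ lev K (a * t0 + b * t1) := by
  obtain ⟨z0, hz0, hz0'⟩ := h0
  obtain ⟨z1, hz1, hz1'⟩ := h1
  refine ⟨a * z0 + b * z1, ?_, ?_⟩
  · have := hK hz0 hz1 ha hb hab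
    simpa using this
  · have := hK hz0' hz1' ha hb hab
    have e : a * z0 + b * z1 + (a * t0 + b * t1) = a * (z0 + t0) + b * (z1 + t1) := by ring
    rw [e]
    simpa using this

theorem lev_convex {K : Set (X × ℝ)} (hK : Convex ℝ K) (t : ℝ) : Convex ℝ (lev K t) := by
  intro p0 h0 p1 h1 a b ha hb hab
  have := lev_comb hK h0 h1 ha hb hab
  rwa [← add_mul, hab, one_mul] at this

theorem lev_anti {K : Set (X × ℝ)} (hK : Convex ℝ K) {s t : ℝ} (hs : 0 ≤ s) (hst : s ≤ t) :
    lev K t ⊆ lev K s := by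
  rintro p ⟨z, hz, hz'⟩
  refine ⟨z, hz, ?_⟩
  rcases eq_or_lt_of_le (hs.trans hst) with h | h
  · have : s = 0 := le_antisymm (by rw [h]; exact hst) hs
    rw [this]; simpa using hz
  · have h1 : 0 ≤ 1 - s / t := by
      rw [sub_nonneg, div_le_one h]; exact hst
    have h2 : 0 ≤ s / t := div_nonneg hs h.le
    have := hK hz hz' h1 h2 (by ring)
    have e1 : (1 - s / t) • p + (s / t) • p = p := by rw [← add_smul]; simp
    have e2 : (1 - s / t) * z + (s / t) * (z + t) = z + s := by field_simp; ring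
    simp only [Prod.smul_mk, Prod.mk_add_mk, smul_eq_mul, e1, e2] at this
    exact this

theorem levGraph_eq_image (K : Set (X × ℝ)) :
    levGraph K = (fun w : (X × ℝ) × (X × ℝ) => (w.1.1, w.2.2 - w.1.2)) ''
      ((K ×ˢ K) ∩ {w | w.1.1 = w.2.1}) := by
  ext ⟨p, t⟩
  constructor
  · rintro ⟨z, hz, hz'⟩
    exact ⟨((p, z), (p, z + t)), ⟨⟨hz, hz'⟩, rfl⟩, by simp⟩
  · rintro ⟨⟨⟨p0, z0⟩, ⟨p1, z1⟩⟩, ⟨⟨h0, h1⟩, h2⟩, h3⟩
    simp only [Set.mem_ofPred_eq] at h2
    simp only [Prod.mk.injEq] at h3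
    obtain ⟨rfl, rfl⟩ := h3
    subst h2
    exact ⟨z0, h0, by simpa using h1⟩

theorem levGraph_isCompact {K : Set (X × ℝ)} (hK : IsCompact K) : IsCompact (levGraph K) := by
  rw [levGraph_eq_image]
  refine IsCompact.image ?_ (by fun_prop)
  refine (hK.prod hK).inter_right ?_
  exact isClosed_eq (by fun_prop) (by fun_prop)

theorem levGraph_convex {K : Set (X × ℝ)} (hK : Convex ℝ K) : Convex ℝ (levGraph K) := by
  rintro ⟨p0, t0⟩ h0 ⟨p1, t1⟩ h1 a b ha hb hab
  exact lev_comb hK h0 h1 ha hb hab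

theorem lev_isCompact {K : Set (X × ℝ)} (hK : IsCompact K) (t : ℝ) : IsCompact (lev K t) := by
  have : lev K t = Prod.fst '' (levGraph K ∩ {q | q.2 = t}) := by
    ext p
    constructor
    · intro hp
      exact ⟨(p, t), ⟨hp, rfl⟩, rfl⟩
    · rintro ⟨⟨p', t'⟩, ⟨hp, ht⟩, rfl⟩
      simp only [Set.mem_ofPred_eq] at ht
      subst ht
      exact hp
  rw [this]
  refine IsCompact.image ?_ continuous_fst
  exact (levGraph_isCompact hK).inter_right (isClosed_eq continuous_snd continuous_const)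

/-- The fibre lemma: the fibre of `K` and the positive part of the fibre of `levGraph K` have the
same length. -/
theorem fibre_volume {K : Set (X × ℝ)} (hK : IsCompact K) (hc : Convex ℝ K) (p : X) :
    volume {z : ℝ | (p, z) ∈ K} = volume {t : ℝ | 0 < t ∧ p ∈ lev K t} := by
  set F : Set ℝ := {z : ℝ | (p, z) ∈ K} with hF
  have hFc : IsCompact F := by
    have : F = Prod.snd '' (K ∩ {q | q.1 = p}) := by
      ext z
      constructor
      · intro hz
        exact ⟨(p, z), ⟨hz, rfl⟩, rfl⟩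
      · rintro ⟨⟨p', z'⟩, ⟨hq, hp⟩, rfl⟩
        simp only [Set.mem_ofPred_eq] at hp
        subst hp
        exact hq
    rw [this]
    exact (hK.inter_right (isClosed_eq continuous_fst continuous_const)).image continuous_snd
  have hFconv : Convex ℝ F := by
    intro z0 h0 z1 h1 a b ha hb hab
    have := hc h0 h1 ha hb hab
    have e1 : a • p + b • p = p := by rw [← add_smul, hab, one_smul]
    simp only [Prod.smul_mk, Prod.mk_add_mk, e1] at this
    exact this
  rcases F.eq_empty_or_nonempty with hE | hne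
  · have : {t : ℝ | 0 < t ∧ p ∈ lev K t} = ∅ := by
      ext t
      simp only [Set.mem_ofPred_eq, mem_empty_iff_false, iff_false, not_and]
      rintro - ⟨z, hz, -⟩
      have : z ∈ F := hz
      rw [hE] at this
      exact this
    rw [hE, this]
  · have hconn : IsConnected F := ⟨hne, hFconv.isPreconnected⟩
    have hIcc := eq_Icc_of_connected_compact hconn hFc
    set α := sInf F
    set β := sSup F
    have hαβ : α ≤ β := by
      obtain ⟨z, hz⟩ := hne
      rw [hIcc] at hz
      exact hz.1.trans hz.2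
    have : {t : ℝ | 0 < t ∧ p ∈ lev K t} = Ioc 0 (β - α) := by
      ext t
      constructor
      · rintro ⟨ht, z, hz, hz'⟩
        have h1 : z ∈ F := hz
        have h2 : z + t ∈ F := hz'
        rw [hIcc] at h1 h2
        exact ⟨ht, by linarith [h1.1, h2.2]⟩
      · rintro ⟨ht, ht'⟩
        refine ⟨ht, α, ?_, ?_⟩
        · have : α ∈ F := by rw [hIcc]; exact ⟨le_rfl, hαβ⟩
          exact this
        · have : α + t ∈ F := by rw [hIcc]; exact ⟨by linarith, by linarith⟩
          exact this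
    rw [this, hIcc, Real.volume_Icc, Real.volume_Ioc, sub_zero]

variable [MeasurableSpace X] [BorelSpace X] [SecondCountableTopology X]

/-- Cavalieri in the fibre-length variable. -/
theorem volume_inter_eq_lintegral_lev (μ : Measure X) [SFinite μ] {K : Set (X × ℝ)}
    (hK : IsCompact K) (hc : Convex ℝ K) {Q : Set X} (hQ : MeasurableSet Q) :
    (μ.prod volume) (K ∩ Q ×ˢ univ) = ∫⁻ t in Ioi 0, μ (Q ∩ lev K t) := by
  have hKm : MeasurableSet K := hK.isClosed.measurableSet
  have hGm : MeasurableSet (levGraph K) := (levGraph_isCompact hK).isClosed.measurableSet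
  have hL : MeasurableSet (levGraph K ∩ Q ×ˢ Ioi (0 : ℝ)) := hGm.inter (hQ.prod measurableSet_Ioi)
  have h1 : (μ.prod volume) (K ∩ Q ×ˢ univ) = (μ.prod volume) (levGraph K ∩ Q ×ˢ Ioi (0 : ℝ)) := by
    rw [Measure.prod_apply (hKm.inter (hQ.prod MeasurableSet.univ)), Measure.prod_apply hL]
    refine lintegral_congr fun p => ?_
    by_cases hp : p ∈ Q
    · have e1 : Prod.mk p ⁻¹' (K ∩ Q ×ˢ univ) = {z : ℝ | (p, z) ∈ K} := by
        ext z; simp [hp]
      have e2 : Prod.mk p ⁻¹' (levGraph K ∩ Q ×ˢ Ioi (0 : ℝ)) = {t : ℝ | 0 < t ∧ p ∈ lev K t} := by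
        ext t; simp [hp, levGraph, and_comm]
      rw [e1, e2, fibre_volume hK hc]
    · have e1 : Prod.mk p ⁻¹' (K ∩ Q ×ˢ univ) = ∅ := by
        ext z; simp [hp]
      have e2 : Prod.mk p ⁻¹' (levGraph K ∩ Q ×ˢ Ioi (0 : ℝ)) = ∅ := by
        ext t; simp [hp]
      rw [e1, e2]
  rw [h1, Measure.prod_apply_symm hL, ← lintegral_indicator measurableSet_Ioi]
  refine lintegral_congr fun t => ?_
  by_cases ht : t ∈ Ioi (0 : ℝ)
  · rw [indicator_of_mem ht]
    congr 1
    ext p
    simp only [mem_preimage, mem_inter_iff, mem_prod, ht, and_true]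
    exact and_comm
  · rw [indicator_of_notMem ht]
    have : (fun x => (x, t)) ⁻¹' (levGraph K ∩ Q ×ˢ Ioi (0 : ℝ)) = ∅ := by
      ext p; simp only [mem_preimage, mem_inter_iff, mem_prod, ht, and_false, mem_empty_iff_false]
    rw [this, measure_empty]

theorem measurable_measure_lev (μ : Measure X) [SFinite μ] {K : Set (X × ℝ)} (hK : IsCompact K)
    {Q : Set X} (hQ : MeasurableSet Q) : Measurable fun t => μ (Q ∩ lev K t) := by
  have hGm : MeasurableSet (levGraph K) := (levGraph_isCompact hK).isClosed.measurableSet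
  have hL : MeasurableSet (levGraph K ∩ Q ×ˢ (univ : Set ℝ)) := hGm.inter (hQ.prod MeasurableSet.univ)
  have := measurable_measure_prodMk_right (μ := μ) hL
  have e : (fun t => μ (Q ∩ lev K t)) =
      fun y => μ ((fun x => (x, y)) ⁻¹' (levGraph K ∩ Q ×ˢ (univ : Set ℝ))) := by
    funext t
    congr 1
    ext p
    simp only [mem_preimage, mem_inter_iff, mem_prod, mem_univ, and_true]
    exact and_comm
  rw [e]
  exact this

end Vale.Agent.Lib.P243
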