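import Mathlib
import Vale.Agent.Lib.P243.Lev

/-!
# The Brunn-Minkowski inequality for compact convex sets in the plane
-/

namespace Vale.Agent.Lib.P243

open MeasureTheory Set

theorem scale_lintegral (g : ℝ → ENNReal) {m : ℝ} (hm : 0 ≤ m) :
    ∫⁻ t in Ioc 0 m, g t = ENNReal.ofReal m * ∫⁻ s in Ioc 0 1, g (m * s) := by
  rcases eq_or_lt_of_le hm with h | h
  · rw [← h]; simp
  · let ε : ℝ ≃ᵐ ℝ := (Homeomorph.mulLeft₀ m h.ne').toMeasurableEquiv
    have hε : ∀ s, ε s = m * s := fun s => rfl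
    have h1 : ∫⁻ s in Ioc 0 1, g (m * s) = ∫⁻ s, (Ioc 0 m).indicator g (ε s) := by
      rw [← lintegral_indicator measurableSet_Ioc]
      refine lintegral_congr fun s => ?_
      rw [hε]
      by_cases hs : s ∈ Ioc (0 : ℝ) 1
      · rw [indicator_of_mem hs, indicator_of_mem]
        exact ⟨mul_pos h hs.1, by nlinarith [hs.2]⟩
      · rw [indicator_of_notMem hs, indicator_of_notMem]
        rintro ⟨h1, h2⟩
        apply hs
        constructor
        · by_contra hneg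
          rw [not_lt] at hneg
          nlinarith
        · by_contra hneg
          rw [not_le] at hneg
          nlinarith
    rw [h1, ← lintegral_map_equiv]
    have h2 : Measure.map ε volume = ENNReal.ofReal |m⁻¹| • volume := Real.map_volume_mul_left h.ne'
    rw [h2, lintegral_smul_measure, lintegral_indicator measurableSet_Ioc, smul_eq_mul, ← mul_assoc,
      ← ENNReal.ofReal_mul hm, abs_of_pos (inv_pos.mpr h), mul_inv_cancel₀ h.ne']
    simp

theorem bm_line {X Y Z : Set ℝ} (hX : IsCompact X) (cX : Convex ℝ X) (nX : X.Nonempty)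
    (hY : IsCompact Y) (cY : Convex ℝ Y) (nY : Y.Nonempty) (cZ : Convex ℝ Z)
    {a b : ℝ} (ha : 0 ≤ a) (hb : 0 ≤ b)
    (hsub : ∀ x ∈ X, ∀ y ∈ Y, a • x + b • y ∈ Z) :
    ENNReal.ofReal a * volume X + ENNReal.ofReal b * volume Y ≤ volume Z := by
  have hXI := eq_Icc_of_connected_compact ⟨nX, cX.isPreconnected⟩ hX
  have hYI := eq_Icc_of_connected_compact ⟨nY, cY.isPreconnected⟩ hY
  set x0 := sInf X
  set x1 := sSup X
  set y0 := sInf Y
  set y1 := sSup Y
  have hx : x0 ≤ x1 := by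
    obtain ⟨z, hz⟩ := nX
    rw [hXI] at hz
    exact hz.1.trans hz.2
  have hy : y0 ≤ y1 := by
    obtain ⟨z, hz⟩ := nY
    rw [hYI] at hz
    exact hz.1.trans hz.2
  have m0 : x0 ∈ X := by rw [hXI]; exact ⟨le_rfl, hx⟩
  have m1 : x1 ∈ X := by rw [hXI]; exact ⟨hx, le_rfl⟩
  have k0 : y0 ∈ Y := by rw [hYI]; exact ⟨le_rfl, hy⟩
  have k1 : y1 ∈ Y := by rw [hYI]; exact ⟨hy, le_rfl⟩
  have hsubs : Icc (a * x0 + b * y0) (a * x1 + b * y1) ⊆ Z :=
    cZ.ordConnected.out (hsub x0 m0 y0 k0) (hsub x1 m1 y1 k1)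
  refine le_trans (le_of_eq ?_) (measure_mono hsubs)
  rw [hXI, hYI, Real.volume_Icc, Real.volume_Icc, Real.volume_Icc, ← ENNReal.ofReal_mul ha,
    ← ENNReal.ofReal_mul hb, ← ENNReal.ofReal_add (mul_nonneg ha (by linarith))
      (mul_nonneg hb (by linarith))]
  congr 1
  ring

theorem exists_height {S : Set (ℝ × ℝ)} (hS : IsCompact S) (cS : Convex ℝ S) (nS : S.Nonempty) :
    ∃ m : ℝ, 0 ≤ m ∧ (∀ t, 0 ≤ t → t ≤ m → (lev S t).Nonempty) ∧ ∀ t, m < t → lev S t = ∅ := by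
  set T : Set ℝ := Prod.snd '' (levGraph S) with hT
  have hTc : IsCompact T := (levGraph_isCompact hS).image continuous_snd
  have hTconv : Convex ℝ T := by
    rintro _ ⟨x, hx, rfl⟩ _ ⟨y, hy, rfl⟩ a b ha hb hab
    exact ⟨a • x + b • y, levGraph_convex cS hx hy ha hb hab, rfl⟩
  have h0 : (0 : ℝ) ∈ T := by
    obtain ⟨⟨p, z⟩, hz⟩ := nS
    exact ⟨(p, 0), ⟨z, hz, by simpa using hz⟩, rfl⟩
  have hI := eq_Icc_of_connected_compact ⟨⟨0, h0⟩, hTconv.isPreconnected⟩ hTc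
  have h0' := h0
  rw [hI] at h0'
  refine ⟨sSup T, h0'.2, ?_, ?_⟩
  · intro t ht0 ht
    have : t ∈ T := by rw [hI]; exact ⟨h0'.1.trans ht0, ht⟩
    obtain ⟨⟨p, t'⟩, hq, rfl⟩ := this
    exact ⟨p, hq⟩
  · intro t ht
    by_contra hne
    obtain ⟨p, hp⟩ := nonempty_iff_ne_empty.mpr hne
    have : t ∈ T := ⟨(p, t), hp, rfl⟩
    rw [hI] at this
    exact absurd this.2 (not_le.mpr ht)

theorem volume_eq_lintegral_lev {S : Set (ℝ × ℝ)} (hS : IsCompact S) (cS : Convex ℝ S) :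
    volume S = ∫⁻ t in Ioi 0, volume (lev S t) := by
  have := volume_inter_eq_lintegral_lev (volume : Measure ℝ) hS cS MeasurableSet.univ
  simpa [Measure.volume_eq_prod] using this

theorem bm_plane {A0 A1 A : Set (ℝ × ℝ)} (h0 : IsCompact A0) (c0 : Convex ℝ A0) (n0 : A0.Nonempty)
    (h1 : IsCompact A1) (c1 : Convex ℝ A1) (n1 : A1.Nonempty) (hA : IsCompact A) (cA : Convex ℝ A)
    {a b : ℝ} (ha : 0 ≤ a) (hb : 0 ≤ b) (hab : a + b = 1)
    (hsub : ∀ x ∈ A0, ∀ y ∈ A1, a • x + b • y ∈ A) :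
    a * Real.sqrt (MeasureTheory.volume A0).toReal + b * Real.sqrt (MeasureTheory.volume A1).toReal
      ≤ Real.sqrt (MeasureTheory.volume A).toReal := by
  obtain ⟨m0, hm0, hne0, hem0⟩ := exists_height h0 c0 n0
  obtain ⟨m1, hm1, hne1, hem1⟩ := exists_height h1 c1 n1
  -- volume as height times average width
  have hform : ∀ {S : Set (ℝ × ℝ)} (_ : IsCompact S) (_ : Convex ℝ S) {m : ℝ} (_ : 0 ≤ m)
      (_ : ∀ t, m < t → lev S t = ∅),
      volume S = ENNReal.ofReal m * ∫⁻ s in Ioc 0 1, volume (lev S (m * s)) := by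
    intro S hS cS m hm hem
    rw [volume_eq_lintegral_lev hS cS, ← scale_lintegral (fun t => volume (lev S t)) hm,
      ← lintegral_indicator measurableSet_Ioi, ← lintegral_indicator measurableSet_Ioc]
    refine lintegral_congr fun t => ?_
    by_cases ht : 0 < t
    · rw [indicator_of_mem (show t ∈ Ioi (0 : ℝ) from ht)]
      by_cases htm : t ≤ m
      · rw [indicator_of_mem (show t ∈ Ioc 0 m from ⟨ht, htm⟩)]
      · rw [indicator_of_notMem (fun h : t ∈ Ioc 0 m => htm h.2), hem t (not_le.mp htm),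
          measure_empty]
    · rw [indicator_of_notMem (fun h : t ∈ Ioi (0 : ℝ) => ht h),
        indicator_of_notMem (fun h : t ∈ Ioc 0 m => ht h.1)]
  set J0 := ∫⁻ s in Ioc 0 1, volume (lev A0 (m0 * s)) with hJ0
  set J1 := ∫⁻ s in Ioc 0 1, volume (lev A1 (m1 * s)) with hJ1
  have hV0 : volume A0 = ENNReal.ofReal m0 * J0 := hform h0 c0 hm0 hem0
  have hV1 : volume A1 = ENNReal.ofReal m1 * J1 := hform h1 c1 hm1 hem1
  have hJfin : ∀ {S : Set (ℝ × ℝ)} (_ : IsCompact S) (_ : Convex ℝ S) {m : ℝ} (_ : 0 ≤ m),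
      ∫⁻ s in Ioc 0 1, volume (lev S (m * s)) ≠ ⊤ := by
    intro S hS cS m hm
    have : ∫⁻ s in Ioc 0 1, volume (lev S (m * s)) ≤ ∫⁻ _ in Ioc (0 : ℝ) 1, volume (lev S 0) := by
      refine setLIntegral_mono' measurableSet_Ioc fun s hs => ?_
      exact measure_mono (lev_anti cS le_rfl (mul_nonneg hm hs.1.le))
    refine (this.trans_lt ?_).ne
    rw [setLIntegral_const]
    simp only [Real.volume_Ioc, sub_zero, ENNReal.ofReal_one, mul_one]
    exact (lev_isCompact hS 0).measure_lt_top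
  have hJ0fin : J0 ≠ ⊤ := hJfin h0 c0 hm0
  have hJ1fin : J1 ≠ ⊤ := hJfin h1 c1 hm1
  set M := a * m0 + b * m1 with hM
  have hM0 : 0 ≤ M := by positivity
  have hVA : ENNReal.ofReal M * (ENNReal.ofReal a * J0 + ENNReal.ofReal b * J1) ≤ volume A := by
    have e1 : ∫⁻ t in Ioc 0 M, volume (lev A t) ≤ volume A := by
      rw [volume_eq_lintegral_lev hA cA]
      exact lintegral_mono_set Ioc_subset_Ioi_self
    refine le_trans ?_ e1
    rw [scale_lintegral (fun t => volume (lev A t)) hM0]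
    gcongr
    rw [hJ0, hJ1, ← lintegral_const_mul' _ _ ENNReal.ofReal_ne_top,
      ← lintegral_const_mul' _ _ ENNReal.ofReal_ne_top]
    refine (le_lintegral_add _ _).trans ?_
    refine setLIntegral_mono' measurableSet_Ioc fun s hs => ?_
    have hs0 : 0 ≤ s := hs.1.le
    refine bm_line (lev_isCompact h0 _) (lev_convex c0 _)
      (hne0 _ (mul_nonneg hm0 hs0) (by nlinarith [hs.2]))
      (lev_isCompact h1 _) (lev_convex c1 _)
      (hne1 _ (mul_nonneg hm1 hs0) (by nlinarith [hs.2])) (lev_convex cA _) ha hb ?_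
    rintro x ⟨z, hz, hz'⟩ y ⟨w, hw, hw'⟩
    refine ⟨a * z + b * w, ?_, ?_⟩
    · have := hsub _ hz _ hw
      simpa using this
    · have := hsub _ hz' _ hw'
      have e : a * z + b * w + M * s = a * (z + m0 * s) + b * (w + m1 * s) := by
        rw [hM]; ring
      rw [e]
      simpa using this
  -- pass to real numbers
  set j0 := J0.toReal with hj0
  set j1 := J1.toReal with hj1
  have hj0nn : 0 ≤ j0 := ENNReal.toReal_nonneg
  have hj1nn : 0 ≤ j1 := ENNReal.toReal_nonneg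
  have r0 : (volume A0).toReal = m0 * j0 := by
    rw [hV0, ENNReal.toReal_mul, ENNReal.toReal_ofReal hm0]
  have r1 : (volume A1).toReal = m1 * j1 := by
    rw [hV1, ENNReal.toReal_mul, ENNReal.toReal_ofReal hm1]
  have rA : M * (a * j0 + b * j1) ≤ (volume A).toReal := by
    have := ENNReal.toReal_mono hA.measure_lt_top.ne hVA
    rw [ENNReal.toReal_mul, ENNReal.toReal_ofReal hM0, ENNReal.toReal_add
      (ENNReal.mul_ne_top ENNReal.ofReal_ne_top hJ0fin)
      (ENNReal.mul_ne_top ENNReal.ofReal_ne_top hJ1fin), ENNReal.toReal_mul, ENNReal.toReal_mul,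
      ENNReal.toReal_ofReal ha, ENNReal.toReal_ofReal hb] at this
    exact this
  rw [r0, r1]
  apply Real.le_sqrt_of_sq_le
  refine le_trans ?_ rA
  rw [Real.sqrt_mul hm0, Real.sqrt_mul hm1]
  set s0 := Real.sqrt m0
  set s1 := Real.sqrt m1
  set q0 := Real.sqrt j0
  set q1 := Real.sqrt j1
  have e0 : m0 = s0 ^ 2 := (Real.sq_sqrt hm0).symm
  have e1 : m1 = s1 ^ 2 := (Real.sq_sqrt hm1).symm
  have e2 : j0 = q0 ^ 2 := (Real.sq_sqrt hj0nn).symm
  have e3 : j1 = q1 ^ 2 := (Real.sq_sqrt hj1nn).symm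
  rw [hM, e0, e1, e2, e3]
  have : (a * s0 ^ 2 + b * s1 ^ 2) * (a * q0 ^ 2 + b * q1 ^ 2) - (a * (s0 * q0) + b * (s1 * q1)) ^ 2
      = a * b * (s0 * q1 - s1 * q0) ^ 2 := by ring
  have h2 : 0 ≤ a * b * (s0 * q1 - s1 * q0) ^ 2 := by positivity
  linarith

end Vale.Agent.Lib.P243
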