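import Mathlib

namespace Vale.Agent.Lib.P243

open Finset

variable {E : Type*} [NormedAddCommGroup E] [InnerProductSpace ℝ E]

/-- `S` contains a chord equal to every vector of `W` of length at most `c`. -/
def HasChords (W : Submodule ℝ E) (S : Set E) (c : ℝ) : Prop :=
  ∀ d ∈ W, ‖d‖ ≤ c → ∃ x ∈ S, x + d ∈ S

theorem hasChords_shrink {W : Submodule ℝ E} {S : Set E} (hS : Convex ℝ S) {c : ℝ}
    (hc : HasChords W S c) {v : E} (hv : v ∈ W) (hvc : 2 * ‖v‖ < c) :
    HasChords W {x | x + v ∈ S ∧ x - v ∈ S} (c - 2 * ‖v‖) := by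
  intro d hd hdc
  have hn : 0 ≤ ‖v‖ := norm_nonneg v
  have hcpos : 0 < c := by linarith
  rcases eq_or_ne v 0 with rfl | hv0
  · obtain ⟨x, hx, hxd⟩ := hc d hd (by simpa using hdc)
    exact ⟨x, by simpa using hx, by simpa using hxd⟩
  have hpos : 0 < ‖v‖ := norm_pos_iff.mpr hv0
  set l : ℝ := 2 * ‖v‖ / c with hl
  have hl0 : 0 < l := by positivity
  have hl1 : l < 1 := by rw [hl, div_lt_one hcpos]; exact hvc
  set w : E := (c / ‖v‖) • v with hw
  have hwW : w ∈ W := W.smul_mem _ hv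
  have hwn : ‖w‖ ≤ c := by
    rw [hw, norm_smul, Real.norm_eq_abs, abs_of_pos (by positivity)]
    rw [div_mul_cancel₀ _ hpos.ne']
  obtain ⟨p, hp, hpw⟩ := hc w hwW hwn
  set d' : E := (1 - l)⁻¹ • d with hd'
  have h1l : 0 < 1 - l := by linarith
  have hd'W : d' ∈ W := W.smul_mem _ hd
  have hd'n : ‖d'‖ ≤ c := by
    rw [hd', norm_smul, Real.norm_eq_abs, abs_of_pos (by positivity), inv_mul_le_iff₀ h1l]
    have : (1 - l) * c = c - 2 * ‖v‖ := by
      rw [hl]; field_simp
    rw [this]; exact hdc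
  obtain ⟨k, hk, hkd⟩ := hc d' hd'W hd'n
  have hlw : (l / 2) • w = v := by
    rw [hw, smul_smul, hl]
    have : 2 * ‖v‖ / c / 2 * (c / ‖v‖) = 1 := by field_simp
    rw [this, one_smul]
  have hdd : (1 - l) • d' = d := by
    rw [hd', smul_smul, mul_inv_cancel₀ h1l.ne', one_smul]
  have hlw2 : l • w = v + v := by
    have : l • w = (l / 2) • w + (l / 2) • w := by rw [← add_smul]; congr 1; ring
    rw [this, hlw]
  refine ⟨(1 - l) • k + l • p + v, ⟨?_, ?_⟩, ⟨?_, ?_⟩⟩
  · have : (1 - l) • k + l • p + v + v = (1 - l) • k + l • (p + w) := by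
      rw [smul_add, hlw2]; abel
    rw [this]
    exact hS hk hpw h1l.le hl0.le (by ring)
  · have : (1 - l) • k + l • p + v - v = (1 - l) • k + l • p := by abel
    rw [this]
    exact hS hk hp h1l.le hl0.le (by ring)
  · have : (1 - l) • k + l • p + v + d + v = (1 - l) • (k + d') + l • (p + w) := by
      rw [smul_add, smul_add, hlw2, hdd]; abel
    rw [this]
    exact hS hkd hpw h1l.le hl0.le (by ring)
  · have : (1 - l) • k + l • p + v + d - v = (1 - l) • (k + d') + l • p := by
      rw [smul_add, hdd]; abel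
    rw [this]
    exact hS hkd hp h1l.le hl0.le (by ring)

theorem convex_shrink {S : Set E} (hS : Convex ℝ S) (v : E) :
    Convex ℝ {x | x + v ∈ S ∧ x - v ∈ S} := by
  intro x hx y hy a b ha hb hab
  constructor
  · have : a • x + b • y + v = a • (x + v) + b • (y + v) := by
      rw [smul_add, smul_add]
      have : v = a • v + b • v := by rw [← add_smul, hab, one_smul]
      nth_rewrite 1 [this]; abel
    show a • x + b • y + v ∈ S
    rw [this]; exact hS hx.1 hy.1 ha hb hab
  · have : a • x + b • y - v = a • (x - v) + b • (y - v) := by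
      rw [smul_sub, smul_sub]
      have : v = a • v + b • v := by rw [← add_smul, hab, one_smul]
      nth_rewrite 1 [this]; abel
    show a • x + b • y - v ∈ S
    rw [this]; exact hS hx.2 hy.2 ha hb hab

theorem exists_fit {ι : Type*} [DecidableEq ι] {W : Submodule ℝ E} (v : ι → E) (hv : ∀ j, v j ∈ W)
    (t : Finset ι) :
    ∀ (S : Set E) (_ : Convex ℝ S) (c : ℝ) (_ : HasChords W S c) (_ : 2 * ∑ j ∈ t, ‖v j‖ < c),
      ∃ x0 : E, ∀ e : ι → ℝ, (∀ j, e j = 1 ∨ e j = -1) → x0 + ∑ j ∈ t, e j • v j ∈ S := by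
  induction t using Finset.induction_on with
  | empty =>
    intro S _ c hc hlt
    simp only [sum_empty, mul_zero] at hlt
    obtain ⟨x, hx, _⟩ := hc 0 W.zero_mem (by simpa using hlt.le)
    exact ⟨x, fun e _ => by simpa using hx⟩
  | insert k t hk ih =>
    intro S hS c hc hlt
    rw [sum_insert hk] at hlt
    have hsum : 0 ≤ ∑ j ∈ t, ‖v j‖ := sum_nonneg fun j _ => norm_nonneg _
    obtain ⟨x0, hx0⟩ := ih _ (convex_shrink hS (v k)) (c - 2 * ‖v k‖)
      (hasChords_shrink hS hc (hv k) (by linarith)) (by linarith)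
    refine ⟨x0, fun e he => ?_⟩
    rw [sum_insert hk]
    obtain ⟨h1, h2⟩ := hx0 e he
    rcases he k with h | h
    · rw [h, one_smul]
      have : x0 + (v k + ∑ j ∈ t, e j • v j) = x0 + ∑ j ∈ t, e j • v j + v k := by abel
      rw [this]; exact h1
    · rw [h, neg_one_smul]
      have : x0 + (-v k + ∑ j ∈ t, e j • v j) = x0 + ∑ j ∈ t, e j • v j - v k := by abel
      rw [this]; exact h2


theorem bang_signs {ι : Type*} [Fintype ι] [DecidableEq ι] (ν : ι → E) (hν : ∀ j, ‖ν j‖ = 1)
    (h m : ι → ℝ) (hh : ∀ j, 0 ≤ h j) (x0 : E) :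
    ∃ e : ι → ℝ, (∀ j, e j = 1 ∨ e j = -1) ∧
      ∀ k, h k ≤ |inner ℝ (ν k) (x0 + ∑ j, e j • (h j • ν j)) - m k| := by
  classical
  let sg : Bool → ℝ := fun b => if b then 1 else -1
  have hsg : ∀ b, sg b = 1 ∨ sg b = -1 := by
    intro b; cases b <;> simp [sg]
  let Sm : (ι → Bool) → E := fun s => ∑ j, sg (s j) • (h j • ν j)
  let F : (ι → Bool) → ℝ := fun s =>
    ‖Sm s‖ ^ 2 + 2 * ∑ j, sg (s j) * (h j * (inner ℝ (ν j) x0 - m j))
  obtain ⟨s, hs⟩ := Finite.exists_max F
  refine ⟨fun j => sg (s j), fun j => hsg _, fun k => ?_⟩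
  rcases (hh k).eq_or_lt with h0 | hpos
  · rw [← h0]; exact abs_nonneg _
  let s' : ι → Bool := Function.update s k (!s k)
  have hflip : sg (!s k) = - sg (s k) := by cases s k <;> simp [sg]
  have hSm : Sm s' = Sm s - (2 * sg (s k)) • (h k • ν k) := by
    simp only [Sm, s']
    rw [← Finset.add_sum_erase _ _ (Finset.mem_univ k), ← Finset.add_sum_erase (a := k) univ
      (fun j => sg (s j) • (h j • ν j)) (Finset.mem_univ k)]
    have : ∑ x ∈ univ.erase k, sg (Function.update s k (!s k) x) • (h x • ν x)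
        = ∑ x ∈ univ.erase k, sg (s x) • (h x • ν x) := by
      apply Finset.sum_congr rfl
      intro x hx
      rw [Function.update_of_ne (Finset.ne_of_mem_erase hx)]
    rw [this, Function.update_self, hflip, two_mul, add_smul, neg_smul]
    abel
  have hlin : ∑ j, sg (s' j) * (h j * (inner ℝ (ν j) x0 - m j))
      = ∑ j, sg (s j) * (h j * (inner ℝ (ν j) x0 - m j))
        - 2 * sg (s k) * (h k * (inner ℝ (ν k) x0 - m k)) := by
    simp only [s']
    rw [← Finset.add_sum_erase _ _ (Finset.mem_univ k), ← Finset.add_sum_erase (a := k) univ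
      (fun j => sg (s j) * (h j * (inner ℝ (ν j) x0 - m j))) (Finset.mem_univ k)]
    have : ∑ x ∈ univ.erase k, sg (Function.update s k (!s k) x) * (h x * (inner ℝ (ν x) x0 - m x))
        = ∑ x ∈ univ.erase k, sg (s x) * (h x * (inner ℝ (ν x) x0 - m x)) := by
      apply Finset.sum_congr rfl
      intro x hx
      rw [Function.update_of_ne (Finset.ne_of_mem_erase hx)]
    rw [this, Function.update_self, hflip]
    ring
  have hsq : sg (s k) * sg (s k) = 1 := by rcases hsg (s k) with h | h <;> rw [h] <;> norm_num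
  have hnorm : ‖Sm s'‖ ^ 2 = ‖Sm s‖ ^ 2 - 4 * sg (s k) * h k * inner ℝ (ν k) (Sm s) + 4 * h k ^ 2 := by
    rw [hSm, norm_sub_sq_real, inner_smul_right, inner_smul_right, norm_smul, norm_smul, hν k,
      real_inner_comm]
    simp only [Real.norm_eq_abs, mul_one, mul_pow, sq_abs]
    have : sg (s k) ^ 2 = 1 := by rw [sq, hsq]
    rw [this]; ring
  have hmax := hs s'
  simp only [F] at hmax
  rw [hnorm, hlin] at hmax
  have key : h k * h k ≤ h k * (sg (s k) * (inner ℝ (ν k) (x0 + Sm s) - m k)) := by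
    rw [inner_add_right]
    nlinarith
  have key2 : h k ≤ sg (s k) * (inner ℝ (ν k) (x0 + Sm s) - m k) := le_of_mul_le_mul_left key hpos
  have : sg (s k) * (inner ℝ (ν k) (x0 + Sm s) - m k) ≤ |inner ℝ (ν k) (x0 + Sm s) - m k| := by
    rcases hsg (s k) with h | h <;> rw [h]
    · rw [one_mul]; exact le_abs_self _
    · rw [neg_one_mul]; exact neg_le_abs _
  exact key2.trans this

/-- Bang's plank theorem, relative to a subspace `W` containing all plank normals: a convex set having all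
chords of `W` of length at most `c` is not covered by closed planks of total width less than `c`. -/
theorem bang_plank {ι : Type*} [Fintype ι] {W : Submodule ℝ E} {S : Set E} (hS : Convex ℝ S) {c : ℝ}
    (hc : HasChords W S c) (ν : ι → E) (hνW : ∀ j, ν j ∈ W) (hν : ∀ j, ‖ν j‖ = 1)
    (h m : ι → ℝ) (hh : ∀ j, 0 ≤ h j) (hsum : 2 * ∑ j, h j < c) :
    ∃ y ∈ S, ∀ k, h k < |inner ℝ (ν k) y - m k| := by
  classical
  set n : ℝ := (Fintype.card ι : ℝ) with hn
  have hn0 : 0 ≤ n := Nat.cast_nonneg _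
  set θ : ℝ := (c - 2 * ∑ j, h j) / (4 * (n + 1)) with hθ
  have hθpos : 0 < θ := by
    apply div_pos (by linarith) (by positivity)
  let h' : ι → ℝ := fun j => h j + θ
  have hh' : ∀ j, 0 ≤ h' j := fun j => add_nonneg (hh j) hθpos.le
  have hsum' : 2 * ∑ j, h' j < c := by
    simp only [h', Finset.sum_add_distrib, Finset.sum_const, Finset.card_univ, nsmul_eq_mul]
    have h1 : n * θ ≤ (c - 2 * ∑ j, h j) / 4 := by
      rw [hθ, ← mul_div_assoc, div_le_div_iff₀ (by positivity) (by norm_num)]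
      have : 0 < c - 2 * ∑ j, h j := by linarith
      nlinarith
    rw [← hn]
    linarith
  have hnorm : ∀ j, ‖h' j • ν j‖ = h' j := by
    intro j; rw [norm_smul, hν j, mul_one, Real.norm_eq_abs, abs_of_nonneg (hh' j)]
  obtain ⟨x0, hx0⟩ := exists_fit (fun j => h' j • ν j) (fun j => W.smul_mem _ (hνW j)) Finset.univ S hS c hc
    (by simpa only [hnorm] using hsum')
  obtain ⟨e, he, hek⟩ := bang_signs ν hν h' m hh' x0
  refine ⟨_, hx0 e he, fun k => ?_⟩
  have := hek k
  have h2 : h k < h' k := by simp only [h']; linarith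
  exact lt_of_lt_of_le h2 this

end Vale.Agent.Lib.P243
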