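import Mathlib
import Vale.Agent.Lib.P243.Bang

namespace Vale.Agent.Lib.P243

open MeasureTheory Set

variable {E : Type*} [NormedAddCommGroup E] [InnerProductSpace ℝ E]

theorem cell_disjoint {η : ℝ} (hη : 0 < η) :
    Pairwise (Function.onFun Disjoint fun k : ℤ => Ico ((k : ℝ) * η) (((k : ℝ) + 1) * η)) := by
  intro k l hkl
  rw [Function.onFun, Set.disjoint_left]
  intro x hx hy
  apply hkl
  have h1 : (k : ℝ) * η < ((l : ℝ) + 1) * η := lt_of_le_of_lt hx.1 hy.2
  have h2 : (l : ℝ) * η < ((k : ℝ) + 1) * η := lt_of_le_of_lt hy.1 hx.2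
  have h1' : (k : ℝ) < (l : ℝ) + 1 := lt_of_mul_lt_mul_right h1 hη.le
  have h2' : (l : ℝ) < (k : ℝ) + 1 := lt_of_mul_lt_mul_right h2 hη.le
  have h1'' : k < l + 1 := by exact_mod_cast h1'
  have h2'' : l < k + 1 := by exact_mod_cast h2'
  omega

theorem card_cells_le {η : ℝ} (hη : 0 < η) (O : Set ℝ) (hO : volume O ≠ ⊤) (T : Finset ℤ)
    (hT : ∀ k ∈ T, Ico ((k : ℝ) * η) (((k : ℝ) + 1) * η) ⊆ O) :
    (T.card : ℝ) * η ≤ (volume O).toReal := by
  have h1 : volume (⋃ k ∈ T, Ico ((k : ℝ) * η) (((k : ℝ) + 1) * η))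
      = ∑ k ∈ T, volume (Ico ((k : ℝ) * η) (((k : ℝ) + 1) * η)) := by
    apply measure_biUnion_finset
    · intro k _ l _ hkl
      exact cell_disjoint hη hkl
    · intro k _
      exact measurableSet_Ico
  have h2 : ∀ k : ℤ, volume (Ico ((k : ℝ) * η) (((k : ℝ) + 1) * η)) = ENNReal.ofReal η := by
    intro k
    rw [Real.volume_Ico]
    congr 1
    ring
  have h3 : volume (⋃ k ∈ T, Ico ((k : ℝ) * η) (((k : ℝ) + 1) * η)) ≤ volume O :=
    measure_mono (Set.iUnion₂_subset hT)
  rw [h1] at h3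
  simp only [h2, Finset.sum_const, nsmul_eq_mul] at h3
  have h4 : ((T.card : ENNReal) * ENNReal.ofReal η).toReal ≤ (volume O).toReal :=
    ENNReal.toReal_mono hO h3
  rw [ENNReal.toReal_mul, ENNReal.toReal_natCast, ENNReal.toReal_ofReal hη.le] at h4
  exact h4

/-- Bang's plank theorem for `planks` with arbitrary (outer) measurable profiles. -/
theorem bang_measurable {m : ℕ} {W : Submodule ℝ E} {S : Set E} (hS : Convex ℝ S)
    (hSc : IsCompact S) {c : ℝ} (hc : HasChords W S c) (ν : Fin m → E) (hνW : ∀ j, ν j ∈ W)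
    (hν : ∀ j, ‖ν j‖ = 1) (A : Fin m → Set ℝ)
    (hcov : S ⊆ ⋃ i, {x | inner ℝ (ν i) x ∈ A i}) :
    ENNReal.ofReal c ≤ ∑ i, volume (A i) := by
  classical
  by_contra hlt
  rw [not_le] at hlt
  have hfin : ∀ i, volume (A i) ≠ ⊤ := by
    intro i hi
    have : (⊤ : ENNReal) ≤ ∑ i, volume (A i) := by
      rw [← hi]; exact Finset.single_le_sum (f := fun i => volume (A i)) (fun _ _ => zero_le) (Finset.mem_univ i)
    exact absurd (lt_of_le_of_lt this hlt) (by simp)
  have hsumfin : ∑ i, volume (A i) ≠ ⊤ := ne_top_of_lt hlt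
  have hcr : ∑ i, (volume (A i)).toReal < c := by
    rw [← ENNReal.toReal_sum (fun i _ => hfin i)]
    exact (ENNReal.lt_ofReal_iff_toReal_lt hsumfin).mp hlt
  set ε : ℝ := (c - ∑ i, (volume (A i)).toReal) / (2 * ((m : ℝ) + 1)) with hε
  have hεpos : 0 < ε := div_pos (by linarith) (by positivity)
  have hO : ∀ i, ∃ U, U ⊇ A i ∧ IsOpen U ∧ volume U < volume (A i) + ENNReal.ofReal ε := fun i =>
    (A i).exists_isOpen_lt_add (hfin i) (by simpa using hεpos)
  choose O hOA hOo hOv using hO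
  have hOfin : ∀ i, volume (O i) ≠ ⊤ := fun i => ne_top_of_lt (hOv i)
  have hOr : ∀ i, (volume (O i)).toReal ≤ (volume (A i)).toReal + ε := by
    intro i
    have := ENNReal.toReal_mono (by simp [hfin i]) (hOv i).le
    rwa [ENNReal.toReal_add (hfin i) (by simp), ENNReal.toReal_ofReal hεpos.le] at this
  have hOsum : ∑ i, (volume (O i)).toReal < c := by
    calc ∑ i, (volume (O i)).toReal ≤ ∑ i, ((volume (A i)).toReal + ε) :=
          Finset.sum_le_sum fun i _ => hOr i
      _ = ∑ i, (volume (A i)).toReal + (m : ℝ) * ε := by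
          rw [Finset.sum_add_distrib]; simp
      _ < c := by
          have h1 : (m : ℝ) * ε ≤ (c - ∑ i, (volume (A i)).toReal) / 2 := by
            rw [hε, ← mul_div_assoc, div_le_div_iff₀ (by positivity) (by norm_num)]
            have : 0 < c - ∑ i, (volume (A i)).toReal := by linarith
            have hm : (0 : ℝ) ≤ m := Nat.cast_nonneg _
            nlinarith
          linarith
  -- open cover and Lebesgue number
  have hUo : ∀ i, IsOpen {x : E | inner ℝ (ν i) x ∈ O i} := fun i =>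
    (hOo i).preimage (by fun_prop)
  have hcov' : S ⊆ ⋃ i, {x : E | inner ℝ (ν i) x ∈ O i} := by
    intro x hx
    obtain ⟨i, hi⟩ := Set.mem_iUnion.mp (hcov hx)
    exact Set.mem_iUnion.mpr ⟨i, hOA i hi⟩
  obtain ⟨δ, hδ, hLeb⟩ := lebesgue_number_lemma_of_metric hSc hUo hcov'
  obtain ⟨R, hR⟩ := hSc.isBounded.exists_norm_le
  set N : ℤ := ⌈R / δ⌉ + 1 with hN
  let T : Fin m → Finset ℤ := fun i =>
    (Finset.Icc (-N) N).filter fun k => Ico ((k : ℝ) * δ) (((k : ℝ) + 1) * δ) ⊆ O i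
  have hTcard : ∀ i, ((T i).card : ℝ) * δ ≤ (volume (O i)).toReal := fun i =>
    card_cells_le hδ (O i) (hOfin i) (T i) fun k hk => (Finset.mem_filter.mp hk).2
  -- apply Bang
  let ι := Σ i : Fin m, {k : ℤ // k ∈ T i}
  have hsum : 2 * ∑ j : ι, δ / 2 < c := by
    have : ∑ j : ι, δ / 2 = ∑ i, ((T i).card : ℝ) * (δ / 2) := by
      rw [Fintype.sum_sigma]
      apply Finset.sum_congr rfl
      intro i _
      simp
    rw [this, Finset.mul_sum]
    calc ∑ i, 2 * (((T i).card : ℝ) * (δ / 2)) = ∑ i, ((T i).card : ℝ) * δ := by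
          apply Finset.sum_congr rfl; intro i _; ring
      _ ≤ ∑ i, (volume (O i)).toReal := Finset.sum_le_sum fun i _ => hTcard i
      _ < c := hOsum
  obtain ⟨y, hyS, hy⟩ := bang_plank hS hc (fun j : ι => ν j.1) (fun j => hνW j.1) (fun j => hν j.1)
    (fun _ => δ / 2) (fun j => ((j.2.1 : ℝ) + 1 / 2) * δ) (fun _ => by positivity) hsum
  obtain ⟨i, hi⟩ := hLeb y hyS
  set t : ℝ := inner ℝ (ν i) y with ht
  set k : ℤ := ⌊t / δ⌋ with hk
  have hk1 : (k : ℝ) * δ ≤ t := by
    have := Int.floor_le (t / δ)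
    rwa [le_div_iff₀ hδ] at this
  have hk2 : t < ((k : ℝ) + 1) * δ := by
    have := Int.lt_floor_add_one (t / δ)
    rwa [div_lt_iff₀ hδ] at this
  have hcell : Ico ((k : ℝ) * δ) (((k : ℝ) + 1) * δ) ⊆ O i := by
    intro r hr
    have hmem : y + (r - t) • ν i ∈ Metric.ball y δ := by
      rw [Metric.mem_ball, dist_eq_norm, add_sub_cancel_left, norm_smul, hν i, mul_one,
        Real.norm_eq_abs, abs_lt]
      constructor
      · have := hr.1; nlinarith
      · have := hr.2; nlinarith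
    have := hi hmem
    simp only [Set.mem_ofPred_eq, inner_add_right, inner_smul_right, real_inner_self_eq_norm_sq,
      hν i] at this
    have h2 : t + (r - t) * 1 ^ 2 = r := by ring
    rw [← ht, h2] at this
    exact this
  have htR : |t| ≤ R := by
    calc |t| ≤ ‖ν i‖ * ‖y‖ := abs_real_inner_le_norm _ _
      _ = ‖y‖ := by rw [hν i, one_mul]
      _ ≤ R := hR y hyS
  have hkN : k ∈ Finset.Icc (-N) N := by
    rw [Finset.mem_Icc]
    have hc1 : R / δ ≤ (⌈R / δ⌉ : ℝ) := Int.le_ceil _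
    have ht1 : t / δ ≤ R / δ := by
      apply div_le_div_of_nonneg_right _ hδ.le
      exact (le_abs_self t).trans htR
    have ht2 : -(R / δ) ≤ t / δ := by
      rw [← neg_div]
      apply div_le_div_of_nonneg_right _ hδ.le
      exact (neg_le_neg htR).trans (neg_abs_le t)
    have hf1 : (k : ℝ) ≤ t / δ := Int.floor_le _
    have hf2 : t / δ < (k : ℝ) + 1 := Int.lt_floor_add_one _
    constructor
    · have : (-(N : ℝ)) < (k : ℝ) + 1 - 1 + 1 - 1 + 1 := by
        rw [hN]; push_cast; linarith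
      have h3 : (-(N : ℝ)) < (k : ℝ) + 1 := by linarith
      have h4 : -N < k + 1 := by exact_mod_cast h3
      omega
    · have : (k : ℝ) ≤ (N : ℝ) := by rw [hN]; push_cast; linarith
      exact_mod_cast this
  have hkT : k ∈ T i := Finset.mem_filter.mpr ⟨hkN, hcell⟩
  have := hy ⟨i, ⟨k, hkT⟩⟩
  simp only at this
  rw [← ht] at this
  have habs : |t - ((k : ℝ) + 1 / 2) * δ| ≤ δ / 2 := by
    rw [abs_le]; constructor <;> nlinarith
  linarith

end Vale.Agent.Lib.P243
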