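import Mathlib

namespace Vale.Agent.Lib.P243

open MeasureTheory Set

theorem planar_three_point {P : Set (ℝ × ℝ)} (hP : Convex ℝ P) {ζ W0 : ℝ}
    (hW : ∀ y y', (ζ, y) ∈ P → (ζ, y') ∈ P → y' - y ≤ W0)
    {z z' ya yb ya' yb' : ℝ} (hz : ζ < z) (hz' : z' < ζ) (ha : (z, ya) ∈ P) (hb : (z, yb) ∈ P)
    (ha' : (z', ya') ∈ P) (hb' : (z', yb') ∈ P) :
    (yb - ya - W0) * (ζ - z') ≤ (W0 - (yb' - ya')) * (z - ζ) := by
  have hzz : 0 < z - z' := by linarith
  set t : ℝ := (ζ - z') / (z - z') with ht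
  have ht0 : 0 ≤ t := div_nonneg (by linarith) hzz.le
  have ht1 : 0 ≤ 1 - t := by
    rw [ht, sub_nonneg, div_le_one hzz]; linarith
  have hcomb : (1 - t) * z' + t * z = ζ := by
    rw [ht]; field_simp; ring
  have hA : (ζ, (1 - t) * ya' + t * ya) ∈ P := by
    have := hP ha' ha ht1 ht0 (by ring)
    simpa [Prod.smul_mk, hcomb] using this
  have hB : (ζ, (1 - t) * yb' + t * yb) ∈ P := by
    have := hP hb' hb ht1 ht0 (by ring)
    simpa [Prod.smul_mk, hcomb] using this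
  have h := hW _ _ hA hB
  have ht' : t * (z - z') = ζ - z' := by rw [ht]; field_simp
  have h2 : ((1 - t) * yb' + t * yb - ((1 - t) * ya' + t * ya)) * (z - z') ≤ W0 * (z - z') :=
    mul_le_mul_of_nonneg_right h hzz.le
  have h3 : ((1 - t) * yb' + t * yb - ((1 - t) * ya' + t * ya)) * (z - z')
      = (yb' - ya') * ((z - z') - t * (z - z')) + (yb - ya) * (t * (z - z')) := by ring
  rw [h3, ht'] at h2
  nlinarith

theorem planar_slope {P : Set (ℝ × ℝ)} (hP : Convex ℝ P) {z0 z1 ζ W0 : ℝ} (y0 y1 : ℝ)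
    (h0 : (z0, y0) ∈ P) (h1 : (z1, y1) ∈ P) (hζ0 : z0 < ζ) (hζ1 : ζ < z1)
    (hW : ∀ y y', (ζ, y) ∈ P → (ζ, y') ∈ P → y' - y ≤ W0) :
    ∃ k : ℝ, ∀ z ya yb, (z, ya) ∈ P → (z, yb) ∈ P → yb - ya ≤ W0 + k * (z - ζ) := by
  let Sl : Set ℝ := {s | ∃ z ya yb, ζ < z ∧ (z, ya) ∈ P ∧ (z, yb) ∈ P ∧ s = (yb - ya - W0) / (z - ζ)}
  have hne : Sl.Nonempty := ⟨_, z1, y1, y1, hζ1, h1, h1, rfl⟩
  have hub : ∀ z' ya' yb', z' < ζ → (z', ya') ∈ P → (z', yb') ∈ P →
      ∀ s ∈ Sl, s ≤ (W0 - (yb' - ya')) / (ζ - z') := by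
    rintro z' ya' yb' hz' ha' hb' s ⟨z, ya, yb, hz, ha, hb, rfl⟩
    rw [div_le_div_iff₀ (by linarith) (by linarith)]
    exact planar_three_point hP hW hz hz' ha hb ha' hb'
  have hbdd : BddAbove Sl := ⟨_, hub z0 y0 y0 hζ0 h0 h0⟩
  refine ⟨sSup Sl, fun z ya yb ha hb => ?_⟩
  rcases lt_trichotomy z ζ with hz | hz | hz
  · have h := csSup_le hne (hub z ya yb hz ha hb)
    rw [le_div_iff₀ (by linarith)] at h
    nlinarith
  · subst hz
    have := hW _ _ ha hb
    simpa using this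
  · have h : (yb - ya - W0) / (z - ζ) ≤ sSup Sl := le_csSup hbdd ⟨z, ya, yb, hz, ha, hb, rfl⟩
    rw [div_le_iff₀ (by linarith)] at h
    linarith

theorem planar_area_le {P : Set (ℝ × ℝ)} (hP : Convex ℝ P) (hPm : MeasurableSet P)
    {z0 z1 ζ W0 : ℝ} (hz : ∀ p ∈ P, z0 ≤ p.1 ∧ p.1 ≤ z1) (y0 y1 : ℝ)
    (h0 : (z0, y0) ∈ P) (h1 : (z1, y1) ∈ P) (hζ0 : z0 < ζ) (hζ1 : ζ < z1)
    (hW : ∀ y y', (ζ, y) ∈ P → (ζ, y') ∈ P → y' - y ≤ W0) :
    volume P ≤ ENNReal.ofReal (W0 * (z1 - z0) ^ 2 / (2 * min (ζ - z0) (z1 - ζ))) := by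
  obtain ⟨k, hk⟩ := planar_slope hP y0 y1 h0 h1 hζ0 hζ1 hW
  have hL0 : 0 ≤ W0 + k * (z0 - ζ) := by simpa using hk z0 y0 y0 h0 h0
  have hL1 : 0 ≤ W0 + k * (z1 - ζ) := by simpa using hk z1 y1 y1 h1 h1
  have hLnn : ∀ z ∈ Icc z0 z1, 0 ≤ W0 + k * (z - ζ) := by
    intro z hz
    rcases le_total 0 k with hk0 | hk0
    · have : k * (z0 - ζ) ≤ k * (z - ζ) := mul_le_mul_of_nonneg_left (by linarith [hz.1]) hk0
      linarith
    · have : k * (z1 - ζ) ≤ k * (z - ζ) := mul_le_mul_of_nonpos_left (by linarith [hz.2]) hk0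
      linarith
  have hsec : ∀ z, volume (Prod.mk z ⁻¹' P)
      ≤ (Icc z0 z1).indicator (fun z => ENNReal.ofReal (W0 + k * (z - ζ))) z := by
    intro z
    by_cases hzI : z ∈ Icc z0 z1
    · rw [indicator_of_mem hzI]
      refine (Real.volume_le_diam _).trans ?_
      apply Metric.ediam_le
      intro y hy y' hy'
      rw [edist_dist, Real.dist_eq]
      apply ENNReal.ofReal_le_ofReal
      rw [abs_le]
      constructor
      · have := hk z y y' hy hy'; linarith
      · exact hk z y' y hy' hy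
    · rw [indicator_of_notMem hzI]
      have : Prod.mk z ⁻¹' P = ∅ := by
        ext y
        simp only [mem_preimage, mem_empty_iff_false, iff_false]
        intro hy
        exact hzI (hz _ hy)
      rw [this]; simp
  have hint : IntegrableOn (fun z => W0 + k * (z - ζ)) (Icc z0 z1) volume := by
    apply Continuous.integrableOn_Icc
    fun_prop
  have hle : z0 ≤ z1 := by linarith
  have hval : ∫ z in Icc z0 z1, (W0 + k * (z - ζ))
      = (z1 - z0) * W0 + k * (z1 - z0) * ((z1 - ζ) - (ζ - z0)) / 2 := by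
    rw [integral_Icc_eq_integral_Ioc, ← intervalIntegral.integral_of_le hle]
    have hderiv : ∀ x ∈ uIcc z0 z1, HasDerivAt (fun z => W0 * z + k * (z - ζ) ^ 2 / 2)
        (W0 + k * (x - ζ)) x := by
      intro x _
      have h1 : HasDerivAt (fun z : ℝ => W0 * z) W0 x := by
        simpa using (hasDerivAt_id x).const_mul W0
      have h2 : HasDerivAt (fun z : ℝ => k * (z - ζ) ^ 2 / 2) (k * (x - ζ)) x := by
        have h3 : HasDerivAt (fun z : ℝ => (z - ζ) ^ 2) (2 * (x - ζ)) x := by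
          simpa using ((hasDerivAt_id x).sub_const ζ).fun_pow 2
        have h4 := (h3.const_mul k).div_const 2
        exact h4.congr_deriv (by ring)
      exact h1.add h2
    rw [intervalIntegral.integral_eq_sub_of_hasDerivAt hderiv]
    · ring
    · apply Continuous.intervalIntegrable
      fun_prop
  calc volume P = ∫⁻ z, volume (Prod.mk z ⁻¹' P) := by
        rw [Measure.volume_eq_prod, Measure.prod_apply hPm]
    _ ≤ ∫⁻ z, (Icc z0 z1).indicator (fun z => ENNReal.ofReal (W0 + k * (z - ζ))) z :=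
        lintegral_mono hsec
    _ = ∫⁻ z in Icc z0 z1, ENNReal.ofReal (W0 + k * (z - ζ)) :=
        lintegral_indicator measurableSet_Icc _
    _ = ENNReal.ofReal (∫ z in Icc z0 z1, (W0 + k * (z - ζ))) := by
        rw [ofReal_integral_eq_lintegral_ofReal hint]
        exact (ae_restrict_iff' measurableSet_Icc).mpr (Filter.Eventually.of_forall hLnn)
    _ ≤ ENNReal.ofReal (W0 * (z1 - z0) ^ 2 / (2 * min (ζ - z0) (z1 - ζ))) := by
        apply ENNReal.ofReal_le_ofReal
        rw [hval]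
        have hd0 : 0 < ζ - z0 := by linarith
        have hd1 : 0 < z1 - ζ := by linarith
        rcases le_total (ζ - z0) (z1 - ζ) with hmin | hmin
        · rw [min_eq_left hmin, le_div_iff₀ (by positivity)]
          have hkk : k * (ζ - z0) ≤ W0 := by linarith
          have e : z1 - z0 = (ζ - z0) + (z1 - ζ) := by ring
          set d0 := ζ - z0
          set d1 := z1 - ζ
          rw [e]
          have : k * d0 * ((d0 + d1) * (d1 - d0)) ≤ W0 * ((d0 + d1) * (d1 - d0)) :=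
            mul_le_mul_of_nonneg_right hkk (mul_nonneg (by positivity) (by linarith))
          nlinarith
        · rw [min_eq_right hmin, le_div_iff₀ (by positivity)]
          have hkk : -(k * (z1 - ζ)) ≤ W0 := by linarith
          have e : z1 - z0 = (ζ - z0) + (z1 - ζ) := by ring
          set d0 := ζ - z0
          set d1 := z1 - ζ
          rw [e]
          have : -(k * d1) * ((d0 + d1) * (d0 - d1)) ≤ W0 * ((d0 + d1) * (d0 - d1)) :=
            mul_le_mul_of_nonneg_right hkk (mul_nonneg (by positivity) (by linarith))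
          nlinarith

end Vale.Agent.Lib.P243
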