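import Mathlib
import Vale.Agent.Lib.P243.BangMeas
import Vale.Agent.Lib.P243.Planar

namespace Vale.Agent.Lib.P243

open MeasureTheory Set
open scoped Pointwise

variable {E : Type*} [NormedAddCommGroup E] [InnerProductSpace ℝ E]

/-- The image of `K` under `x ↦ (⟨n,x⟩, ⟨ν,x⟩)`. -/
def shadow2 (n ν : E) (K : Set E) : Set (ℝ × ℝ) := (fun x => (inner ℝ n x, inner ℝ ν x)) '' K

theorem shadow2_convex (n ν : E) {K : Set E} (hK : Convex ℝ K) : Convex ℝ (shadow2 n ν K) := by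
  rintro _ ⟨x, hx, rfl⟩ _ ⟨y, hy, rfl⟩ a b ha hb hab
  refine ⟨a • x + b • y, hK hx hy ha hb hab, ?_⟩
  simp [inner_add_right, inner_smul_right]

theorem shadow2_measurable (n ν : E) {K : Set E} (hK : IsCompact K) :
    MeasurableSet (shadow2 n ν K) := by
  apply IsCompact.measurableSet
  apply hK.image
  fun_prop

theorem integral_min_tent {z0 z1 : ℝ} (h : z0 ≤ z1) :
    ∫ ζ in z0..z1, min (ζ - z0) (z1 - ζ) = (z1 - z0) ^ 2 / 4 := by
  set mid : ℝ := (z0 + z1) / 2 with hmid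
  have hm0 : z0 ≤ mid := by rw [hmid]; linarith
  have hm1 : mid ≤ z1 := by rw [hmid]; linarith
  have hcont : Continuous fun ζ : ℝ => min (ζ - z0) (z1 - ζ) := by fun_prop
  rw [← intervalIntegral.integral_add_adjacent_intervals (b := mid)
    (hcont.intervalIntegrable _ _) (hcont.intervalIntegrable _ _)]
  have h1 : ∫ ζ in z0..mid, min (ζ - z0) (z1 - ζ) = ∫ ζ in z0..mid, (ζ - z0) := by
    apply intervalIntegral.integral_congr
    intro ζ hζ
    rw [uIcc_of_le hm0] at hζ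
    apply min_eq_left
    have := hζ.2
    rw [hmid] at this
    linarith
  have h2 : ∫ ζ in mid..z1, min (ζ - z0) (z1 - ζ) = ∫ ζ in mid..z1, (z1 - ζ) := by
    apply intervalIntegral.integral_congr
    intro ζ hζ
    rw [uIcc_of_le hm1] at hζ
    apply min_eq_right
    have := hζ.1
    rw [hmid] at this
    linarith
  rw [h1, h2]
  rw [intervalIntegral.integral_sub intervalIntegral.intervalIntegrable_id
      (continuous_const.intervalIntegrable _ _),
    intervalIntegral.integral_sub (continuous_const.intervalIntegrable _ _)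
      intervalIntegral.intervalIntegrable_id]
  simp only [intervalIntegral.integral_const, integral_id, smul_eq_mul]
  rw [hmid]; ring

variable [CompleteSpace E]

theorem slice_hasChords {K : Set E} (hK : Convex ℝ K) (hKc : IsCompact K) {n : E} (hn : ‖n‖ = 1)
    {a : ℝ} (ha : 0 < a)
    (hsh : ∀ ν : E, ‖ν‖ = 1 → inner ℝ n ν = 0 → ENNReal.ofReal a ≤ volume (shadow2 n ν K))
    {z0 z1 : ℝ} {p0 p1 : E} (hp0 : p0 ∈ K) (hp1 : p1 ∈ K) (hz0 : inner ℝ n p0 = z0)
    (hz1 : inner ℝ n p1 = z1) (hmin : ∀ x ∈ K, z0 ≤ inner ℝ n x) (hmax : ∀ x ∈ K, inner ℝ n x ≤ z1)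
    {ζ : ℝ} (hζ0 : z0 < ζ) (hζ1 : ζ < z1) :
    HasChords (ℝ ∙ n)ᗮ (K ∩ {x | inner ℝ n x = ζ})
      (2 * a * min (ζ - z0) (z1 - ζ) / (z1 - z0) ^ 2) := by
  intro d hd hdc
  rw [Submodule.mem_orthogonal_singleton_iff_inner_right] at hd
  by_contra hno
  set Kz : Set E := K ∩ {x | inner ℝ n x = ζ} with hKz
  have hH : 0 < z1 - z0 := by linarith
  have hKzc : IsCompact Kz := by
    apply hKc.inter_right
    exact isClosed_eq (by fun_prop) continuous_const
  have hKzconv : Convex ℝ Kz := by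
    apply hK.inter
    intro x hx y hy s t _ _ hst
    simp only [mem_ofPred_eq] at hx hy ⊢
    rw [inner_add_right, inner_smul_right, inner_smul_right, hx, hy, ← add_mul, hst, one_mul]
  have hKzne : Kz.Nonempty := by
    refine ⟨((z1 - ζ) / (z1 - z0)) • p0 + ((ζ - z0) / (z1 - z0)) • p1, ?_, ?_⟩
    · apply hK hp0 hp1 (div_nonneg (by linarith) hH.le) (div_nonneg (by linarith) hH.le)
      field_simp; ring
    · simp only [mem_ofPred_eq]
      rw [inner_add_right, inner_smul_right, inner_smul_right, hz0, hz1]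
      field_simp; ring
  have hdD : d ∉ Kz - Kz := by
    rintro ⟨y, hy, x, hx, hxy⟩
    apply hno
    refine ⟨x, hx, ?_⟩
    have : x + d = y := by rw [← hxy]; simp
    rw [this]; exact hy
  have hDc : IsClosed (Kz - Kz) := by
    rw [sub_eq_add_neg]
    exact (hKzc.add hKzc.neg).isClosed
  obtain ⟨f, s, hfs, hsd⟩ := geometric_hahn_banach_closed_point (hKzconv.sub hKzconv) hDc hdD
  have hs0 : 0 < s := by
    obtain ⟨x, hx⟩ := hKzne
    have := hfs 0 ⟨x, hx, x, hx, by simp⟩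
    simpa using this
  set w : E := (InnerProductSpace.toDual ℝ E).symm f with hw
  have hwf : ∀ v, inner ℝ w v = f v := fun v => InnerProductSpace.toDual_symm_apply
  set w' : E := w - (inner ℝ n w) • n with hw'
  have hw'v : ∀ v, inner ℝ n v = 0 → inner ℝ w' v = f v := by
    intro v hv
    rw [hw', inner_sub_left, inner_smul_left, hv, hwf]; simp
  have hnw' : inner ℝ n w' = 0 := by
    rw [hw', inner_sub_right, inner_smul_right, real_inner_self_eq_norm_sq, hn]; ring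
  have hw'd : s < inner ℝ w' d := by rw [hw'v d hd]; exact hsd
  have hρ : 0 < ‖w'‖ := by
    rw [norm_pos_iff]
    intro h0
    rw [h0, inner_zero_left] at hw'd
    linarith
  set ρ : ℝ := ‖w'‖ with hρdef
  set ν : E := ρ⁻¹ • w' with hν
  have hνn : ‖ν‖ = 1 := by
    rw [hν, norm_smul, Real.norm_eq_abs, abs_of_pos (inv_pos.mpr hρ), ← hρdef, inv_mul_cancel₀ hρ.ne']
  have hnν : inner ℝ n ν = 0 := by rw [hν, inner_smul_right, hnw', mul_zero]
  have hνv : ∀ v, inner ℝ n v = 0 → inner ℝ ν v = ρ⁻¹ * f v := by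
    intro v hv
    rw [hν, inner_smul_left, hw'v v hv]; simp
  have hW : ∀ y y', (ζ, y) ∈ shadow2 n ν K → (ζ, y') ∈ shadow2 n ν K → y' - y ≤ ρ⁻¹ * s := by
    rintro y y' ⟨x, hx, hxe⟩ ⟨x', hx', hxe'⟩
    simp only [Prod.mk.injEq] at hxe hxe'
    rw [← hxe.2, ← hxe'.2, ← inner_sub_right, hνv _ (by rw [inner_sub_right, hxe.1, hxe'.1, sub_self])]
    apply mul_le_mul_of_nonneg_left _ (inv_pos.mpr hρ).le
    exact (hfs _ ⟨x', ⟨hx', hxe'.1⟩, x, ⟨hx, hxe.1⟩, rfl⟩).le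
  have harea := planar_area_le (shadow2_convex n ν hK) (shadow2_measurable n ν hKc)
    (z0 := z0) (z1 := z1) (ζ := ζ) (W0 := ρ⁻¹ * s)
    (by
      rintro _ ⟨x, hx, rfl⟩
      exact ⟨hmin x hx, hmax x hx⟩)
    (inner ℝ ν p0) (inner ℝ ν p1) ⟨p0, hp0, by simp only [hz0]⟩ ⟨p1, hp1, by simp only [hz1]⟩ hζ0 hζ1 hW
  have hlow := hsh ν hνn hnν
  have hνd : ρ⁻¹ * s < inner ℝ ν d := by
    rw [hνv d hd]
    exact mul_lt_mul_of_pos_left hsd (inv_pos.mpr hρ)
  have hνd2 : inner ℝ ν d ≤ ‖d‖ := by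
    calc inner ℝ ν d ≤ ‖ν‖ * ‖d‖ := real_inner_le_norm _ _
      _ = ‖d‖ := by rw [hνn, one_mul]
  have hmpos : 0 < min (ζ - z0) (z1 - ζ) := lt_min (by linarith) (by linarith)
  have hlt : ρ⁻¹ * s * (z1 - z0) ^ 2 / (2 * min (ζ - z0) (z1 - ζ)) < a := by
    have h1 : ρ⁻¹ * s < 2 * a * min (ζ - z0) (z1 - ζ) / (z1 - z0) ^ 2 := by linarith
    rw [lt_div_iff₀ (by positivity)] at h1
    rw [div_lt_iff₀ (by positivity)]
    linarith
  have := lt_of_le_of_lt (hlow.trans harea) ((ENNReal.ofReal_lt_ofReal_iff ha).mpr hlt)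
  exact lt_irrefl _ this


theorem core_coplanar {K : Set E} (hK : Convex ℝ K) (hKc : IsCompact K) (hne : K.Nonempty) {n : E}
    (hn : ‖n‖ = 1) {a : ℝ}
    (hsh : ∀ ν : E, ‖ν‖ = 1 → inner ℝ n ν = 0 → ENNReal.ofReal a ≤ volume (shadow2 n ν K))
    {m : ℕ} (ν : Fin m → E) (hν : ∀ i, ‖ν i‖ = 1) (hνn : ∀ i, inner ℝ n (ν i) = 0)
    (Q : Fin m → Set (ℝ × ℝ)) (hQ : ∀ i, MeasurableSet (Q i))
    (hcov : ∀ x ∈ K, ∃ i, (inner ℝ n x, inner ℝ (ν i) x) ∈ Q i) :
    ENNReal.ofReal (a / 2) ≤ ∑ i, volume (Q i) := by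
  rcases le_or_gt a 0 with ha | ha
  · rw [ENNReal.ofReal_of_nonpos (by linarith)]; exact zero_le
  obtain ⟨p0, hp0, hmin⟩ := hKc.exists_isMinOn hne (f := fun x => inner ℝ n x) (by fun_prop)
  obtain ⟨p1, hp1, hmax⟩ := hKc.exists_isMaxOn hne (f := fun x => inner ℝ n x) (by fun_prop)
  set z0 : ℝ := inner ℝ n p0 with hz0
  set z1 : ℝ := inner ℝ n p1 with hz1
  have hmin' : ∀ x ∈ K, z0 ≤ inner ℝ n x := fun x hx => hmin hx
  have hmax' : ∀ x ∈ K, inner ℝ n x ≤ z1 := fun x hx => hmax hx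
  rcases (hmin' p1 hp1).eq_or_lt with heq | hlt
  · exfalso
    obtain ⟨i, _⟩ := hcov p0 hp0
    have h1 := hsh (ν i) (hν i) (hνn i)
    have h2 : shadow2 n (ν i) K ⊆ {z0} ×ˢ (univ : Set ℝ) := by
      rintro _ ⟨x, hx, rfl⟩
      simp only [mem_prod, mem_singleton_iff, mem_univ, and_true]
      exact le_antisymm ((hmax' x hx).trans heq.ge) (hmin' x hx)
    have h3 : volume ({z0} ×ˢ (univ : Set ℝ)) = 0 := by
      rw [Measure.volume_eq_prod, Measure.prod_prod]; simp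
    have h4 : volume (shadow2 n (ν i) K) = 0 := measure_mono_null h2 h3
    rw [h4] at h1
    have : 0 < ENNReal.ofReal a := ENNReal.ofReal_pos.mpr ha
    exact absurd h1 (not_le.mpr this)
  have hlt' : z0 < z1 := hlt
  have hH : 0 < z1 - z0 := by linarith
  have hpt : ∀ ζ ∈ Ioo z0 z1, ENNReal.ofReal (2 * a * min (ζ - z0) (z1 - ζ) / (z1 - z0) ^ 2)
      ≤ ∑ i, volume (Prod.mk ζ ⁻¹' Q i) := by
    intro ζ hζ
    have hconv : Convex ℝ (K ∩ {x | inner ℝ n x = ζ}) := by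
      apply hK.inter
      intro x hx y hy s t _ _ hst
      simp only [mem_ofPred_eq] at hx hy ⊢
      rw [inner_add_right, inner_smul_right, inner_smul_right, hx, hy, ← add_mul, hst, one_mul]
    have hcomp : IsCompact (K ∩ {x | inner ℝ n x = ζ}) := by
      apply hKc.inter_right
      exact isClosed_eq (by fun_prop) continuous_const
    apply bang_measurable (W := (ℝ ∙ n)ᗮ) hconv hcomp
      (slice_hasChords hK hKc hn ha hsh hp0 hp1 rfl rfl hmin' hmax' hζ.1 hζ.2) ν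
      (fun i => (Submodule.mem_orthogonal_singleton_iff_inner_right).mpr (hνn i)) hν
      (fun i => Prod.mk ζ ⁻¹' Q i)
    intro x hx
    obtain ⟨i, hi⟩ := hcov x hx.1
    refine mem_iUnion.mpr ⟨i, ?_⟩
    have hxz : inner ℝ n x = ζ := hx.2
    show (ζ, inner ℝ (ν i) x) ∈ Q i
    rw [← hxz]; exact hi
  have hcontc : Continuous fun ζ : ℝ => 2 * a * min (ζ - z0) (z1 - ζ) / (z1 - z0) ^ 2 := by fun_prop
  have hval : ∫ ζ in Ioo z0 z1, 2 * a * min (ζ - z0) (z1 - ζ) / (z1 - z0) ^ 2 = a / 2 := by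
    rw [← integral_Ioc_eq_integral_Ioo, ← intervalIntegral.integral_of_le hlt'.le]
    have : (fun ζ : ℝ => 2 * a * min (ζ - z0) (z1 - ζ) / (z1 - z0) ^ 2)
        = fun ζ => (2 * a / (z1 - z0) ^ 2) * min (ζ - z0) (z1 - ζ) := by
      funext ζ; ring
    rw [this, intervalIntegral.integral_const_mul, integral_min_tent hlt'.le]
    field_simp
    ring
  calc ENNReal.ofReal (a / 2)
      = ENNReal.ofReal (∫ ζ in Ioo z0 z1, 2 * a * min (ζ - z0) (z1 - ζ) / (z1 - z0) ^ 2) := by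
        rw [hval]
    _ = ∫⁻ ζ in Ioo z0 z1, ENNReal.ofReal (2 * a * min (ζ - z0) (z1 - ζ) / (z1 - z0) ^ 2) := by
        rw [ofReal_integral_eq_lintegral_ofReal]
        · exact (hcontc.integrableOn_Icc (a := z0) (b := z1)).mono_set Ioo_subset_Icc_self
        · refine (ae_restrict_iff' measurableSet_Ioo).mpr (Filter.Eventually.of_forall ?_)
          intro ζ hζ
          have : 0 ≤ min (ζ - z0) (z1 - ζ) := le_min (by linarith [hζ.1]) (by linarith [hζ.2])
          show 0 ≤ 2 * a * min (ζ - z0) (z1 - ζ) / (z1 - z0) ^ 2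
          positivity
    _ ≤ ∫⁻ ζ in Ioo z0 z1, ∑ i, volume (Prod.mk ζ ⁻¹' Q i) :=
        setLIntegral_mono' measurableSet_Ioo hpt
    _ ≤ ∫⁻ ζ, ∑ i, volume (Prod.mk ζ ⁻¹' Q i) := setLIntegral_le_lintegral _ _
    _ = ∑ i, ∫⁻ ζ, volume (Prod.mk ζ ⁻¹' Q i) :=
        lintegral_finsetSum _ fun i _ => measurable_measure_prodMk_left (hQ i)
    _ = ∑ i, volume (Q i) := by
        apply Finset.sum_congr rfl
        intro i _
        rw [Measure.volume_eq_prod, Measure.prod_apply (hQ i)]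

end Vale.Agent.Lib.P243
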