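import Mathlib
import Vale.Agent.Lib.P243.Core

namespace Vale.Agent.Lib.P243

open MeasureTheory Set

variable {E : Type*} [NormedAddCommGroup E] [InnerProductSpace ℝ E] [FiniteDimensional ℝ E]
  [MeasurableSpace E] [BorelSpace E] [Fact (Module.finrank ℝ E = 2 + 1)]

theorem exists_coords {u e f : E} (hu : ‖u‖ = 1) (he : ‖e‖ = 1) (hf : ‖f‖ = 1)
    (hue : inner ℝ u e = 0) (huf : inner ℝ u f = 0) (hef : inner ℝ e f = 0) :
    ∃ κ : (ℝ ∙ u)ᗮ ≃ᵐ ℝ × ℝ, MeasurePreserving κ volume volume ∧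
      ∀ p : (ℝ ∙ u)ᗮ, κ p = (inner ℝ e (p : E), inner ℝ f (p : E)) := by
  have hu0 : u ≠ 0 := by
    intro h; rw [h, norm_zero] at hu; exact zero_ne_one hu
  let e' : (ℝ ∙ u)ᗮ := ⟨e, Submodule.mem_orthogonal_singleton_iff_inner_right.mpr hue⟩
  let f' : (ℝ ∙ u)ᗮ := ⟨f, Submodule.mem_orthogonal_singleton_iff_inner_right.mpr huf⟩
  have hon : Orthonormal ℝ ![e', f'] := by
    constructor
    · intro i
      fin_cases i
      · simpa [e'] using he
      · simpa [f'] using hf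
    · intro i j hij
      fin_cases i <;> fin_cases j
      · exact absurd rfl hij
      · simpa [e', f'] using hef
      · simpa [e', f', real_inner_comm] using hef
      · exact absurd rfl hij
  have hcard : Fintype.card (Fin 2) = Module.finrank ℝ (ℝ ∙ u)ᗮ := by
    rw [Submodule.finrank_orthogonal_span_singleton (n := 2) hu0]; simp
  let b0 := basisOfOrthonormalOfCardEqFinrank hon hcard
  have hb0 : (b0 : Fin 2 → (ℝ ∙ u)ᗮ) = ![e', f'] := coe_basisOfOrthonormalOfCardEqFinrank hon hcard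
  let b : OrthonormalBasis (Fin 2) ℝ (ℝ ∙ u)ᗮ := b0.toOrthonormalBasis (by rw [hb0]; exact hon)
  have hb : (b : Fin 2 → (ℝ ∙ u)ᗮ) = ![e', f'] := by
    rw [Module.Basis.coe_toOrthonormalBasis, hb0]
  let κ : (ℝ ∙ u)ᗮ ≃ᵐ ℝ × ℝ := (b.repr.toHomeomorph.toMeasurableEquiv).trans
    ((MeasurableEquiv.toLp 2 (Fin 2 → ℝ)).symm.trans MeasurableEquiv.finTwoArrow)
  refine ⟨κ, ?_, ?_⟩
  · exact (b.measurePreserving_repr).trans
      ((EuclideanSpace.volume_preserving_symm_measurableEquiv_toLp (Fin 2)).trans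
        (volume_preserving_finTwoArrow ℝ))
  · intro p
    have h0 : b.repr p 0 = inner ℝ e (p : E) := by
      rw [b.repr_apply_apply, hb]; simp [e']
    have h1 : b.repr p 1 = inner ℝ f (p : E) := by
      rw [b.repr_apply_apply, hb]; simp [f']
    rw [← h0, ← h1]
    rfl

theorem exists_third {u e : E} : ∃ f : E, ‖f‖ = 1 ∧ inner ℝ u f = 0 ∧ inner ℝ e f = 0 := by
  classical
  let S : Submodule ℝ E := Submodule.span ℝ {u, e}
  have hS : S ≠ ⊤ := by
    intro h
    have h1 : Module.finrank ℝ S ≤ 2 := by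
      have := finrank_span_finset_le_card (R := ℝ) ({u, e} : Finset E)
      have h2 : ({u, e} : Finset E).card ≤ 2 := Finset.card_le_two
      have h3 : (Submodule.span ℝ (({u, e} : Finset E) : Set E)) = S := by simp [S]
      rw [Set.finrank, h3] at this
      exact this.trans h2
    rw [h, finrank_top, (Fact.out : Module.finrank ℝ E = 2 + 1)] at h1
    omega
  have hSo : Sᗮ ≠ ⊥ := by
    intro h
    exact hS (Submodule.orthogonal_eq_bot_iff.mp h)
  obtain ⟨w, hw, hw0⟩ := Submodule.exists_mem_ne_zero_of_ne_bot hSo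
  have hwn : 0 < ‖w‖ := norm_pos_iff.mpr hw0
  rw [Submodule.mem_orthogonal] at hw
  refine ⟨‖w‖⁻¹ • w, ?_, ?_, ?_⟩
  · rw [norm_smul, norm_inv, norm_norm, inv_mul_cancel₀ hwn.ne']
  · rw [inner_smul_right, hw u (Submodule.subset_span (by simp)), mul_zero]
  · rw [inner_smul_right, hw e (Submodule.subset_span (by simp)), mul_zero]

theorem volume_shadow_eq {u e f : E} (hu : ‖u‖ = 1) (he : ‖e‖ = 1) (hf : ‖f‖ = 1)
    (hue : inner ℝ u e = 0) (huf : inner ℝ u f = 0) (hef : inner ℝ e f = 0) (K : Set E) :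
    volume ((ℝ ∙ u)ᗮ.orthogonalProjectionOnto '' K) = volume (shadow2 e f K) := by
  obtain ⟨κ, hκ, hκa⟩ := exists_coords hu he hf hue huf hef
  have h1 : shadow2 e f K = κ '' ((ℝ ∙ u)ᗮ.orthogonalProjectionOnto '' K) := by
    rw [image_image, shadow2]
    apply image_congr
    intro x _
    rw [hκa]
    let e' : (ℝ ∙ u)ᗮ := ⟨e, Submodule.mem_orthogonal_singleton_iff_inner_right.mpr hue⟩
    let f' : (ℝ ∙ u)ᗮ := ⟨f, Submodule.mem_orthogonal_singleton_iff_inner_right.mpr huf⟩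
    have h2 := Submodule.inner_orthogonalProjectionOnto_eq_of_mem_left (K := (ℝ ∙ u)ᗮ) e' x
    have h3 := Submodule.inner_orthogonalProjectionOnto_eq_of_mem_left (K := (ℝ ∙ u)ᗮ) f' x
    rw [Submodule.coe_inner] at h2 h3
    rw [h2, h3]
  rw [h1, MeasurableEquiv.image_eq_preimage_symm, (hκ.symm κ).measure_preimage_equiv]

end Vale.Agent.Lib.P243
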