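import Mathlib

/-!
# One-dimensional lemmas for the volume/concavity estimate
-/

namespace Vale.Agent.Lib.P243

open MeasureTheory Set

theorem lintegral_poly {R x y : ℝ} (hx : 0 ≤ x) (hxy : x ≤ y) (hy : y ≤ R) :
    ∫⁻ c in Ioc x y, ENNReal.ofReal (2 * c * (R - c)) =
      ENNReal.ofReal ((R * y ^ 2 - 2 / 3 * y ^ 3) - (R * x ^ 2 - 2 / 3 * x ^ 3)) := by
  have hderiv : ∀ c ∈ uIcc x y, HasDerivAt (fun c : ℝ => R * c ^ 2 - 2 / 3 * c ^ 3)
      (2 * c * (R - c)) c := by
    intro c _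
    have h1 : HasDerivAt (fun c : ℝ => R * c ^ 2) (R * (2 * c)) c := by
      have := (hasDerivAt_pow 2 c).const_mul R
      simpa using this
    have h2 : HasDerivAt (fun c : ℝ => 2 / 3 * c ^ 3) (2 / 3 * (3 * c ^ 2)) c := by
      have := (hasDerivAt_pow 3 c).const_mul (2 / 3 : ℝ)
      simpa using this
    have := h1.sub h2
    have e : R * (2 * c) - 2 / 3 * (3 * c ^ 2) = 2 * c * (R - c) := by ring
    rw [e] at this
    exact this
  have hcont : Continuous fun c : ℝ => 2 * c * (R - c) := by fun_prop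
  have hint : IntervalIntegrable (fun c : ℝ => 2 * c * (R - c)) volume x y :=
    hcont.intervalIntegrable _ _
  have h := intervalIntegral.integral_eq_sub_of_hasDerivAt hderiv hint
  rw [← h, intervalIntegral.integral_of_le hxy, ofReal_integral_eq_lintegral_ofReal]
  · exact (hcont.integrableOn_Icc (a := x) (b := y)).mono_set Ioc_subset_Icc_self
  · rw [Filter.EventuallyLE, ae_restrict_iff' measurableSet_Ioc]
    refine Filter.Eventually.of_forall fun c hc => ?_
    have h1 : 0 ≤ c := hx.trans hc.1.le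
    have h2 : 0 ≤ R - c := by linarith [hc.2]
    simp only [Pi.zero_apply]
    positivity

/-- The ray lemma. -/
theorem ray_lemma {τ : ℝ → ENNReal} {R b : ℝ} (hR : 0 < R) (hb0 : 0 ≤ b) (hb1 : b < 1)
    (hfin : τ (b * R) ≠ ⊤)
    (hstar : ∀ c c' : ℝ, 0 ≤ c → c ≤ c' → c' < R →
      ENNReal.ofReal ((R - c') / (R - c)) * τ c ≤ τ c') :
    ∫⁻ c in Ioc 0 (b * R), τ c * ENNReal.ofReal (2 * c) ≤
      ENNReal.ofReal (3 * b ^ 2 - 2 * b ^ 3) * ∫⁻ c in Ioc 0 R, τ c * ENNReal.ofReal (2 * c) := by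
  set κ := b * R with hκ
  have hκ0 : 0 ≤ κ := mul_nonneg hb0 hR.le
  have hκR : κ < R := by
    rw [hκ]; nlinarith
  have hd : 0 < R - κ := by linarith
  set T := τ κ with hT
  set φ := 3 * b ^ 2 - 2 * b ^ 3 with hφ
  have hφ0 : 0 ≤ φ := by
    rw [hφ]
    have : 3 * b ^ 2 - 2 * b ^ 3 = b ^ 2 * (3 - 2 * b) := by ring
    rw [this]
    have : 0 ≤ 3 - 2 * b := by linarith
    positivity
  have hφ1 : 0 ≤ 1 - φ := by
    rw [hφ]
    have : 1 - (3 * b ^ 2 - 2 * b ^ 3) = (1 - b) ^ 2 * (1 + 2 * b) := by ring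
    rw [this]
    positivity
  set I1 := ((R * κ ^ 2 - 2 / 3 * κ ^ 3) - (R * (0 : ℝ) ^ 2 - 2 / 3 * (0 : ℝ) ^ 3)) / (R - κ) with hI1
  set I2 := ((R * R ^ 2 - 2 / 3 * R ^ 3) - (R * κ ^ 2 - 2 / 3 * κ ^ 3)) / (R - κ) with hI2
  have hI1nn : 0 ≤ I1 := by
    rw [hI1]
    apply div_nonneg _ hd.le
    have : (R * κ ^ 2 - 2 / 3 * κ ^ 3) - (R * (0 : ℝ) ^ 2 - 2 / 3 * (0 : ℝ) ^ 3)
        = κ ^ 2 * (R - 2 / 3 * κ) := by ring
    rw [this]
    have : 0 ≤ R - 2 / 3 * κ := by linarith
    positivity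
  have hI2nn : 0 ≤ I2 := by
    rw [hI2]
    apply div_nonneg _ hd.le
    have : (R * R ^ 2 - 2 / 3 * R ^ 3) - (R * κ ^ 2 - 2 / 3 * κ ^ 3)
        = (R - κ) ^ 2 * (R + 2 * κ) / 3 := by ring
    rw [this]
    positivity
  have hbal : (1 - φ) * I1 = φ * I2 := by
    rw [hI1, hI2, hφ, hκ]
    field_simp
    ring
  -- upper bound for the inner part
  have hN : ∫⁻ c in Ioc 0 κ, τ c * ENNReal.ofReal (2 * c) ≤ T * ENNReal.ofReal I1 := by
    have h1 : ∫⁻ c in Ioc 0 κ, τ c * ENNReal.ofReal (2 * c) ≤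
        ∫⁻ c in Ioc 0 κ, (T * ENNReal.ofReal (R - κ)⁻¹) * ENNReal.ofReal (2 * c * (R - c)) := by
      refine setLIntegral_mono' measurableSet_Ioc fun c hc => ?_
      have hc0 : 0 ≤ c := hc.1.le
      have hcR : 0 < R - c := by linarith [hc.2]
      have hs := hstar c κ hc0 hc.2 hκR
      have e : τ c = ENNReal.ofReal ((R - c) / (R - κ)) * (ENNReal.ofReal ((R - κ) / (R - c)) * τ c) := by
        rw [← mul_assoc, ← ENNReal.ofReal_mul (by positivity)]
        have : (R - c) / (R - κ) * ((R - κ) / (R - c)) = 1 := by field_simp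
        rw [this, ENNReal.ofReal_one, one_mul]
      calc τ c * ENNReal.ofReal (2 * c)
          = ENNReal.ofReal ((R - c) / (R - κ)) * (ENNReal.ofReal ((R - κ) / (R - c)) * τ c)
              * ENNReal.ofReal (2 * c) := by rw [← e]
        _ ≤ ENNReal.ofReal ((R - c) / (R - κ)) * T * ENNReal.ofReal (2 * c) := by gcongr
        _ = (T * ENNReal.ofReal (R - κ)⁻¹) * ENNReal.ofReal (2 * c * (R - c)) := by
            have e2 : ENNReal.ofReal ((R - c) / (R - κ)) =
                ENNReal.ofReal (R - c) * ENNReal.ofReal (R - κ)⁻¹ := by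
              rw [div_eq_mul_inv, ENNReal.ofReal_mul hcR.le]
            have e3 : ENNReal.ofReal (2 * c * (R - c)) =
                ENNReal.ofReal (2 * c) * ENNReal.ofReal (R - c) := by
              rw [ENNReal.ofReal_mul (by positivity)]
            rw [e2, e3]
            ring
    refine h1.trans (le_of_eq ?_)
    rw [lintegral_const_mul' _ _ (ENNReal.mul_ne_top hfin ENNReal.ofReal_ne_top),
      lintegral_poly le_rfl hκ0 hκR.le, mul_assoc, ← ENNReal.ofReal_mul (by positivity), hI1]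
    congr 2
    ring
  -- lower bound for the outer part
  have hD : T * ENNReal.ofReal I2 ≤ ∫⁻ c in Ioc κ R, τ c * ENNReal.ofReal (2 * c) := by
    have h1 : ∫⁻ c in Ioc κ R, (T * ENNReal.ofReal (R - κ)⁻¹) * ENNReal.ofReal (2 * c * (R - c)) ≤
        ∫⁻ c in Ioc κ R, τ c * ENNReal.ofReal (2 * c) := by
      refine setLIntegral_mono' measurableSet_Ioc fun c hc => ?_
      have hc0 : 0 ≤ c := hκ0.trans hc.1.le
      rcases eq_or_lt_of_le hc.2 with h | h
      · rw [h]; simp
      · have hcR : 0 < R - c := by linarith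
        have hs := hstar κ c hκ0 hc.1.le h
        calc (T * ENNReal.ofReal (R - κ)⁻¹) * ENNReal.ofReal (2 * c * (R - c))
            = ENNReal.ofReal ((R - c) / (R - κ)) * T * ENNReal.ofReal (2 * c) := by
              have e2 : ENNReal.ofReal ((R - c) / (R - κ)) =
                  ENNReal.ofReal (R - c) * ENNReal.ofReal (R - κ)⁻¹ := by
                rw [div_eq_mul_inv, ENNReal.ofReal_mul hcR.le]
              have e3 : ENNReal.ofReal (2 * c * (R - c)) =
                  ENNReal.ofReal (2 * c) * ENNReal.ofReal (R - c) := by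
                rw [ENNReal.ofReal_mul (by positivity)]
              rw [e2, e3]
              ring
          _ ≤ τ c * ENNReal.ofReal (2 * c) := by gcongr
    refine le_trans (le_of_eq ?_) h1
    rw [lintegral_const_mul' _ _ (ENNReal.mul_ne_top hfin ENNReal.ofReal_ne_top),
      lintegral_poly hκ0 hκR.le le_rfl, mul_assoc, ← ENNReal.ofReal_mul (by positivity), hI2]
    congr 2
    ring
  -- split
  have hsplit : ∫⁻ c in Ioc 0 R, τ c * ENNReal.ofReal (2 * c) =
      (∫⁻ c in Ioc 0 κ, τ c * ENNReal.ofReal (2 * c)) +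
        ∫⁻ c in Ioc κ R, τ c * ENNReal.ofReal (2 * c) := by
    have := lintegral_union (μ := volume) (f := fun c => τ c * ENNReal.ofReal (2 * c))
      (A := Ioc 0 κ) (B := Ioc κ R) measurableSet_Ioc (Ioc_disjoint_Ioc_of_le le_rfl)
    rw [Ioc_union_Ioc_eq_Ioc hκ0 hκR.le] at this
    exact this
  rw [hsplit]
  set N := ∫⁻ c in Ioc 0 κ, τ c * ENNReal.ofReal (2 * c) with hNdef
  set D2 := ∫⁻ c in Ioc κ R, τ c * ENNReal.ofReal (2 * c) with hD2def
  calc N = ENNReal.ofReal φ * N + ENNReal.ofReal (1 - φ) * N := by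
        rw [← add_mul, ← ENNReal.ofReal_add hφ0 hφ1]; simp
    _ ≤ ENNReal.ofReal φ * N + ENNReal.ofReal (1 - φ) * (T * ENNReal.ofReal I1) := by gcongr
    _ = ENNReal.ofReal φ * N + ENNReal.ofReal φ * (T * ENNReal.ofReal I2) := by
        congr 1
        rw [mul_left_comm, ← ENNReal.ofReal_mul hφ1, hbal, ENNReal.ofReal_mul hφ0, mul_left_comm]
    _ ≤ ENNReal.ofReal φ * N + ENNReal.ofReal φ * D2 := by gcongr
    _ = ENNReal.ofReal φ * (N + D2) := by rw [mul_add]

/-- Layer cake for the square of a truncated function. -/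
theorem layer_sq (μ : Measure ℝ) {a : ℝ → ℝ} (ha : Measurable a) (ha0 : ∀ t, 0 ≤ a t) {κ : ℝ}
    (hκ : 0 ≤ κ) :
    ∫⁻ t, ENNReal.ofReal ((min κ (a t)) ^ 2) ∂μ =
      ∫⁻ c in Ioc 0 κ, μ {t | c ≤ a t} * ENNReal.ofReal (2 * c) := by
  have key := lintegral_comp_eq_lintegral_meas_le_mul μ (f := fun t => min κ (a t))
    (g := fun c => 2 * c) (Filter.Eventually.of_forall fun t => le_min hκ (ha0 t))
    ((measurable_const.min ha).aemeasurable)
    (fun t _ => (by fun_prop : Continuous fun c : ℝ => 2 * c).intervalIntegrable _ _)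
    (by
      rw [ae_restrict_iff' measurableSet_Ioi]
      exact Filter.Eventually.of_forall fun c hc => by
        have : (0 : ℝ) < c := hc
        positivity)
  have e1 : ∀ t, ∫ c in (0 : ℝ)..(min κ (a t)), 2 * c = (min κ (a t)) ^ 2 := by
    intro t
    rw [intervalIntegral.integral_const_mul, integral_id]
    ring
  simp only [e1] at key
  rw [key, ← lintegral_indicator measurableSet_Ioi, ← lintegral_indicator measurableSet_Ioc]
  refine lintegral_congr fun c => ?_
  by_cases hc : 0 < c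
  · rw [indicator_of_mem (show c ∈ Ioi (0 : ℝ) from hc)]
    by_cases hc2 : c ≤ κ
    · rw [indicator_of_mem (show c ∈ Ioc 0 κ from ⟨hc, hc2⟩)]
      congr 2
      ext t
      simp [hc2]
    · rw [indicator_of_notMem (fun h : c ∈ Ioc 0 κ => hc2 h.2)]
      have : {t | c ≤ min κ (a t)} = ∅ := by
        ext t
        simp only [Set.mem_ofPred_eq, le_min_iff, mem_empty_iff_false, iff_false, not_and]
        intro h; exact absurd h hc2
      rw [this, measure_empty, zero_mul]
  · rw [indicator_of_notMem (fun h : c ∈ Ioi (0 : ℝ) => hc h),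
      indicator_of_notMem (fun h : c ∈ Ioc 0 κ => hc h.1)]

end Vale.Agent.Lib.P243
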