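import Mathlib
import Vale.Agent.Lib.P243.Lev
import Vale.Agent.Lib.P243.Ray
import Vale.Agent.Lib.P243.BMPlane

/-!
# The volume of the part of a convex body inside a cylinder
-/

namespace Vale.Agent.Lib.P243

open MeasureTheory Set
open scoped Pointwise

theorem vol_cyl_le {K : Set ((ℝ × ℝ) × ℝ)} (hK : IsCompact K) (hc : Convex ℝ K)
    {Q : Set (ℝ × ℝ)} (hQ : MeasurableSet Q) {b : ℝ} (hb0 : 0 ≤ b) (hb1 : b ≤ 1)
    (hQb : volume (Q ∩ Prod.fst '' K) ≤ ENNReal.ofReal (b ^ 2) * volume (Prod.fst '' K)) :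
    volume (K ∩ Q ×ˢ univ) ≤ ENNReal.ofReal (3 * b ^ 2 - 2 * b ^ 3) * volume K := by
  have hvolK : volume K = ∫⁻ t in Ioi 0, volume (lev K t) := by
    have := volume_inter_eq_lintegral_lev (volume : Measure (ℝ × ℝ)) hK hc MeasurableSet.univ
    simpa [Measure.volume_eq_prod] using this
  have hvolQ : volume (K ∩ Q ×ˢ univ) = ∫⁻ t in Ioi 0, volume (Q ∩ lev K t) := by
    have := volume_inter_eq_lintegral_lev (volume : Measure (ℝ × ℝ)) hK hc hQ
    rw [← this, Measure.volume_eq_prod ((ℝ × ℝ)) ℝ]
  have hfinlev : ∀ t, volume (lev K t) ≠ ⊤ := fun t => (lev_isCompact hK t).measure_lt_top.ne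
  rcases eq_or_lt_of_le hb1 with hb | hb
  · rw [hb]
    norm_num
    exact measure_mono inter_subset_left
  set a : ℝ → ℝ := fun t => Real.sqrt (volume (lev K t)).toReal with ha
  have ha0 : ∀ t, 0 ≤ a t := fun t => Real.sqrt_nonneg _
  have hameas : Measurable a := by
    have := measurable_measure_lev (volume : Measure (ℝ × ℝ)) hK MeasurableSet.univ
    simp only [univ_inter] at this
    exact (this.ennreal_toReal).sqrt
  have hasq : ∀ t, ENNReal.ofReal ((a t) ^ 2) = volume (lev K t) := by
    intro t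
    rw [ha]
    simp only
    rw [Real.sq_sqrt ENNReal.toReal_nonneg, ENNReal.ofReal_toReal (hfinlev t)]
  set R := a 0 with hR
  have haR : ∀ t, 0 ≤ t → a t ≤ R := by
    intro t ht
    apply Real.sqrt_le_sqrt
    exact ENNReal.toReal_mono (hfinlev 0) (measure_mono (lev_anti hc le_rfl ht))
  rcases eq_or_lt_of_le (ha0 0) with hR0 | hR0
  · -- degenerate: the shadow is a null set
    have h0 : volume (lev K 0) = 0 := by
      rw [← hasq 0, ← hR0]; simp
    have hz : volume K = 0 := by
      rw [hvolK]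
      have : ∀ t ∈ Ioi (0 : ℝ), volume (lev K t) = 0 := fun t ht =>
        measure_mono_null (lev_anti hc le_rfl (le_of_lt ht)) h0
      rw [setLIntegral_congr_fun measurableSet_Ioi this]
      simp
    rw [measure_mono_null inter_subset_left hz]
    exact zero_le
  set dom : Set ℝ := Ioi 0 ∩ Prod.snd '' (levGraph K) with hdom
  have hdomc : IsCompact (Prod.snd '' (levGraph K)) := (levGraph_isCompact hK).image continuous_snd
  have hdomm : MeasurableSet dom := measurableSet_Ioi.inter hdomc.isClosed.measurableSet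
  have hdomfin : volume dom ≠ ⊤ :=
    ((measure_mono inter_subset_right).trans_lt hdomc.measure_lt_top).ne
  have hmemdom : ∀ t, t ∈ dom ↔ 0 < t ∧ (lev K t).Nonempty := by
    intro t
    constructor
    · rintro ⟨ht, ⟨p, t'⟩, hq, rfl⟩
      exact ⟨ht, p, hq⟩
    · rintro ⟨ht, p, hp⟩
      exact ⟨ht, (p, t), hp, rfl⟩
  have hoff : ∀ t, 0 < t → t ∉ dom → lev K t = ∅ := by
    intro t ht hnd
    by_contra h
    exact hnd ((hmemdom t).2 ⟨ht, nonempty_iff_ne_empty.mpr h⟩)
  set μ : Measure ℝ := volume.restrict dom with hμ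
  set τ : ℝ → ENNReal := fun c => μ {t | c ≤ a t} with hτ
  have hτfin : ∀ c, τ c ≠ ⊤ := by
    intro c
    refine ((measure_mono (subset_univ _)).trans_lt ?_).ne
    rw [hμ, Measure.restrict_apply_univ]
    exact hdomfin.lt_top
  -- the total volume
  have hV : volume K = ∫⁻ c in Ioc 0 R, τ c * ENNReal.ofReal (2 * c) := by
    rw [← layer_sq μ hameas ha0 hR0.le, hvolK, hμ, ← lintegral_indicator measurableSet_Ioi,
      ← lintegral_indicator hdomm]
    refine lintegral_congr fun t => ?_
    by_cases ht : 0 < t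
    · rw [indicator_of_mem (show t ∈ Ioi (0 : ℝ) from ht)]
      by_cases htd : t ∈ dom
      · rw [indicator_of_mem htd, min_eq_right (haR t ht.le), hasq]
      · rw [indicator_of_notMem htd, hoff t ht htd, measure_empty]
    · rw [indicator_of_notMem (fun h : t ∈ Ioi (0 : ℝ) => ht h),
        indicator_of_notMem (fun h : t ∈ dom => ht h.1)]
  -- the part in the cylinder
  have hbR : 0 ≤ b * R := mul_nonneg hb0 hR0.le
  have hN : volume (K ∩ Q ×ˢ univ) ≤ ∫⁻ c in Ioc 0 (b * R), τ c * ENNReal.ofReal (2 * c) := by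
    rw [← layer_sq μ hameas ha0 hbR, hvolQ, hμ, ← lintegral_indicator measurableSet_Ioi,
      ← lintegral_indicator hdomm]
    refine lintegral_mono fun t => ?_
    by_cases ht : 0 < t
    · rw [indicator_of_mem (show t ∈ Ioi (0 : ℝ) from ht)]
      by_cases htd : t ∈ dom
      · rw [indicator_of_mem htd]
        rcases le_total (b * R) (a t) with h | h
        · rw [min_eq_left h, mul_pow, ENNReal.ofReal_mul (by positivity), hR, hasq 0]
          refine le_trans (measure_mono ?_) (by rw [lev_zero]; exact hQb)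
          exact inter_subset_inter_right _ (by rw [← lev_zero]; exact lev_anti hc le_rfl ht.le)
        · rw [min_eq_right h, hasq]
          exact measure_mono inter_subset_right
      · rw [indicator_of_notMem htd, hoff t ht htd, inter_empty, measure_empty]
    · rw [indicator_of_notMem (fun h : t ∈ Ioi (0 : ℝ) => ht h),
        indicator_of_notMem (fun h : t ∈ dom => ht h.1)]
  -- star-shapedness
  have hstar : ∀ c c' : ℝ, 0 ≤ c → c ≤ c' → c' < R →
      ENNReal.ofReal ((R - c') / (R - c)) * τ c ≤ τ c' := by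
    intro c c' hc0 hcc' hc'R
    have hd' : 0 < R - c' := by linarith
    have hd : 0 < R - c := by linarith
    set l := (R - c') / (R - c) with hl
    have hl0 : 0 < l := div_pos hd' hd
    have hl1 : l ≤ 1 := by
      rw [hl, div_le_one hd]; linarith
    have hmS : ∀ c, MeasurableSet {t | c ≤ a t} := fun c => measurableSet_le measurable_const hameas
    rw [hτ]
    simp only
    rw [hμ, Measure.restrict_apply (hmS c), Measure.restrict_apply (hmS c')]
    have hsm : volume (l • ({t | c ≤ a t} ∩ dom)) = ENNReal.ofReal l * volume ({t | c ≤ a t} ∩ dom) := by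
      rw [Measure.addHaar_smul]
      simp [abs_of_pos hl0]
    rw [← hsm]
    refine measure_mono ?_
    rintro _ ⟨t, ⟨htc, htd⟩, rfl⟩
    obtain ⟨ht0, htne⟩ := (hmemdom t).1 htd
    have hlt0 : 0 < l * t := mul_pos hl0 ht0
    have hltt : l * t ≤ t := by nlinarith
    have hne' : (lev K (l * t)).Nonempty := htne.mono (lev_anti hc hlt0.le hltt)
    have hne0 : (lev K 0).Nonempty := htne.mono (lev_anti hc le_rfl ht0.le)
    refine ⟨?_, (hmemdom _).2 ⟨hlt0, hne'⟩⟩
    have hbm := bm_plane (lev_isCompact hK 0) (lev_convex hc 0) hne0 (lev_isCompact hK t)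
      (lev_convex hc t) htne (lev_isCompact hK (l * t)) (lev_convex hc (l * t))
      (a := 1 - l) (b := l) (by linarith) hl0.le (by ring)
      (by
        intro x hx y hy
        have := lev_comb hc hx hy (a := 1 - l) (b := l) (by linarith) hl0.le (by ring)
        simpa using this)
    have htc' : c ≤ a t := htc
    have e : c' = (1 - l) * R + l * c := by
      rw [hl]; field_simp; ring
    show c' ≤ a (l • t)
    rw [smul_eq_mul, e]
    calc (1 - l) * R + l * c ≤ (1 - l) * R + l * a t := by gcongr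
      _ ≤ a (l * t) := hbm
  calc volume (K ∩ Q ×ˢ univ) ≤ ∫⁻ c in Ioc 0 (b * R), τ c * ENNReal.ofReal (2 * c) := hN
    _ ≤ ENNReal.ofReal (3 * b ^ 2 - 2 * b ^ 3) * ∫⁻ c in Ioc 0 R, τ c * ENNReal.ofReal (2 * c) :=
        ray_lemma hR0 hb0 hb (hτfin _) hstar
    _ = ENNReal.ofReal (3 * b ^ 2 - 2 * b ^ 3) * volume K := by rw [hV]

end Vale.Agent.Lib.P243
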