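import Mathlib
import Vale.Agent.Lib.P243.Bridge
import Vale.Agent.Lib.P243.VolConc

namespace Vale.Agent.Lib.P243

open MeasureTheory Set

variable {E : Type*} [NormedAddCommGroup E] [InnerProductSpace ℝ E] [FiniteDimensional ℝ E]
  [MeasurableSpace E] [BorelSpace E] [Fact (Module.finrank ℝ E = 2 + 1)]

theorem exists_coords3 {u e f : E} (hu : ‖u‖ = 1) (he : ‖e‖ = 1) (hf : ‖f‖ = 1)
    (hue : inner ℝ u e = 0) (huf : inner ℝ u f = 0) (hef : inner ℝ e f = 0) :
    ∃ Φ : E ≃ᵐ (ℝ × ℝ) × ℝ, MeasurePreserving Φ volume volume ∧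
      ∀ x : E, Φ x = ((inner ℝ e x, inner ℝ f x), inner ℝ u x) := by
  have hon : Orthonormal ℝ ![e, f, u] := by
    constructor
    · intro i
      fin_cases i
      · simpa using he
      · simpa using hf
      · simpa using hu
    · intro i j hij
      fin_cases i <;> fin_cases j
      · exact absurd rfl hij
      · simpa using hef
      · simpa [real_inner_comm] using hue
      · simpa [real_inner_comm] using hef
      · exact absurd rfl hij
      · simpa [real_inner_comm] using huf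
      · simpa using hue
      · simpa using huf
      · exact absurd rfl hij
  have hcard : Fintype.card (Fin 3) = Module.finrank ℝ E := by
    rw [(Fact.out : Module.finrank ℝ E = 2 + 1)]; simp
  let b0 := basisOfOrthonormalOfCardEqFinrank hon hcard
  have hb0 : (b0 : Fin 3 → E) = ![e, f, u] := coe_basisOfOrthonormalOfCardEqFinrank hon hcard
  let b : OrthonormalBasis (Fin 3) ℝ E := b0.toOrthonormalBasis (by rw [hb0]; exact hon)
  have hb : (b : Fin 3 → E) = ![e, f, u] := by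
    rw [Module.Basis.coe_toOrthonormalBasis, hb0]
  let ψ : (Fin 3 → ℝ) ≃ᵐ (ℝ × ℝ) × ℝ :=
    (MeasurableEquiv.piFinSuccAbove (fun _ => ℝ) (Fin.last 2)).trans
      (MeasurableEquiv.prodComm.trans
        (MeasurableEquiv.prodCongr MeasurableEquiv.finTwoArrow (MeasurableEquiv.refl ℝ)))
  have hψ : MeasurePreserving ψ volume volume :=
    (volume_preserving_piFinSuccAbove (fun _ => ℝ) (Fin.last 2)).trans
      (Measure.measurePreserving_swap.trans
        ((volume_preserving_finTwoArrow ℝ).prod (MeasurePreserving.id volume)))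
  let Φ : E ≃ᵐ (ℝ × ℝ) × ℝ := (b.repr.toHomeomorph.toMeasurableEquiv).trans
    ((MeasurableEquiv.toLp 2 (Fin 3 → ℝ)).symm.trans ψ)
  refine ⟨Φ, ?_, ?_⟩
  · exact (b.measurePreserving_repr).trans
      ((EuclideanSpace.volume_preserving_symm_measurableEquiv_toLp (Fin 3)).trans hψ)
  · intro x
    have h0 : b.repr x 0 = inner ℝ e x := by
      rw [b.repr_apply_apply, hb]; simp
    have h1 : b.repr x 1 = inner ℝ f x := by
      rw [b.repr_apply_apply, hb]; simp
    have h2 : b.repr x 2 = inner ℝ u x := by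
      rw [b.repr_apply_apply, hb]; simp
    rw [← h0, ← h1, ← h2]
    rfl

theorem vol_cylinder_le {K : Set E} (hK : Convex ℝ K) (hKc : IsCompact K) {u : E} (hu : ‖u‖ = 1)
    (B : Set (ℝ ∙ u)ᗮ) {b : ℝ} (hb0 : 0 ≤ b) (hb1 : b ≤ 1)
    (hB' : b < 1 → volume B ≤
      ENNReal.ofReal (b ^ 2) * volume ((ℝ ∙ u)ᗮ.orthogonalProjectionOnto '' K)) :
    volume (K ∩ {x | ∃ p ∈ B, ∃ t : ℝ, x = (p : E) + t • u}) ≤
      ENNReal.ofReal (3 * b ^ 2 - 2 * b ^ 3) * volume K := by
  rcases eq_or_lt_of_le hb1 with hbe | hblt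
  · rw [hbe]
    norm_num
    exact measure_mono inter_subset_left
  have hB := hB' hblt
  obtain ⟨e, he, hue, -⟩ := exists_third (u := u) (e := u)
  obtain ⟨f, hf, huf, hef⟩ := exists_third (u := u) (e := e)
  obtain ⟨κ, hκ, hκa⟩ := exists_coords hu he hf hue huf hef
  obtain ⟨Φ, hΦ, hΦa⟩ := exists_coords3 hu he hf hue huf hef
  set g : E → (ℝ × ℝ) × ℝ := fun x => ((inner ℝ e x, inner ℝ f x), inner ℝ u x) with hg
  have hΦg : ∀ S : Set E, Φ '' S = g '' S := fun S => image_congr fun x _ => hΦa x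
  have hvol : ∀ S : Set E, volume (g '' S) = volume S := by
    intro S
    rw [← hΦg, MeasurableEquiv.image_eq_preimage_symm, (hΦ.symm Φ).measure_preimage_equiv]
  have hgc : Continuous g := by fun_prop
  have hK'c : IsCompact (g '' K) := hKc.image hgc
  have hK'conv : Convex ℝ (g '' K) := by
    rintro _ ⟨x, hx, rfl⟩ _ ⟨y, hy, rfl⟩ a b ha hb hab
    refine ⟨a • x + b • y, hK hx hy ha hb hab, ?_⟩
    simp [hg, inner_add_right, inner_smul_right]
  set Q : Set (ℝ × ℝ) := κ '' (toMeasurable volume B) with hQ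
  have hQm : MeasurableSet Q := κ.measurableSet_image.mpr (measurableSet_toMeasurable _ _)
  have hQv : volume Q = volume B := by
    rw [hQ, MeasurableEquiv.image_eq_preimage_symm, (hκ.symm κ).measure_preimage_equiv,
      measure_toMeasurable]
  have hfst : Prod.fst '' (g '' K) = shadow2 e f K := by
    rw [image_image, shadow2]
  have hQb : volume (Q ∩ Prod.fst '' (g '' K)) ≤
      ENNReal.ofReal (b ^ 2) * volume (Prod.fst '' (g '' K)) := by
    rw [hfst, ← volume_shadow_eq hu he hf hue huf hef K]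
    exact (measure_mono inter_subset_left).trans (hQv.le.trans hB)
  have key := vol_cyl_le hK'c hK'conv hQm hb0 hb1 hQb
  rw [hvol K] at key
  refine le_trans ?_ key
  rw [← hvol]
  refine measure_mono ?_
  rintro _ ⟨x, ⟨hxK, p, hp, t, rfl⟩, rfl⟩
  refine ⟨⟨_, hxK, rfl⟩, ?_, mem_univ _⟩
  refine ⟨p, subset_toMeasurable _ _ hp, ?_⟩
  rw [hκa]
  simp only [hg, inner_add_right, inner_smul_right]
  rw [real_inner_comm u e, hue, real_inner_comm u f, huf]
  simp

theorem sum_phi_ge_one {K : Set E} (hK : Convex ℝ K) (hKc : IsCompact K)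
    (hKi : (interior K).Nonempty) {m : ℕ} (u : Fin m → E) (hu : ∀ i, ‖u i‖ = 1)
    (B : ∀ i, Set (ℝ ∙ u i)ᗮ)
    (hcov : ∀ x ∈ K, ∃ i, ∃ p ∈ B i, ∃ t : ℝ, x = (p : E) + t • u i)
    (b : Fin m → ℝ) (hb0 : ∀ i, 0 ≤ b i) (hb1 : ∀ i, b i ≤ 1)
    (hB : ∀ i, b i < 1 → volume (B i) ≤
      ENNReal.ofReal ((b i) ^ 2) * volume ((ℝ ∙ u i)ᗮ.orthogonalProjectionOnto '' K)) :
    1 ≤ ∑ i, (3 * (b i) ^ 2 - 2 * (b i) ^ 3) := by
  have hpos : 0 < volume K :=
    (isOpen_interior.measure_pos volume hKi).trans_le (measure_mono interior_subset)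
  have hfin : volume K ≠ ⊤ := hKc.measure_lt_top.ne
  have hφ0 : ∀ i, 0 ≤ 3 * (b i) ^ 2 - 2 * (b i) ^ 3 := by
    intro i
    have : 3 * (b i) ^ 2 - 2 * (b i) ^ 3 = (b i) ^ 2 * (3 - 2 * b i) := by ring
    rw [this]
    have : 0 ≤ 3 - 2 * b i := by linarith [hb1 i]
    positivity
  have h1 : volume K ≤ ∑ i, volume (K ∩ {x | ∃ p ∈ B i, ∃ t : ℝ, x = (p : E) + t • u i}) := by
    refine le_trans (measure_mono ?_) (measure_iUnion_fintype_le _ _)
    intro x hx
    obtain ⟨i, hi⟩ := hcov x hx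
    exact mem_iUnion.mpr ⟨i, hx, hi⟩
  have h2 : volume K ≤ ENNReal.ofReal (∑ i, (3 * (b i) ^ 2 - 2 * (b i) ^ 3)) * volume K := by
    rw [ENNReal.ofReal_sum_of_nonneg (fun i _ => hφ0 i), Finset.sum_mul]
    exact h1.trans (Finset.sum_le_sum fun i _ =>
      vol_cylinder_le hK hKc (hu i) (B i) (hb0 i) (hb1 i) (hB i))
  by_contra hlt
  rw [not_le] at hlt
  have h3 : ENNReal.ofReal (∑ i, (3 * (b i) ^ 2 - 2 * (b i) ^ 3)) < 1 := by
    rw [← ENNReal.ofReal_one]
    exact (ENNReal.ofReal_lt_ofReal_iff one_pos).mpr hlt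
  have h4 : ENNReal.ofReal (∑ i, (3 * (b i) ^ 2 - 2 * (b i) ^ 3)) * volume K < 1 * volume K :=
    ENNReal.mul_lt_mul_left hpos.ne' hfin h3
  rw [one_mul] at h4
  exact absurd h2 (not_le.mpr h4)

end Vale.Agent.Lib.P243
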