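import Mathlib
import Vale.Agent.Lib.P243.Bridge

namespace Vale.Agent.Lib.P243

open MeasureTheory Set

variable {E : Type*} [NormedAddCommGroup E] [InnerProductSpace ℝ E] [FiniteDimensional ℝ E]
  [MeasurableSpace E] [BorelSpace E] [Fact (Module.finrank ℝ E = 2 + 1)]

theorem coplanar_general {K : Set E} (hK : Convex ℝ K) (hKc : IsCompact K) (hne : K.Nonempty)
    {m : ℕ} (u : Fin m → E) (hu : ∀ i, ‖u i‖ = 1) (B : ∀ i, Set (ℝ ∙ u i)ᗮ)
    (hcov : ∀ x ∈ K, ∃ i, ∃ b ∈ B i, ∃ t : ℝ, x = (b : E) + t • u i)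
    {n : E} (hn : ‖n‖ = 1) (hcop : ∀ i, inner ℝ n (u i) = 0) {a : ℝ}
    (ha : ∀ v : E, ‖v‖ = 1 → inner ℝ n v = 0 →
      ENNReal.ofReal a ≤ volume ((ℝ ∙ v)ᗮ.orthogonalProjectionOnto '' K)) :
    ENNReal.ofReal (a / 2) ≤ ∑ i, volume (B i) := by
  have : CompleteSpace E := FiniteDimensional.complete ℝ E
  have h3 : ∀ i, ∃ f : E, ‖f‖ = 1 ∧ inner ℝ (u i) f = 0 ∧ inner ℝ n f = 0 := fun i => exists_third
  choose ν hν huν hnν using h3
  have hun : ∀ i, inner ℝ (u i) n = 0 := fun i => by rw [real_inner_comm]; exact hcop i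
  have hc := fun i => exists_coords (hu i) hn (hν i) (hun i) (huν i) (hnν i)
  choose κ hκ hκa using hc
  let Q : Fin m → Set (ℝ × ℝ) := fun i => κ i '' (toMeasurable volume (B i))
  have hQ : ∀ i, MeasurableSet (Q i) := fun i =>
    (κ i).measurableSet_image.mpr (measurableSet_toMeasurable _ _)
  have hQv : ∀ i, volume (Q i) = volume (B i) := by
    intro i
    simp only [Q]
    rw [MeasurableEquiv.image_eq_preimage_symm, ((hκ i).symm (κ i)).measure_preimage_equiv,
      measure_toMeasurable]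
  have hsh : ∀ ν' : E, ‖ν'‖ = 1 → inner ℝ n ν' = 0 →
      ENNReal.ofReal a ≤ volume (shadow2 n ν' K) := by
    intro ν' hν' hnν'
    obtain ⟨v, hv, hnv, hν'v⟩ := exists_third (u := n) (e := ν')
    rw [← volume_shadow_eq hv hn hν' (by rw [real_inner_comm]; exact hnv)
      (by rw [real_inner_comm]; exact hν'v) hnν' K]
    exact ha v hv hnv
  have hcov' : ∀ x ∈ K, ∃ i, (inner ℝ n x, inner ℝ (ν i) x) ∈ Q i := by
    intro x hx
    obtain ⟨i, b, hb, t, rfl⟩ := hcov x hx
    refine ⟨i, b, subset_toMeasurable _ _ hb, ?_⟩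
    rw [hκa, inner_add_right, inner_add_right, inner_smul_right, inner_smul_right, hcop i,
      real_inner_comm (u i) (ν i), huν i]
    simp
  have := core_coplanar hK hKc hne hn hsh ν hν hnν Q hQ hcov'
  simpa only [hQv] using this

end Vale.Agent.Lib.P243
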