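import Mathlib

/-!
# P243: from `∑ (3 β - 2 β^{3/2}) ≥ 1` to the explicit bound `∑ β ≥ 1/3 + 2 / (9 √(3 m))`
-/

namespace Vale.Agent.Lib.P243

open Finset

theorem sum_ge_of_concave_bound (m : ℕ) (β : Fin m → ℝ) (h0 : ∀ i, 0 ≤ β i)
    (h : 1 ≤ ∑ i, (3 * β i - 2 * β i ^ (3 / 2 : ℝ))) :
    1 / 3 + 2 / (9 * Real.sqrt (3 * m)) ≤ ∑ i, β i := by
  set S : ℝ := ∑ i, β i with hS
  have hS0 : 0 ≤ S := Finset.sum_nonneg fun i _ => h0 i
  have hsplit : ∑ i, (3 * β i - 2 * β i ^ (3 / 2 : ℝ)) = 3 * S - 2 * ∑ i, β i ^ (3 / 2 : ℝ) := by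
    rw [Finset.sum_sub_distrib, ← Finset.mul_sum, ← Finset.mul_sum]
  rw [hsplit] at h
  have hQ0 : 0 ≤ ∑ i, β i ^ (3 / 2 : ℝ) :=
    Finset.sum_nonneg fun i _ => Real.rpow_nonneg (h0 i) _
  have hS3 : 1 / 3 ≤ S := by linarith
  have hmpos : 0 < m := by
    rcases Nat.eq_zero_or_pos m with rfl | hm
    · simp at hS
      linarith
    · exact hm
  have hmR : (0 : ℝ) < m := by exact_mod_cast hmpos
  have hpm := Real.rpow_sum_le_const_mul_sum_rpow (Finset.univ : Finset (Fin m)) β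
    (p := (3 / 2 : ℝ)) (by norm_num)
  have habs : ∀ i, |β i| = β i := fun i => abs_of_nonneg (h0 i)
  simp only [habs, Finset.card_univ, Fintype.card_fin] at hpm
  rw [← hS] at hpm
  have hexp : (3 / 2 : ℝ) - 1 = 1 / 2 := by norm_num
  rw [hexp, ← Real.sqrt_eq_rpow] at hpm
  have hS32 : S ^ (3 / 2 : ℝ) = S * Real.sqrt S := by
    have : (3 / 2 : ℝ) = 1 + 1 / 2 := by norm_num
    rw [this, Real.rpow_add (by linarith), Real.rpow_one, ← Real.sqrt_eq_rpow]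
  rw [hS32] at hpm
  set sm : ℝ := Real.sqrt m with hsm
  have hsm0 : 0 < sm := Real.sqrt_pos.2 hmR
  set t : ℝ := Real.sqrt (1 / 3) with ht
  have ht0 : 0 < t := Real.sqrt_pos.2 (by norm_num)
  have htS : t ≤ Real.sqrt S := Real.sqrt_le_sqrt hS3
  have hlow : 1 / 3 * t ≤ S * Real.sqrt S := by
    apply mul_le_mul hS3 htS ht0.le hS0
  have hsq3m : Real.sqrt (3 * m) = sm / t := by
    have h3 : Real.sqrt 3 = 1 / t := by
      rw [ht, Real.sqrt_div (by norm_num), Real.sqrt_one]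
      field_simp
    rw [Real.sqrt_mul (by norm_num), h3, ← hsm]
    ring
  rw [hsq3m]
  have hQ : 1 / 3 * t / sm ≤ ∑ i, β i ^ (3 / 2 : ℝ) := by
    rw [div_le_iff₀ hsm0]
    linarith
  have hfin : 2 / (9 * (sm / t)) = 2 / 3 * (1 / 3 * t / sm) := by
    field_simp
    ring
  rw [hfin]
  linarith

end Vale.Agent.Lib.P243
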