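import Mathlib

namespace Vale.Agent.Lib.P243.Pre15

open MeasureTheory Set
open scoped Pointwise ENNReal

theorem frac_mem {x0 β x : ℝ} (hne : x0 ≠ β) (hx : x ∈ uIcc x0 β) :
    0 ≤ (β - x) / (β - x0) ∧ (β - x) / (β - x0) ≤ 1 := by
  rcases lt_or_gt_of_ne hne with h | h
  · rw [uIcc_of_le h.le] at hx
    have hb : 0 < β - x0 := sub_pos.mpr h
    exact ⟨div_nonneg (by linarith [hx.2]) hb.le, (div_le_one hb).mpr (by linarith [hx.1])⟩
  · rw [uIcc_of_ge h.le] at hx
    have hb : β - x0 < 0 := sub_neg.mpr h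
    exact ⟨div_nonneg_of_nonpos (by linarith [hx.1]) hb.le,
      (div_le_one_of_neg hb).mpr (by linarith [hx.2])⟩

theorem convex_fibre {P : Set (ℝ × ℝ)} (hP : Convex ℝ P) (x : ℝ) :
    Convex ℝ (Prod.mk x ⁻¹' P) := by
  intro y1 h1 y2 h2 a b ha hb hab
  have := hP h1 h2 ha hb hab
  have hx : a * x + b * x = x := by rw [← add_mul, hab, one_mul]
  simpa [hx] using this

theorem fibre_ge {P : Set (ℝ × ℝ)} (hP : Convex ℝ P) {x0 β c d e : ℝ}
    (h1 : (x0, c) ∈ P) (h2 : (x0, d) ∈ P) (h3 : (β, e) ∈ P) (hne : x0 ≠ β) {x : ℝ}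
    (hx : x ∈ uIcc x0 β) :
    ENNReal.ofReal ((d - c) * ((β - x) / (β - x0))) ≤ volume (Prod.mk x ⁻¹' P) := by
  obtain ⟨ht0, ht1⟩ := frac_mem hne hx
  set t : ℝ := (β - x) / (β - x0) with ht
  have hb : β - x0 ≠ 0 := sub_ne_zero.mpr (Ne.symm hne)
  have hxs : t * x0 + (1 - t) * β = x := by
    rw [ht]
    field_simp
    ring
  have hA : (x, t * c + (1 - t) * e) ∈ P := by
    have := hP h1 h3 ht0 (sub_nonneg.mpr ht1) (by ring)
    simpa [hxs] using this
  have hB : (x, t * d + (1 - t) * e) ∈ P := by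
    have := hP h2 h3 ht0 (sub_nonneg.mpr ht1) (by ring)
    simpa [hxs] using this
  have hsub : Icc (t * c + (1 - t) * e) (t * d + (1 - t) * e) ⊆ Prod.mk x ⁻¹' P :=
    (convex_fibre hP x).ordConnected.out hA hB
  calc ENNReal.ofReal ((d - c) * t)
      = volume (Icc (t * c + (1 - t) * e) (t * d + (1 - t) * e)) := by
        rw [Real.volume_Icc]
        congr 1
        ring
    _ ≤ _ := measure_mono hsub

theorem tri_int {P : Set (ℝ × ℝ)} (hP : Convex ℝ P) {x0 β c d e : ℝ} (hcd : c ≤ d)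
    (h1 : (x0, c) ∈ P) (h2 : (x0, d) ∈ P) (h3 : (β, e) ∈ P) :
    ENNReal.ofReal ((d - c) * |β - x0| / 2) ≤ ∫⁻ x in uIoc x0 β, volume (Prod.mk x ⁻¹' P) := by
  rcases eq_or_ne x0 β with rfl | hne
  · simp
  have hb : β - x0 ≠ 0 := sub_ne_zero.mpr (Ne.symm hne)
  have hint : ∀ a b : ℝ, ∫ x in a..b, (d - c) * ((β - x) / (β - x0))
      = (d - c) * ((β * (b - a) - (b ^ 2 - a ^ 2) / 2) / (β - x0)) := by
    intro a b
    rw [intervalIntegral.integral_const_mul, intervalIntegral.integral_div,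
      intervalIntegral.integral_sub (by simp) (by simp)]
    simp
    left
    ring
  have hcont : Continuous fun x : ℝ => (d - c) * ((β - x) / (β - x0)) := by fun_prop
  have heq : ENNReal.ofReal ((d - c) * |β - x0| / 2)
      = ∫⁻ x in uIoc x0 β, ENNReal.ofReal ((d - c) * ((β - x) / (β - x0))) := by
    rw [← ofReal_integral_eq_lintegral_ofReal]
    · congr 1
      rcases lt_or_gt_of_ne hne with h | h
      · rw [uIoc_of_le h.le, ← intervalIntegral.integral_of_le h.le, hint,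
          abs_of_pos (sub_pos.mpr h)]
        field_simp
        ring
      · rw [uIoc_of_ge h.le, ← intervalIntegral.integral_of_le h.le, hint,
          abs_of_neg (sub_neg.mpr h)]
        field_simp
        ring
    · exact hcont.integrableOn_uIoc
    · refine (ae_restrict_iff' measurableSet_uIoc).mpr (Filter.Eventually.of_forall fun x hx => ?_)
      exact mul_nonneg (sub_nonneg.mpr hcd) (frac_mem hne (uIoc_subset_uIcc hx)).1
  rw [heq]
  exact setLIntegral_mono' measurableSet_uIoc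
    (fun x hx => fibre_ge hP h1 h2 h3 hne (uIoc_subset_uIcc hx))

/-- Lower bound for the area of a planar convex set by half of width times a vertical chord. -/
theorem area_ge {P : Set (ℝ × ℝ)} (hP : Convex ℝ P) (hm : MeasurableSet P)
    {x0 α β c d e e' : ℝ} (hcd : c ≤ d) (hα : α ≤ x0) (hβ : x0 ≤ β)
    (h1 : (x0, c) ∈ P) (h2 : (x0, d) ∈ P) (h3 : (β, e) ∈ P) (h4 : (α, e') ∈ P) :
    ENNReal.ofReal ((d - c) * (β - α) / 2) ≤ volume P := by
  have hA := tri_int hP hcd h1 h2 h3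
  have hB := tri_int hP hcd h1 h2 h4
  rw [uIoc_of_le hβ, abs_of_nonneg (sub_nonneg.mpr hβ)] at hA
  rw [uIoc_of_ge hα, abs_of_nonpos (sub_nonpos.mpr hα)] at hB
  have hdisj : Disjoint (Ioc α x0) (Ioc x0 β) := by
    rw [Set.disjoint_left]
    intro x hx hx'
    exact absurd hx.2 (not_le.mpr hx'.1)
  calc ENNReal.ofReal ((d - c) * (β - α) / 2)
      = ENNReal.ofReal ((d - c) * -(α - x0) / 2) + ENNReal.ofReal ((d - c) * (β - x0) / 2) := by
        rw [← ENNReal.ofReal_add]
        · congr 1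
          ring
        · have := sub_nonneg.mpr hcd
          have := sub_nonneg.mpr hα
          apply div_nonneg (mul_nonneg _ _) <;> linarith
        · have := sub_nonneg.mpr hcd
          have := sub_nonneg.mpr hβ
          apply div_nonneg (mul_nonneg _ _) <;> linarith
    _ ≤ (∫⁻ x in Ioc α x0, volume (Prod.mk x ⁻¹' P)) + ∫⁻ x in Ioc x0 β, volume (Prod.mk x ⁻¹' P) :=
        add_le_add hB hA
    _ = ∫⁻ x in Ioc α x0 ∪ Ioc x0 β, volume (Prod.mk x ⁻¹' P) :=
        (lintegral_union measurableSet_Ioc hdisj).symm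
    _ ≤ ∫⁻ x, volume (Prod.mk x ⁻¹' P) := setLIntegral_le_lintegral _ _
    _ = volume P := by
        rw [Measure.volume_eq_prod, Measure.prod_apply hm]

/-- Upper bound for the area of a planar set by fibres. -/
theorem area_le {S : Set (ℝ × ℝ)} (hm : MeasurableSet S) {W M : ℝ}
    (h1 : ∀ p ∈ S, |p.1| ≤ W) (h2 : ∀ p ∈ S, ∀ q ∈ S, p.1 = q.1 → |p.2 - q.2| ≤ M) :
    volume S ≤ ENNReal.ofReal (2 * W) * ENNReal.ofReal M := by
  rw [Measure.volume_eq_prod, Measure.prod_apply hm]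
  calc ∫⁻ x, volume (Prod.mk x ⁻¹' S)
      ≤ ∫⁻ x, (Icc (-W) W).indicator (fun _ => ENNReal.ofReal M) x := by
        refine lintegral_mono fun x => ?_
        by_cases hx : x ∈ Icc (-W) W
        · rw [indicator_of_mem hx]
          refine (Real.volume_le_diam _).trans (Metric.ediam_le fun y hy z hz => ?_)
          rw [edist_dist, Real.dist_eq]
          exact ENNReal.ofReal_le_ofReal (h2 _ hy _ hz rfl)
        · rw [indicator_of_notMem hx]
          have : Prod.mk x ⁻¹' S = ∅ := by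
            rw [Set.eq_empty_iff_forall_notMem]
            intro y hy
            exact hx (abs_le.mp (h1 _ hy))
          rw [this]
          simp
    _ = ENNReal.ofReal (2 * W) * ENNReal.ofReal M := by
        rw [lintegral_indicator_const measurableSet_Icc, Real.volume_Icc, mul_comm]
        congr 2
        ring

/-- The planar difference body has area at most eight times the area of the body. -/
theorem volume_sub_le {P : Set (ℝ × ℝ)} (hP : Convex ℝ P) (hc : IsCompact P) :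
    volume (P - P) ≤ 8 * volume P := by
  rcases P.eq_empty_or_nonempty with rfl | hne
  · simp
  obtain ⟨pα, hpα, hα⟩ := hc.exists_isMinOn hne continuous_fst.continuousOn
  obtain ⟨pβ, hpβ, hβ⟩ := hc.exists_isMaxOn hne continuous_fst.continuousOn
  have hQc : IsCompact ((P ×ˢ P) ∩ {r : (ℝ × ℝ) × (ℝ × ℝ) | r.1.1 = r.2.1}) :=
    (hc.prod hc).inter_right (isClosed_eq (by fun_prop) (by fun_prop))
  have hQne : ((P ×ˢ P) ∩ {r : (ℝ × ℝ) × (ℝ × ℝ) | r.1.1 = r.2.1}).Nonempty :=
    ⟨(pα, pα), ⟨hpα, hpα⟩, rfl⟩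
  obtain ⟨r0, hr0, hmax⟩ := hQc.exists_isMaxOn hQne
    (f := fun r : (ℝ × ℝ) × (ℝ × ℝ) => r.2.2 - r.1.2) (by fun_prop)
  obtain ⟨⟨x0, c⟩, ⟨x0', d⟩⟩ := r0
  obtain ⟨⟨h1, h2⟩, hxx⟩ := hr0
  simp only [mem_ofPred_eq] at hxx h1 h2
  subst hxx
  have hM : ∀ p ∈ P, ∀ q ∈ P, p.1 = q.1 → q.2 - p.2 ≤ d - c := fun p hp q hq hpq =>
    hmax (a := (p, q)) ⟨⟨hp, hq⟩, hpq⟩
  have hcd : c ≤ d := by
    have := hM pα hpα pα hpα rfl
    linarith
  have hlow := area_ge hP hc.isClosed.measurableSet hcd (hα h1) (hβ h1) h1 h2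
    (show (pβ.1, pβ.2) ∈ P from hpβ) (show (pα.1, pα.2) ∈ P from hpα)
  have hup : volume (P - P) ≤
      ENNReal.ofReal (2 * (pβ.1 - pα.1)) * ENNReal.ofReal (2 * (d - c)) := by
    have hcc : IsCompact (P - P) := by
      rw [sub_eq_add_neg]
      exact hc.add hc.neg
    refine area_le hcc.isClosed.measurableSet ?_ ?_
    · rintro _ ⟨p, hp, q, hq, rfl⟩
      have a1 := hα hp
      have a2 := hα hq
      have a3 := hβ hp
      have a4 := hβ hq
      simp only [mem_ofPred_eq] at a1 a2 a3 a4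
      rw [abs_le]
      constructor <;> simp only [Prod.fst_sub] <;> linarith
    · rintro _ ⟨p, hp, q, hq, rfl⟩ _ ⟨p', hp', q', hq', rfl⟩ hfst
      simp only [Prod.fst_sub, Prod.snd_sub] at hfst ⊢
      have m1 : ((1 / 2 : ℝ) • p + (1 / 2 : ℝ) • q') ∈ P :=
        hP hp hq' (by norm_num) (by norm_num) (by norm_num)
      have m2 : ((1 / 2 : ℝ) • p' + (1 / 2 : ℝ) • q) ∈ P :=
        hP hp' hq (by norm_num) (by norm_num) (by norm_num)
      have e1 := hM _ m1 _ m2 (by simp; linarith)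
      have e2 := hM _ m2 _ m1 (by simp; linarith)
      simp at e1 e2
      rw [abs_le]
      constructor <;> linarith
  have hW : 0 ≤ pβ.1 - pα.1 := sub_nonneg.mpr (hα hpβ)
  have hD : 0 ≤ d - c := sub_nonneg.mpr hcd
  calc volume (P - P) ≤ ENNReal.ofReal (2 * (pβ.1 - pα.1)) * ENNReal.ofReal (2 * (d - c)) := hup
    _ = 8 * ENNReal.ofReal ((d - c) * (pβ.1 - pα.1) / 2) := by
        rw [← ENNReal.ofReal_mul (by positivity),
          show (8 : ℝ≥0∞) = ENNReal.ofReal 8 by norm_num, ← ENNReal.ofReal_mul (by norm_num)]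
        congr 1
        ring
    _ ≤ 8 * volume P := by gcongr

end Vale.Agent.Lib.P243.Pre15
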