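import Mathlib

/-!
# Averaging over translations and a cheap difference-body bound

(C) `lintegral_measure_inter_shift`: `∫⁻ w, μ (F ∩ {x | x + w ∈ G}) ∂μ = μ F * μ G`.
(C') `exists_shift_large`: some translate has a large intersection.
(D) `measure_sub_le`: `μ (P - P) ≤ 4 ^ n * μ P` for a compact convex set of positive measure.
-/

open MeasureTheory Set
open scoped ENNReal Pointwise

namespace Vale.Agent.Lib.P243

section Avg

variable {X : Type*} [AddCommGroup X] [MeasurableSpace X] [MeasurableAdd₂ X]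
  (μ : Measure X) [SFinite μ] [μ.IsAddLeftInvariant]

/-- (C) Averaging over translations. -/
theorem lintegral_measure_inter_shift {F G : Set X} (hF : MeasurableSet F) (hG : MeasurableSet G) :
    ∫⁻ w, μ (F ∩ {x | x + w ∈ G}) ∂μ = μ F * μ G := by
  have hm : Measurable (fun p : X × X => F.indicator (1 : X → ℝ≥0∞) p.2 *
      G.indicator (1 : X → ℝ≥0∞) (p.2 + p.1)) :=
    ((measurable_one.indicator hF).comp measurable_snd).mul
      ((measurable_one.indicator hG).comp (measurable_snd.add measurable_fst))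
  have h1 : ∀ w, μ (F ∩ {x | x + w ∈ G}) =
      ∫⁻ x, F.indicator (1 : X → ℝ≥0∞) x * G.indicator (1 : X → ℝ≥0∞) (x + w) ∂μ := by
    intro w
    have hGw : MeasurableSet {x | x + w ∈ G} := (measurable_id.add_const w) hG
    rw [← lintegral_indicator_one (hF.inter hGw)]
    refine lintegral_congr ?_
    intro x
    by_cases hx : x ∈ F
    · by_cases hy : x + w ∈ G
      · have : x ∈ F ∩ {x | x + w ∈ G} := ⟨hx, hy⟩
        simp [hx, hy, this]
      · have : x ∉ F ∩ {x | x + w ∈ G} := fun h => hy h.2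
        simp [hy, this]
    · have : x ∉ F ∩ {x | x + w ∈ G} := fun h => hx h.1
      simp [hx, this]
  simp_rw [h1]
  rw [lintegral_lintegral_swap hm.aemeasurable]
  have h2 : ∀ x, ∫⁻ w, F.indicator (1 : X → ℝ≥0∞) x * G.indicator (1 : X → ℝ≥0∞) (x + w) ∂μ
      = F.indicator (1 : X → ℝ≥0∞) x * μ G := by
    intro x
    have hmx : Measurable (fun w => G.indicator (1 : X → ℝ≥0∞) (x + w)) :=
      (measurable_one.indicator hG).comp (measurable_const_add x)
    rw [lintegral_const_mul _ hmx]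
    congr 1
    rw [lintegral_add_left_eq_self (fun y => G.indicator (1 : X → ℝ≥0∞) y) x]
    exact lintegral_indicator_one hG
  simp_rw [h2]
  rw [lintegral_mul_const _ (measurable_one.indicator hF), lintegral_indicator_one hF]

/-- (C') If all differences `y - x`, `x ∈ F`, `y ∈ G`, lie in the measurable set `D`, then some
translate satisfies `μ F * μ G ≤ μ (F ∩ (G - w)) * μ D`. -/
theorem exists_shift_large {F G D : Set X} (hF : MeasurableSet F) (hG : MeasurableSet G)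
    (hD : MeasurableSet D) (hsub : ∀ x ∈ F, ∀ y ∈ G, y - x ∈ D) (hDne : D.Nonempty)
    (hFt : μ F ≠ ∞) (hGt : μ G ≠ ∞) :
    ∃ w ∈ D, μ F * μ G ≤ μ (F ∩ {x | x + w ∈ G}) * μ D := by
  by_contra hcon
  push Not at hcon
  obtain ⟨w0, hw0⟩ := hDne
  have hpos : 0 < μ F * μ G := pos_of_gt (hcon w0 hw0)
  have hoff : ∀ w, w ∉ D → μ (F ∩ {x | x + w ∈ G}) = 0 := by
    intro w hw
    have : F ∩ {x | x + w ∈ G} = ∅ := by
      ext x
      simp only [mem_inter_iff, mem_ofPred_eq, mem_empty_iff_false, iff_false, not_and]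
      intro hx hy
      apply hw
      have := hsub x hx _ hy
      simpa using this
    rw [this, measure_empty]
  have hint : ∫⁻ w in D, μ (F ∩ {x | x + w ∈ G}) ∂μ = μ F * μ G := by
    rw [← lintegral_measure_inter_shift μ hF hG, ← lintegral_indicator hD]
    refine lintegral_congr ?_
    intro w
    by_cases hw : w ∈ D
    · simp [hw]
    · simp [hw, hoff w hw]
  have hD0 : μ D ≠ 0 := by
    intro h0
    rw [Measure.restrict_eq_zero.2 h0, lintegral_zero_measure] at hint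
    exact hpos.ne hint
  by_cases hDtop : μ D = ∞
  · -- then every intersection is null
    have hz : ∀ w ∈ D, μ (F ∩ {x | x + w ∈ G}) = 0 := by
      intro w hw
      by_contra hne
      have := hcon w hw
      rw [hDtop, ENNReal.mul_top hne] at this
      exact not_top_lt this
    have : ∫⁻ w in D, μ (F ∩ {x | x + w ∈ G}) ∂μ = 0 := by
      rw [setLIntegral_congr_fun hD hz]
      simp
    rw [this] at hint
    exact hpos.ne hint
  · have hFG : μ F * μ G ≠ ∞ := ENNReal.mul_ne_top hFt hGt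
    · have hne : ∫⁻ w in D, μ (F ∩ {x | x + w ∈ G}) ∂μ ≠ ∞ := by rw [hint]; exact hFG
      obtain ⟨w, hw, hle⟩ := exists_setLAverage_le hD0 hD.nullMeasurableSet hne
      rw [setLAverage_eq, hint] at hle
      have h3 := hcon w hw
      have h4 : μ F * μ G ≤ μ (F ∩ {x | x + w ∈ G}) * μ D := by
        calc μ F * μ G = (μ F * μ G) / μ D * μ D := (ENNReal.div_mul_cancel hD0 hDtop).symm
          _ ≤ _ := by gcongr
      exact absurd h3 (not_lt.2 h4)

end Avg

section Diff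

variable {X : Type*} [NormedAddCommGroup X] [NormedSpace ℝ X] [FiniteDimensional ℝ X]
  [MeasurableSpace X] [BorelSpace X] (μ : Measure X) [μ.IsAddHaarMeasure]

/-- (D) Cheap difference body bound. -/
theorem measure_sub_le {P : Set X} (hP : IsCompact P) (hc : Convex ℝ P) (h0 : μ P ≠ 0) :
    μ (P - P) ≤ 4 ^ (Module.finrank ℝ X) * μ P := by
  set n := Module.finrank ℝ X with hn
  have hPm : MeasurableSet P := hP.measurableSet
  have htop : μ P ≠ ∞ := hP.measure_lt_top.ne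
  have hDc : IsCompact (P - P) := by
    rw [sub_eq_add_neg]
    exact hP.add hP.neg
  set H : Set X := (2⁻¹ : ℝ) • (P - P) with hH
  have hHc : IsCompact H := hDc.smul _
  have hHm : MeasurableSet H := hHc.measurableSet
  have hscale : ∀ S : Set X, μ ((2⁻¹ : ℝ) • S) = (2⁻¹ : ℝ≥0∞) ^ n * μ S := by
    intro S
    rw [Measure.addHaar_smul]
    congr 1
    rw [abs_of_nonneg (by positivity), ENNReal.ofReal_pow (by norm_num)]
    congr 1
    rw [ENNReal.ofReal_inv_of_pos (by norm_num)]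
    norm_num
  have hlow : ∀ w ∈ H, (2⁻¹ : ℝ≥0∞) ^ n * μ P ≤ μ (P ∩ {x | x + w ∈ P}) := by
    intro w hw
    obtain ⟨z, ⟨p, hp, q, hq, rfl⟩, rfl⟩ := hw
    have hsub : ((2⁻¹ : ℝ) • q) +ᵥ ((2⁻¹ : ℝ) • P) ⊆ P ∩ {x | x + (2⁻¹ : ℝ) • (p - q) ∈ P} := by
      rintro _ ⟨_, ⟨y, hy, rfl⟩, rfl⟩
      constructor
      · have := hc hq hy (by norm_num : (0:ℝ) ≤ 2⁻¹) (by norm_num : (0:ℝ) ≤ 2⁻¹) (by norm_num)
        simpa using this
      · have := hc hp hy (by norm_num : (0:ℝ) ≤ 2⁻¹) (by norm_num : (0:ℝ) ≤ 2⁻¹) (by norm_num)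
        show ((2⁻¹ : ℝ) • q +ᵥ (2⁻¹ : ℝ) • y) + (2⁻¹ : ℝ) • (p - q) ∈ P
        have e : ((2⁻¹ : ℝ) • q +ᵥ (2⁻¹ : ℝ) • y) + (2⁻¹ : ℝ) • (p - q)
            = (2⁻¹ : ℝ) • p + (2⁻¹ : ℝ) • y := by
          simp only [vadd_eq_add, smul_sub]
          abel
        rw [e]
        exact this
    calc (2⁻¹ : ℝ≥0∞) ^ n * μ P = μ ((2⁻¹ : ℝ) • P) := (hscale P).symm
      _ = μ (((2⁻¹ : ℝ) • q) +ᵥ ((2⁻¹ : ℝ) • P)) := (measure_vadd μ _ _).symm
      _ ≤ _ := measure_mono hsub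
  have hint : (2⁻¹ : ℝ≥0∞) ^ n * μ P * μ H ≤ μ P * μ P := by
    rw [← lintegral_measure_inter_shift μ hPm hPm]
    calc (2⁻¹ : ℝ≥0∞) ^ n * μ P * μ H = ∫⁻ _ in H, (2⁻¹ : ℝ≥0∞) ^ n * μ P ∂μ := by
          rw [setLIntegral_const]
      _ ≤ ∫⁻ w in H, μ (P ∩ {x | x + w ∈ P}) ∂μ := setLIntegral_mono' hHm hlow
      _ ≤ _ := setLIntegral_le_lintegral _ _
  rw [hscale (P - P)] at hint
  -- cancel `μ P`
  have h5 : (2⁻¹ : ℝ≥0∞) ^ n * ((2⁻¹ : ℝ≥0∞) ^ n * μ (P - P)) ≤ μ P := by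
    have : ((2⁻¹ : ℝ≥0∞) ^ n * ((2⁻¹ : ℝ≥0∞) ^ n * μ (P - P))) * μ P ≤ μ P * μ P := by
      calc _ = (2⁻¹ : ℝ≥0∞) ^ n * μ P * ((2⁻¹ : ℝ≥0∞) ^ n * μ (P - P)) := by ring
        _ ≤ _ := hint
    exact (ENNReal.mul_le_mul_iff_left h0 htop).1 this
  have h6 : (4 : ℝ≥0∞) ^ n * ((2⁻¹ : ℝ≥0∞) ^ n * ((2⁻¹ : ℝ≥0∞) ^ n * μ (P - P))) = μ (P - P) := by
    rw [← mul_assoc, ← mul_assoc, ← mul_pow, ← mul_pow]
    have : (4 : ℝ≥0∞) * 2⁻¹ * 2⁻¹ = 1 := by
      have h2 : (2 : ℝ≥0∞) * 2⁻¹ = 1 := ENNReal.mul_inv_cancel (by norm_num) (by norm_num)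
      calc (4 : ℝ≥0∞) * 2⁻¹ * 2⁻¹ = (2 * 2⁻¹) * (2 * 2⁻¹) := by
            rw [show (4 : ℝ≥0∞) = 2 * 2 by norm_num]; ring
        _ = 1 := by rw [h2, one_mul]
    rw [this, one_pow, one_mul]
  calc μ (P - P) = (4 : ℝ≥0∞) ^ n * ((2⁻¹ : ℝ≥0∞) ^ n * ((2⁻¹ : ℝ≥0∞) ^ n * μ (P - P))) := h6.symm
    _ ≤ 4 ^ n * μ P := by gcongr

end Diff

/-- (D) in the plane `ℝ × ℝ`. -/
theorem volume_sub_le_plane {P : Set (ℝ × ℝ)} (hP : IsCompact P) (hc : Convex ℝ P)
    (h0 : volume P ≠ 0) : volume (P - P) ≤ 16 * volume P := by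
  have h := measure_sub_le (volume : Measure (ℝ × ℝ)) hP hc h0
  have h2 : Module.finrank ℝ (ℝ × ℝ) = 2 := by simp
  rw [h2] at h
  norm_num at h
  exact h

/-- (C')+(D) in the plane: two measurable subsets `F`, `G` of a compact convex set `P` of positive
area have translates with a large intersection. -/
theorem exists_shift_plane {P F G : Set (ℝ × ℝ)} (hP : IsCompact P) (hc : Convex ℝ P)
    (h0 : volume P ≠ 0) (hF : MeasurableSet F) (hG : MeasurableSet G) (hFP : F ⊆ P) (hGP : G ⊆ P) :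
    ∃ w : ℝ × ℝ, volume F * volume G ≤ volume (F ∩ {x | x + w ∈ G}) * (16 * volume P) := by
  have hne : P.Nonempty := by
    by_contra h
    rw [Set.not_nonempty_iff_eq_empty] at h
    exact h0 (by rw [h, measure_empty])
  have hDc : IsCompact (P - P) := by
    rw [sub_eq_add_neg]
    exact hP.add hP.neg
  have hPt : volume P ≠ ∞ := hP.measure_lt_top.ne
  obtain ⟨w, -, hw⟩ := exists_shift_large (volume : Measure (ℝ × ℝ)) hF hG
    hDc.measurableSet
    (fun x hx y hy => Set.sub_mem_sub (hGP hy) (hFP hx)) (hne.sub hne)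
    (ne_top_of_le_ne_top hPt (measure_mono hFP)) (ne_top_of_le_ne_top hPt (measure_mono hGP))
  exact ⟨w, hw.trans (by gcongr; exact volume_sub_le_plane hP hc h0)⟩

end Vale.Agent.Lib.P243
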