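import Mathlib

/-!
# P243: averaging over translations and a crude Rogers-Shephard bound

Generic lemmas (Mathlib only) in a finite dimensional real normed space `E` with an additive Haar
measure `μ`, `n = finrank ℝ E`.

* `lintegral_measure_inter_translate` : `∫⁻ w, μ (F ∩ {x | x + w ∈ G}) = μ F * μ G`.
* `measure_sub_le` : `μ (P - P) ≤ 4 ^ n * μ P` for `P` compact convex.
* `exists_translate_inter` : for measurable `F G ⊆ P` there is `w` with
  `μ F * μ G ≤ 4 ^ n * μ P * μ (F ∩ {x | x + w ∈ G})`.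
-/

open MeasureTheory Set Pointwise ENNReal Module

namespace Vale.Agent.Lib.P243.Pre2

variable {E : Type*} [NormedAddCommGroup E] [NormedSpace ℝ E] [MeasurableSpace E] [BorelSpace E]
  [FiniteDimensional ℝ E] (μ : Measure E) [μ.IsAddHaarMeasure]

theorem measurable_measure_inter_translate {F G : Set E} (hF : MeasurableSet F)
    (hG : MeasurableSet G) :
    Measurable (fun w => μ (F ∩ {x | x + w ∈ G})) := by
  have hS : MeasurableSet {p : E × E | p.2 ∈ F ∧ p.2 + p.1 ∈ G} :=
    (measurable_snd hF).inter ((measurable_snd.add measurable_fst) hG)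
  exact measurable_measure_prodMk_left hS

/-- (C) averaging over translations. -/
theorem lintegral_measure_inter_translate {F G : Set E} (hF : MeasurableSet F)
    (hG : MeasurableSet G) :
    ∫⁻ w, μ (F ∩ {x | x + w ∈ G}) ∂μ = μ F * μ G := by
  have h1 : ∀ w, μ (F ∩ {x | x + w ∈ G})
      = ∫⁻ x, F.indicator (fun _ => (1 : ℝ≥0∞)) x * G.indicator (fun _ => (1 : ℝ≥0∞)) (x + w) ∂μ := by
    intro w
    have hm : MeasurableSet (F ∩ {x | x + w ∈ G}) :=
      hF.inter ((measurable_add_const w) hG)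
    rw [← lintegral_indicator_one hm]
    congr 1
    ext x
    by_cases hx : x ∈ F <;> by_cases hy : x + w ∈ G <;> simp [indicator, hx, hy]
  simp_rw [h1]
  rw [lintegral_lintegral_swap]
  · have h2 : ∀ x, ∫⁻ w, F.indicator (fun _ => (1 : ℝ≥0∞)) x
        * G.indicator (fun _ => (1 : ℝ≥0∞)) (x + w) ∂μ
        = F.indicator (fun _ => (1 : ℝ≥0∞)) x * μ G := by
      intro x
      rw [lintegral_const_mul' _ _ (by by_cases hx : x ∈ F <;> simp [indicator, hx])]
      rw [lintegral_add_left_eq_self (fun y => G.indicator (fun _ => (1 : ℝ≥0∞)) y) x]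
      rw [lintegral_indicator_const hG, one_mul]
    simp_rw [h2]
    rw [lintegral_mul_const _ (measurable_const.indicator hF)]
    rw [lintegral_indicator_const hF, one_mul]
  · apply Measurable.aemeasurable
    apply Measurable.mul
    · exact (measurable_const.indicator hF).comp measurable_snd
    · exact (measurable_const.indicator hG).comp (measurable_snd.add measurable_fst)

/-- For `x` in half the difference body, `P ∩ (P - x)` contains a translate of `P / 2`. -/
theorem measure_le_inter_of_mem {P : Set E} (hc : Convex ℝ P) {p q : E} (hp : p ∈ P) (hq : q ∈ P) :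
    ENNReal.ofReal ((1 / 2 : ℝ) ^ finrank ℝ E) * μ P
      ≤ μ (P ∩ {x | x + (1 / 2 : ℝ) • (p - q) ∈ P}) := by
  have hsub : (fun z => (1 / 2 : ℝ) • q + z) '' ((1 / 2 : ℝ) • P)
      ⊆ P ∩ {x | x + (1 / 2 : ℝ) • (p - q) ∈ P} := by
    rintro _ ⟨_, ⟨z, hz, rfl⟩, rfl⟩
    refine ⟨?_, ?_⟩
    · exact hc hq hz (by norm_num) (by norm_num) (by norm_num)
    · have := hc hp hz (by norm_num : (0:ℝ) ≤ 1/2) (by norm_num : (0:ℝ) ≤ 1/2) (by norm_num)
      have e : (1 / 2 : ℝ) • q + (1 / 2 : ℝ) • z + (1 / 2 : ℝ) • (p - q)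
          = (1 / 2 : ℝ) • p + (1 / 2 : ℝ) • z := by
        rw [smul_sub]; abel
      show (1 / 2 : ℝ) • q + (1 / 2 : ℝ) • z + (1 / 2 : ℝ) • (p - q) ∈ P
      rw [e]; exact this
  refine le_trans (le_of_eq ?_) (measure_mono hsub)
  rw [image_add_left, measure_preimage_add, Measure.addHaar_smul]
  congr 2
  rw [abs_of_nonneg (by positivity)]

omit [NormedSpace ℝ E] [MeasurableSpace E] [BorelSpace E] [FiniteDimensional ℝ E] in
theorem isCompact_sub {P : Set E} (hP : IsCompact P) : IsCompact (P - P) := by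
  rw [sub_eq_add_neg]; exact hP.add hP.neg

/-- A convex null set has a null difference set. -/
theorem measure_sub_eq_zero {P : Set E} (hc : Convex ℝ P) (h0 : μ P = 0) : μ (P - P) = 0 := by
  rcases P.eq_empty_or_nonempty with rfl | hne
  · simp
  have hint : ¬ (interior P).Nonempty := by
    intro h
    have := (isOpen_interior.measure_pos μ h)
    exact (this.trans_le (measure_mono interior_subset)).ne' h0
  rw [hc.interior_nonempty_iff_affineSpan_eq_top] at hint
  have hdir : (affineSpan ℝ P).direction ≠ ⊤ := by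
    intro h
    exact hint ((AffineSubspace.direction_eq_top_iff_of_nonempty
      ((affineSpan_nonempty ℝ).2 hne)).1 h)
  have hsub : P - P ⊆ ((affineSpan ℝ P).direction : Set E) := by
    rintro _ ⟨p, hp, q, hq, rfl⟩
    exact AffineSubspace.vsub_mem_direction (subset_affineSpan ℝ P hp) (subset_affineSpan ℝ P hq)
  exact measure_mono_null hsub (Measure.addHaar_submodule μ _ hdir)

/-- (D') crude Rogers-Shephard inequality. -/
theorem measure_sub_le {P : Set E} (hP : IsCompact P) (hc : Convex ℝ P) :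
    μ (P - P) ≤ 4 ^ finrank ℝ E * μ P := by
  by_cases h0 : μ P = 0
  · rw [measure_sub_eq_zero μ hc h0]; exact zero_le
  have hfin : μ P ≠ ∞ := hP.measure_lt_top.ne
  set c : ℝ≥0∞ := ENNReal.ofReal ((1 / 2 : ℝ) ^ finrank ℝ E) with hcdef
  have hPm : MeasurableSet P := hP.measurableSet
  have hH : MeasurableSet ((1 / 2 : ℝ) • (P - P)) := ((isCompact_sub hP).smul _).measurableSet
  have hμH : μ ((1 / 2 : ℝ) • (P - P)) = c * μ (P - P) := by
    rw [Measure.addHaar_smul, abs_of_nonneg (by positivity)]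
  have key : c * μ P * (c * μ (P - P)) ≤ μ P * μ P := by
    rw [← lintegral_measure_inter_translate μ hPm hPm, ← hμH,
      ← setLIntegral_const]
    refine le_trans ?_ (setLIntegral_le_lintegral ((1 / 2 : ℝ) • (P - P)) _)
    refine setLIntegral_mono' hH ?_
    rintro _ ⟨_, ⟨p, hp, q, hq, rfl⟩, rfl⟩
    exact measure_le_inter_of_mem μ hc hp hq
  have key2 : c * c * μ (P - P) ≤ μ P := by
    have : (c * c * μ (P - P)) * μ P ≤ μ P * μ P := by
      calc (c * c * μ (P - P)) * μ P = c * μ P * (c * μ (P - P)) := by ring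
        _ ≤ _ := key
    exact (ENNReal.mul_le_mul_iff_left h0 hfin).1 this
  have hcc : (4 : ℝ≥0∞) ^ finrank ℝ E * (c * c) = 1 := by
    rw [hcdef, ← ENNReal.ofReal_mul (by positivity)]
    have : (4 : ℝ≥0∞) ^ finrank ℝ E = ENNReal.ofReal ((4 : ℝ) ^ finrank ℝ E) := by
      rw [ENNReal.ofReal_pow (by norm_num)]; norm_num
    rw [this, ← ENNReal.ofReal_mul (by positivity), ← mul_pow, ← mul_pow]
    norm_num
  calc μ (P - P) = (4 : ℝ≥0∞) ^ finrank ℝ E * (c * c) * μ (P - P) := by rw [hcc, one_mul]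
    _ = (4 : ℝ≥0∞) ^ finrank ℝ E * (c * c * μ (P - P)) := by ring
    _ ≤ _ := by gcongr

/-- (C)+(D') combined: two measurable subsets of a compact convex set have a translate
intersection of measure at least `μ F * μ G / (4 ^ n * μ P)`. -/
theorem exists_translate_inter {P F G : Set E} (hP : IsCompact P) (hc : Convex ℝ P)
    (hF : MeasurableSet F) (hG : MeasurableSet G) (hFP : F ⊆ P) (hGP : G ⊆ P) :
    ∃ w, μ F * μ G ≤ 4 ^ finrank ℝ E * μ P * μ (F ∩ {x | x + w ∈ G}) := by
  have hPP : MeasurableSet (P - P) := (isCompact_sub hP).measurableSet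
  have hsupp : ∀ w, w ∉ P - P → μ (F ∩ {x | x + w ∈ G}) = 0 := by
    intro w hw
    have : F ∩ {x | x + w ∈ G} = ∅ := by
      ext x
      simp only [mem_inter_iff, mem_ofPred_eq, mem_empty_iff_false, iff_false, not_and]
      intro hx hy
      exact hw ⟨x + w, hGP hy, x, hFP hx, add_sub_cancel_left x w⟩
    rw [this, measure_empty]
  have hint : ∫⁻ w in P - P, μ (F ∩ {x | x + w ∈ G}) ∂μ = μ F * μ G := by
    rw [← lintegral_measure_inter_translate μ hF hG, ← lintegral_indicator hPP]
    congr 1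
    ext w
    by_cases hw : w ∈ P - P
    · simp [indicator, hw]
    · simp [indicator, hw, hsupp w hw]
  have hFfin : μ F ≠ ∞ := ((measure_mono hFP).trans_lt hP.measure_lt_top).ne
  have hGfin : μ G ≠ ∞ := ((measure_mono hGP).trans_lt hP.measure_lt_top).ne
  by_cases h0 : μ (P - P) = 0
  · refine ⟨0, ?_⟩
    rw [← hint, setLIntegral_measure_zero _ _ h0]
    exact zero_le
  obtain ⟨w, -, hw⟩ := exists_setLAverage_le (μ := μ) (s := P - P)
    (f := fun w => μ (F ∩ {x | x + w ∈ G})) h0 hPP.nullMeasurableSet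
    (by rw [hint]; exact ENNReal.mul_ne_top hFfin hGfin)
  refine ⟨w, ?_⟩
  rw [setLAverage_eq, hint] at hw
  have hfin : μ (P - P) ≠ ∞ := (isCompact_sub hP).measure_lt_top.ne
  have h1 : μ F * μ G ≤ μ (F ∩ {x | x + w ∈ G}) * μ (P - P) :=
    (ENNReal.div_le_iff h0 hfin).1 hw
  calc μ F * μ G ≤ μ (F ∩ {x | x + w ∈ G}) * μ (P - P) := h1
    _ ≤ μ (F ∩ {x | x + w ∈ G}) * (4 ^ finrank ℝ E * μ P) := by
        gcongr; exact measure_sub_le μ hP hc
    _ = _ := by ring

end Vale.Agent.Lib.P243.Pre2
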