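import Mathlib

/-!
# Generic lemmas for the universal cylinder bound: averaging over translations, cone layer cake
-/

open MeasureTheory Set
open scoped ENNReal Pointwise

namespace Vale.Agent.Lib.P243.Pre21

section Averaging

variable {G : Type*} [MeasurableSpace G] [AddCommGroup G] [MeasurableAdd₂ G]
  (μ : Measure G) [SFinite μ] [μ.IsAddLeftInvariant]

omit [μ.IsAddLeftInvariant] in
theorem measurable_measure_inter_shift {F H : Set G} (hF : MeasurableSet F) (hH : MeasurableSet H) :
    Measurable (fun w : G => μ (F ∩ (fun x => x + w) ⁻¹' H)) := by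
  have hS : MeasurableSet {q : G × G | q.2 ∈ F ∧ q.2 + q.1 ∈ H} :=
    (measurable_snd hF).inter ((measurable_snd.add measurable_fst) hH)
  exact measurable_measure_prodMk_left hS

/-- (C) averaging over translations. -/
theorem lintegral_measure_inter_shift {F H : Set G} (hF : MeasurableSet F) (hH : MeasurableSet H) :
    ∫⁻ w, μ (F ∩ (fun x => x + w) ⁻¹' H) ∂μ = μ F * μ H := by
  have hS : MeasurableSet {q : G × G | q.2 ∈ F ∧ q.2 + q.1 ∈ H} :=
    (measurable_snd hF).inter ((measurable_snd.add measurable_fst) hH)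
  have h1 : ∫⁻ w, μ (F ∩ (fun x => x + w) ⁻¹' H) ∂μ
      = (μ.prod μ) {q : G × G | q.2 ∈ F ∧ q.2 + q.1 ∈ H} := by
    rw [Measure.prod_apply hS]
    rfl
  rw [h1, Measure.prod_apply_symm hS]
  have h2 : ∀ x : G, μ ((fun w => (w, x)) ⁻¹' {q : G × G | q.2 ∈ F ∧ q.2 + q.1 ∈ H})
      = F.indicator (fun _ => μ H) x := by
    intro x
    by_cases hx : x ∈ F
    · rw [indicator_of_mem hx]
      have : (fun w => (w, x)) ⁻¹' {q : G × G | q.2 ∈ F ∧ q.2 + q.1 ∈ H}
          = (fun w => x + w) ⁻¹' H := by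
        ext w; simp [hx]
      rw [this, measure_preimage_add]
    · rw [indicator_of_notMem hx]
      have : (fun w => (w, x)) ⁻¹' {q : G × G | q.2 ∈ F ∧ q.2 + q.1 ∈ H} = ∅ := by
        ext w; simp [hx]
      rw [this, measure_empty]
  simp_rw [h2]
  rw [lintegral_indicator hF, lintegral_const, Measure.restrict_apply MeasurableSet.univ,
    univ_inter, mul_comm]

/-- (C) consequence: some translate has a large overlap. -/
theorem exists_shift_large {F H S : Set G} (hF : MeasurableSet F) (hH : MeasurableSet H)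
    (hS : ∀ x ∈ F, ∀ y ∈ H, y - x ∈ S) :
    ∃ w, μ F * μ H ≤ μ (F ∩ (fun x => x + w) ⁻¹' H) * μ S := by
  by_contra hcon
  push Not at hcon
  set m : G → ℝ≥0∞ := fun w => μ (F ∩ (fun x => x + w) ⁻¹' H) with hm
  have hmm : Measurable m := measurable_measure_inter_shift μ hF hH
  have hint : ∫⁻ w, m w ∂μ = μ F * μ H := lintegral_measure_inter_shift μ hF hH
  set S' := toMeasurable μ S with hS'
  have hS'm : MeasurableSet S' := measurableSet_toMeasurable μ S
  have hμS' : μ S' = μ S := measure_toMeasurable S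
  have hsupp : ∀ w, w ∉ S' → m w = 0 := by
    intro w hw
    have : F ∩ (fun x => x + w) ⁻¹' H = ∅ := by
      ext x
      simp only [mem_inter_iff, mem_preimage, mem_empty_iff_false, iff_false, not_and]
      intro hx hxw
      apply hw
      apply subset_toMeasurable μ S
      have := hS x hx (x + w) hxw
      simpa using this
    simp [hm, this]
  have hint' : ∫⁻ w in S', m w ∂μ = μ F * μ H := by
    rw [← hint, ← lintegral_indicator hS'm]
    congr 1
    ext w
    by_cases hw : w ∈ S'
    · rw [indicator_of_mem hw]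
    · rw [indicator_of_notMem hw, hsupp w hw]
  have hc0 : μ F * μ H ≠ 0 := by
    intro h0
    have := hcon 0
    rw [h0] at this
    exact ENNReal.not_lt_zero this
  -- the measure of `S` is neither zero nor infinite
  have hS0 : μ S ≠ 0 := by
    intro h0
    apply hc0
    rw [← hint']
    have : μ.restrict S' = 0 := by
      rw [Measure.restrict_eq_zero, hμS', h0]
    rw [this, lintegral_zero_measure]
  have hStop : μ S ≠ ∞ := by
    intro htop
    -- some `m w` is nonzero
    have : ∃ w, m w ≠ 0 := by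
      by_contra hall
      push Not at hall
      apply hc0
      rw [← hint]
      simp [hall]
    obtain ⟨w, hw⟩ := this
    have h1 := hcon w
    rw [htop, ENNReal.mul_top hw] at h1
    exact absurd h1 (not_lt.mpr le_top)
  have hlt : ∀ w, m w < (μ F * μ H) / μ S := by
    intro w
    rw [ENNReal.lt_div_iff_mul_lt (Or.inl hS0) (Or.inl hStop)]
    exact hcon w
  have hfin : μ F * μ H ≠ ∞ := by
    intro htop
    -- then `m w * μ S < ∞` always, and the integral is at most ... ; use a direct bound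
    have hFH : μ F = ∞ ∨ μ H = ∞ := by
      rcases ENNReal.mul_eq_top.mp htop with h | h
      · exact Or.inr h.2
      · exact Or.inl h.1
    -- `F - ...`: both sets embed into translates of `S`
    have hF0 : μ F ≠ 0 := fun h => hc0 (by rw [h, zero_mul])
    have hH0 : μ H ≠ 0 := fun h => hc0 (by rw [h, mul_zero])
    obtain ⟨x0, hx0⟩ : F.Nonempty := by
      by_contra hne
      rw [not_nonempty_iff_eq_empty] at hne
      exact hF0 (by rw [hne, measure_empty])
    obtain ⟨y0, hy0⟩ : H.Nonempty := by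
      by_contra hne
      rw [not_nonempty_iff_eq_empty] at hne
      exact hH0 (by rw [hne, measure_empty])
    have hHle : μ H ≤ μ S := by
      have hsub : H ⊆ (fun y => (-x0) + y) ⁻¹' S := by
        intro y hy
        have := hS x0 hx0 y hy
        simpa [sub_eq_add_neg, add_comm] using this
      calc μ H ≤ μ ((fun y => (-x0) + y) ⁻¹' S') :=
            measure_mono (hsub.trans (preimage_mono (subset_toMeasurable μ S)))
        _ = μ S' := measure_preimage_add μ (-x0) S'
        _ = μ S := hμS'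
    have hFle : μ F ≤ μ S := by
      -- use the integral identity with a point mass replaced: `F ⊆ y0 - S`
      -- invariance under negation is not available in general, so argue through `m`
      by_contra hnot
      push Not at hnot
      rcases hFH with h | h
      · -- `μ F = ∞`: then `∫ m = ∞` but `m ≤ μ H`-type bound gives finiteness
        have hmle : ∀ w, m w ≤ μ H := by
          intro w
          calc m w ≤ μ ((fun x => x + w) ⁻¹' H) := measure_mono inter_subset_right
            _ = μ ((fun x => w + x) ⁻¹' H) := by simp only [add_comm]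
            _ = μ H := measure_preimage_add μ w H
        have : ∫⁻ w in S', m w ∂μ ≤ μ H * μ S := by
          calc ∫⁻ w in S', m w ∂μ ≤ ∫⁻ _ in S', μ H ∂μ := lintegral_mono (fun w => hmle w)
            _ = μ H * μ S := by
              rw [lintegral_const, Measure.restrict_apply MeasurableSet.univ, univ_inter, hμS']
        rw [hint', htop] at this
        have h2 : μ H * μ S < ∞ := ENNReal.mul_lt_top (lt_of_le_of_lt hHle hStop.lt_top) hStop.lt_top
        exact absurd this (not_le.mpr h2)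
      · exact absurd (h ▸ hHle) (not_le.mpr hStop.lt_top)
    rcases hFH with h | h
    · exact absurd (h ▸ hFle) (not_le.mpr hStop.lt_top)
    · exact absurd (h ▸ hHle) (not_le.mpr hStop.lt_top)
  have hstrict : ∫⁻ w in S', m w ∂μ < ∫⁻ _ in S', (μ F * μ H) / μ S ∂μ := by
    apply lintegral_strict_mono
    · intro h0
      rw [Measure.restrict_eq_zero, hμS'] at h0
      exact hS0 h0
    · exact aemeasurable_const
    · rw [hint']; exact hfin
    · exact Filter.Eventually.of_forall hlt
  rw [hint', lintegral_const, Measure.restrict_apply MeasurableSet.univ, univ_inter, hμS',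
    ENNReal.div_mul_cancel hS0 hStop] at hstrict
  exact lt_irrefl _ hstrict

end Averaging

section Cone

/-- The cone of height `D` over the planar set `P` (apex above the origin). -/
def coneSet (P : Set (ℝ × ℝ)) (D : ℝ) : Set ((ℝ × ℝ) × ℝ) :=
  {q | 0 ≤ q.2 ∧ q.2 ≤ D ∧ q.1 ∈ (1 - q.2 / D) • P}

theorem coneSet_eq_image (P : Set (ℝ × ℝ)) (D : ℝ) :
    coneSet P D = (fun r : ℝ × (ℝ × ℝ) => ((1 - r.1 / D) • r.2, r.1)) '' (Icc 0 D ×ˢ P) := by
  ext q
  constructor
  · rintro ⟨h0, hD, y, hy, hq⟩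
    exact ⟨(q.2, y), ⟨⟨h0, hD⟩, hy⟩, Prod.ext hq rfl⟩
  · rintro ⟨⟨z, y⟩, ⟨⟨h0, hD⟩, hy⟩, rfl⟩
    exact ⟨h0, hD, y, hy, rfl⟩

theorem isCompact_coneSet {P : Set (ℝ × ℝ)} (hP : IsCompact P) (D : ℝ) :
    IsCompact (coneSet P D) := by
  rw [coneSet_eq_image]
  apply (isCompact_Icc.prod hP).image
  fun_prop

/-- The fibres of the cone are initial segments. -/
theorem coneSet_down {P : Set (ℝ × ℝ)} (hP : Convex ℝ P) (h0 : (0 : ℝ × ℝ) ∈ P) {D : ℝ}
    (hD : 0 < D) {y : ℝ × ℝ} {z z' : ℝ} (hz : (y, z) ∈ coneSet P D) (h0z : 0 ≤ z') (hzz : z' ≤ z) :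
    (y, z') ∈ coneSet P D := by
  obtain ⟨_, hzD, hy⟩ := hz
  refine ⟨h0z, hzz.trans hzD, ?_⟩
  have h1 : 0 ≤ 1 - z / D := by
    rw [sub_nonneg, div_le_one hD]; exact hzD
  have h2 : 1 - z / D ≤ 1 - z' / D := by
    have : z' / D ≤ z / D := div_le_div_of_nonneg_right hzz hD.le
    linarith
  obtain ⟨q, hq, hqy⟩ := hy
  have hqy' : (1 - z / D) • q = y := hqy
  rcases eq_or_lt_of_le (h1.trans h2) with h3 | h3
  · have h4 : 1 - z / D = 0 := le_antisymm (h3 ▸ h2) h1
    refine ⟨q, hq, ?_⟩
    show (1 - z' / D) • q = y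
    rw [← hqy', ← h3, h4]
  · refine ⟨((1 - z / D) / (1 - z' / D)) • q,
      hP.smul_mem_of_zero_mem h0 hq ⟨div_nonneg h1 h3.le, (div_le_one h3).mpr h2⟩, ?_⟩
    show (1 - z' / D) • ((1 - z / D) / (1 - z' / D)) • q = y
    rw [smul_smul, mul_div_cancel₀ _ h3.ne', hqy']

theorem lintegral_cone_profile {D : ℝ} (hD : 0 < D) :
    ∫⁻ z in Icc 0 D, ENNReal.ofReal ((1 - z / D) ^ 2) = ENNReal.ofReal (D / 3) := by
  have hderiv : ∀ z ∈ uIcc 0 D, HasDerivAt (fun z : ℝ => -(D / 3) * (1 - z / D) ^ 3)
      ((1 - z / D) ^ 2) z := by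
    intro z _
    have h1 : HasDerivAt (fun z : ℝ => 1 - z / D) (-(1 / D)) z := by
      simpa using ((hasDerivAt_id z).div_const D).const_sub 1
    have h2 := (h1.pow 3).const_mul (-(D / 3))
    have hD' : D ≠ 0 := hD.ne'
    have h3 : (1 - z / D) ^ 2 = -(D / 3) * (((3 : ℕ) : ℝ) * (1 - z / D) ^ (3 - 1) * -(1 / D)) := by
      have : D / 3 * (3 * (1 / D)) = 1 := by field_simp
      calc (1 - z / D) ^ 2 = (D / 3 * (3 * (1 / D))) * (1 - z / D) ^ 2 := by rw [this, one_mul]
        _ = -(D / 3) * (((3 : ℕ) : ℝ) * (1 - z / D) ^ (3 - 1) * -(1 / D)) := by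
          push_cast
          ring
    rw [h3]
    exact h2
  have hcont : Continuous (fun z : ℝ => (1 - z / D) ^ 2) := by fun_prop
  have hint : ∫ z in (0 : ℝ)..D, (1 - z / D) ^ 2 = D / 3 := by
    rw [intervalIntegral.integral_eq_sub_of_hasDerivAt hderiv (hcont.intervalIntegrable _ _)]
    rw [div_self hD.ne']
    ring
  rw [← hint, intervalIntegral.integral_of_le hD.le, ← integral_Icc_eq_integral_Ioc,
    ofReal_integral_eq_lintegral_ofReal]
  · exact hcont.integrableOn_Icc
  · exact Filter.Eventually.of_forall (fun z => sq_nonneg _)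

/-- (E) the volume of the cone. -/
theorem volume_coneSet {P : Set (ℝ × ℝ)} (hP : IsCompact P) {D : ℝ} (hD : 0 < D) :
    volume (coneSet P D) = ENNReal.ofReal (D / 3) * volume P := by
  have hm : MeasurableSet (coneSet P D) := (isCompact_coneSet hP D).measurableSet
  rw [Measure.volume_eq_prod, Measure.prod_apply_symm hm]
  have h1 : ∀ z : ℝ, volume ((fun y : ℝ × ℝ => (y, z)) ⁻¹' coneSet P D)
      = (Icc 0 D).indicator (fun z => ENNReal.ofReal ((1 - z / D) ^ 2) * volume P) z := by
    intro z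
    by_cases hz : z ∈ Icc 0 D
    · rw [indicator_of_mem hz]
      have : (fun y : ℝ × ℝ => (y, z)) ⁻¹' coneSet P D = (1 - z / D) • P := by
        ext y
        simp only [coneSet, mem_preimage, mem_ofPred_eq]
        exact ⟨fun h => h.2.2, fun h => ⟨hz.1, hz.2, h⟩⟩
      have h0 : 0 ≤ 1 - z / D := by
        rw [sub_nonneg, div_le_one hD]; exact hz.2
      rw [this, Measure.addHaar_smul_of_nonneg _ h0]
      simp
    · rw [indicator_of_notMem hz]
      have : (fun y : ℝ × ℝ => (y, z)) ⁻¹' coneSet P D = ∅ := by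
        ext y
        simp only [coneSet, mem_preimage, mem_ofPred_eq, mem_empty_iff_false, iff_false]
        exact fun h => hz ⟨h.1, h.2.1⟩
      rw [this, measure_empty]
  simp_rw [h1]
  rw [lintegral_indicator measurableSet_Icc, lintegral_mul_const' _ _ hP.measure_lt_top.ne,
    lintegral_cone_profile hD]

/-- The height function of the cone: the length of its vertical fibre. -/
noncomputable def coneHeight (P : Set (ℝ × ℝ)) (D : ℝ) (y : ℝ × ℝ) : ℝ≥0∞ :=
  volume {z : ℝ | (y, z) ∈ coneSet P D}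

theorem measurable_coneHeight {P : Set (ℝ × ℝ)} (hP : IsCompact P) (D : ℝ) :
    Measurable (coneHeight P D) :=
  measurable_measure_prodMk_left (isCompact_coneSet hP D).measurableSet

/-- (E) layer cake form: the integral of the height of the cone. -/
theorem lintegral_coneHeight {P : Set (ℝ × ℝ)} (hP : IsCompact P) {D : ℝ} (hD : 0 < D) :
    ∫⁻ y, coneHeight P D y = ENNReal.ofReal (D / 3) * volume P := by
  rw [← volume_coneSet hP hD]
  have h := Measure.prod_apply (μ := (volume : Measure (ℝ × ℝ))) (ν := (volume : Measure ℝ))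
    (isCompact_coneSet hP D).measurableSet
  exact h.symm

theorem coneHeight_eq_zero {P : Set (ℝ × ℝ)} (hP : Convex ℝ P) (h0 : (0 : ℝ × ℝ) ∈ P) {D : ℝ}
    (hD : 0 < D) {y : ℝ × ℝ} (hy : y ∉ P) : coneHeight P D y = 0 := by
  have : {z : ℝ | (y, z) ∈ coneSet P D} = ∅ := by
    ext z
    simp only [mem_ofPred_eq, mem_empty_iff_false, iff_false]
    intro hz
    have := coneSet_down hP h0 hD hz le_rfl hz.1
    obtain ⟨_, _, h⟩ := this
    simp at h
    exact hy h
  rw [coneHeight, this, measure_empty]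

/-- The fibre of the cone over `y` is the interval `[0, t]`, where `t` is its largest element. -/
theorem exists_coneTop {P : Set (ℝ × ℝ)} (hPc : IsCompact P) (hP : Convex ℝ P)
    (h0 : (0 : ℝ × ℝ) ∈ P) {D : ℝ} (hD : 0 < D) {y : ℝ × ℝ} (hy : y ∈ P) :
    ∃ t : ℝ, 0 ≤ t ∧ t ≤ D ∧ y ∈ (1 - t / D) • P ∧ {z : ℝ | (y, z) ∈ coneSet P D} = Icc 0 t ∧
      coneHeight P D y = ENNReal.ofReal t := by
  have hcl : IsCompact {z : ℝ | (y, z) ∈ coneSet P D} := by
    have h1 : IsClosed {z : ℝ | (y, z) ∈ coneSet P D} :=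
      (isCompact_coneSet hPc D).isClosed.preimage (by fun_prop : Continuous fun z : ℝ => (y, z))
    exact isCompact_Icc.of_isClosed_subset h1 (fun z hz => ⟨hz.1, hz.2.1⟩)
  have hne : {z : ℝ | (y, z) ∈ coneSet P D}.Nonempty :=
    ⟨0, le_rfl, hD.le, by simpa using hy⟩
  obtain ⟨t, ht, hmax⟩ := hcl.exists_isGreatest hne
  have hfib : {z : ℝ | (y, z) ∈ coneSet P D} = Icc 0 t := by
    ext z
    constructor
    · intro hz
      exact ⟨hz.1, hmax hz⟩
    · intro hz
      exact coneSet_down hP h0 hD ht hz.1 hz.2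
  refine ⟨t, ht.1, ht.2.1, ht.2.2, hfib, ?_⟩
  rw [coneHeight, hfib, Real.volume_Icc, sub_zero]

theorem smul_subset_of_zero_mem {P : Set (ℝ × ℝ)} (hP : Convex ℝ P) (h0 : (0 : ℝ × ℝ) ∈ P)
    {r : ℝ} (hr0 : 0 ≤ r) (hr1 : r ≤ 1) : r • P ⊆ P := by
  rintro _ ⟨q, hq, rfl⟩
  exact hP.smul_mem_of_zero_mem h0 hq ⟨hr0, hr1⟩

/-- The area of the layer between `P` and its homothetic copy `(1 - c) P`. -/
theorem volume_diff_smul {P : Set (ℝ × ℝ)} (hPc : IsCompact P) (hP : Convex ℝ P)
    (h0 : (0 : ℝ × ℝ) ∈ P) {c : ℝ} (hc0 : 0 ≤ c) (hc1 : c ≤ 1) :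
    volume (P \ ((1 - c) • P)) = ENNReal.ofReal (1 - (1 - c) ^ 2) * volume P := by
  have hr0 : 0 ≤ 1 - c := by linarith
  have hr1 : 1 - c ≤ 1 := by linarith
  have hsub : (1 - c) • P ⊆ P := smul_subset_of_zero_mem hP h0 hr0 hr1
  have hm : MeasurableSet ((1 - c) • P) := (hPc.smul (1 - c)).measurableSet
  have hv : volume ((1 - c) • P) = ENNReal.ofReal ((1 - c) ^ 2) * volume P := by
    rw [Measure.addHaar_smul_of_nonneg _ hr0]
    simp
  rw [measure_sdiff hsub hm.nullMeasurableSet (hPc.smul (1 - c)).measure_lt_top.ne, hv,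
    ENNReal.ofReal_sub _ (sq_nonneg _), ENNReal.ofReal_one,
    ENNReal.sub_mul (fun _ _ => hPc.measure_lt_top.ne), one_mul]

end Cone

end Vale.Agent.Lib.P243.Pre21
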