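import Mathlib

/-!
# P243, universal improvement: the cone over the shadow and the fibre lemma (step (3))
-/

namespace Vale.Agent.Lib.P243

open MeasureTheory Set
open scoped Pointwise

/-- The closed cone over `P` (placed at height `0`) with apex `(0, D)`. -/
def cone (P : Set (ℝ × ℝ)) (D : ℝ) : Set ((ℝ × ℝ) × ℝ) :=
  {q | 0 ≤ q.2 ∧ q.2 ≤ D ∧ q.1 ∈ (1 - q.2 / D) • P}

theorem isCompact_cone {P : Set (ℝ × ℝ)} (hP : IsCompact P) (D : ℝ) : IsCompact (cone P D) := by
  have h : cone P D = (fun w : ℝ × (ℝ × ℝ) => ((1 - w.1 / D) • w.2, w.1)) '' (Icc 0 D ×ˢ P) := by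
    ext q
    constructor
    · rintro ⟨h0, h1, p, hp, hq⟩
      exact ⟨(q.2, p), ⟨⟨h0, h1⟩, hp⟩, Prod.ext hq rfl⟩
    · rintro ⟨w, ⟨⟨h0, h1⟩, hp⟩, rfl⟩
      exact ⟨h0, h1, w.2, hp, rfl⟩
  rw [h]
  exact (isCompact_Icc.prod hP).image (by fun_prop)

theorem lintegral_cone_aux {D : ℝ} (hD : 0 < D) :
    ∫⁻ z in Icc 0 D, ENNReal.ofReal ((1 - z / D) ^ 2) = ENNReal.ofReal (D / 3) := by
  have hint : IntervalIntegrable (fun z : ℝ => (1 - z / D) ^ 2) volume 0 D :=
    Continuous.intervalIntegrable (by fun_prop) _ _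
  rw [← ofReal_integral_eq_lintegral_ofReal]
  · congr 1
    rw [integral_Icc_eq_integral_Ioc, ← intervalIntegral.integral_of_le hD.le]
    have hder : ∀ z ∈ uIcc 0 D, HasDerivAt (fun z : ℝ => -(D / 3) * (1 - z / D) ^ 3)
        ((1 - z / D) ^ 2) z := by
      intro z _
      have h1 : HasDerivAt (fun z : ℝ => 1 - z / D) (-(1 / D)) z := by
        simpa using ((hasDerivAt_id z).div_const D).const_sub 1
      have h2 := (h1.pow 3).const_mul (-(D / 3))
      have hD' : D ≠ 0 := hD.ne'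
      have he : (1 - z / D) ^ 2 = -(D / 3) * (((3 : ℕ) : ℝ) * (1 - z / D) ^ (3 - 1) * -(1 / D)) := by
        have : -(D / 3) * (((3 : ℕ) : ℝ) * (1 - z / D) ^ (3 - 1) * -(1 / D)) =
            (D / D) * (1 - z / D) ^ 2 := by
          push_cast
          ring
        rw [this, div_self hD', one_mul]
      rw [he]
      exact h2
    rw [intervalIntegral.integral_eq_sub_of_hasDerivAt hder hint]
    have : D / D = 1 := div_self hD.ne'
    simp [this]
  · exact (Continuous.integrableOn_Icc (by fun_prop))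
  · exact Filter.Eventually.of_forall fun z => by positivity

theorem volume_cone {P : Set (ℝ × ℝ)} (hP : IsCompact P) {D : ℝ} (hD : 0 < D) :
    volume (cone P D) = ENNReal.ofReal (D / 3) * volume P := by
  have hm : MeasurableSet (cone P D) := (isCompact_cone hP D).measurableSet
  rw [Measure.volume_eq_prod, Measure.prod_apply_symm hm]
  have hfib : ∀ z : ℝ, volume ((fun y : ℝ × ℝ => (y, z)) ⁻¹' cone P D) =
      (Icc 0 D).indicator (fun z => ENNReal.ofReal ((1 - z / D) ^ 2) * volume P) z := by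
    intro z
    by_cases hz : z ∈ Icc 0 D
    · rw [indicator_of_mem hz]
      have : (fun y : ℝ × ℝ => (y, z)) ⁻¹' cone P D = (1 - z / D) • P := by
        ext y
        simp only [cone, mem_preimage, mem_ofPred_eq]
        exact ⟨fun h => h.2.2, fun h => ⟨hz.1, hz.2, h⟩⟩
      rw [this, Measure.addHaar_smul]
      simp
    · rw [indicator_of_notMem hz]
      have : (fun y : ℝ × ℝ => (y, z)) ⁻¹' cone P D = ∅ := by
        ext y
        simp only [cone, mem_preimage, mem_ofPred_eq, mem_empty_iff_false, iff_false]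
        exact fun h => hz ⟨h.1, h.2.1⟩
      rw [this, measure_empty]
  simp_rw [hfib]
  rw [lintegral_indicator measurableSet_Icc, lintegral_mul_const' _ _ hP.measure_lt_top.ne,
    lintegral_cone_aux hD]

/-- Fubini over a measurable base containing the shadow. -/
theorem volume_eq_setLIntegral_fibre {S : Set ((ℝ × ℝ) × ℝ)} (hS : MeasurableSet S)
    {P : Set (ℝ × ℝ)} (hP : MeasurableSet P) (hSP : ∀ q ∈ S, q.1 ∈ P) :
    volume S = ∫⁻ y in P, volume (Prod.mk y ⁻¹' S) := by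
  rw [Measure.volume_eq_prod, Measure.prod_apply hS, ← lintegral_indicator hP]
  congr 1
  symm
  rw [indicator_eq_self]
  intro y hy
  by_contra hyP
  apply hy
  have : Prod.mk y ⁻¹' S = ∅ := by
    ext z
    simp only [mem_preimage, mem_empty_iff_false, iff_false]
    exact fun h => hyP (hSP _ h)
  change volume (Prod.mk y ⁻¹' S) = 0
  rw [this, measure_empty]

/-- The pointwise fibre inequality of step (3). -/
theorem fibre_pointwise {K : Set ((ℝ × ℝ) × ℝ)} (hK : IsCompact K) (hc : Convex ℝ K) {D : ℝ}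
    (hD : 0 < D) (ha : ((0, 0), 0) ∈ K) (hb : ((0, 0), D) ∈ K) {E : Set ((ℝ × ℝ) × ℝ)}
    (hEK : E ⊆ K) {c : ℝ × ℝ → ENNReal}
    (h : ∀ k ∈ K, ∀ t : ℝ, 0 ≤ t → t ≤ D →
      (∀ τ : ℝ, t < τ → τ ≤ D → (1 - t / D) • k.1 ∉ (1 - τ / D) • (Prod.fst '' K)) →
      volume {s : ℝ | 0 ≤ s ∧ s ≤ t ∧ ((1 - t / D) • k.1, (1 - t / D) * k.2 + s) ∈ E} ≤
        c ((1 - t / D) • k.1))
    {y : ℝ × ℝ} (hy : y ∈ Prod.fst '' K) :
    volume (Prod.mk y ⁻¹' E) + volume (Prod.mk y ⁻¹' cone (Prod.fst '' K) D) ≤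
      c y + volume (Prod.mk y ⁻¹' K) := by
  set P : Set (ℝ × ℝ) := Prod.fst '' K with hPdef
  have hP : IsCompact P := hK.image continuous_fst
  set Cy : Set ℝ := Prod.mk y ⁻¹' cone P D with hCy
  have hCysub : Cy ⊆ Icc 0 D := fun z hz => ⟨hz.1, hz.2.1⟩
  have hCyclosed : IsClosed Cy :=
    (isCompact_cone hP D).isClosed.preimage (by fun_prop)
  have hCyc : IsCompact Cy := isCompact_Icc.of_isClosed_subset hCyclosed hCysub
  have h0 : (0 : ℝ) ∈ Cy := by
    refine ⟨le_rfl, hD.le, ?_⟩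
    simpa using hy
  have hbdd : BddAbove Cy := hCyc.bddAbove
  obtain ⟨ht0, htD, q, hq, hqy⟩ := hCyc.sSup_mem ⟨0, h0⟩
  set t : ℝ := sSup Cy with ht
  have hmax : ∀ τ : ℝ, t < τ → τ ≤ D → y ∉ (1 - τ / D) • P := by
    intro τ h1 h2 h3
    have : τ ∈ Cy := ⟨(ht0.trans h1.le), h2, h3⟩
    exact absurd (le_csSup hbdd this) (not_le.mpr h1)
  obtain ⟨k, hk, rfl⟩ := hq
  have hy' : (1 - t / D) • k.1 = y := hqy
  have hCyle : volume Cy ≤ ENNReal.ofReal t := by
    have : Cy ⊆ Icc 0 t := fun z hz => ⟨hz.1, le_csSup hbdd hz⟩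
    refine (measure_mono this).trans ?_
    rw [Real.volume_Icc, sub_zero]
  set z0 : ℝ := (1 - t / D) * k.2 with hz0
  set J : Set ℝ := Icc z0 (z0 + t) with hJ
  have hJv : volume J = ENNReal.ofReal t := by
    rw [hJ, Real.volume_Icc]
    congr 1
    ring
  have hJm : MeasurableSet J := measurableSet_Icc
  have hJK : J ⊆ Prod.mk y ⁻¹' K := by
    intro z hz
    have hs0 : 0 ≤ z - z0 := sub_nonneg.mpr hz.1
    have hs1 : z - z0 ≤ t := by linarith [hz.2]
    have hsum := hc.sum_mem (t := (Finset.univ : Finset (Fin 3)))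
      (w := ![1 - t / D, (z - z0) / D, (t - (z - z0)) / D])
      (z := ![k, ((0, 0), D), ((0, 0), 0)]) ?_ ?_ ?_
    · simp only [Fin.sum_univ_three, Matrix.cons_val_zero, Matrix.cons_val_one,
        Matrix.cons_val_two, Matrix.head_cons, Matrix.tail_cons] at hsum
      have he : (y, z) = (1 - t / D) • k + ((z - z0) / D) • (((0 : ℝ), (0 : ℝ)), D) +
          ((t - (z - z0)) / D) • (((0 : ℝ), (0 : ℝ)), (0 : ℝ)) := by
        refine Prod.ext ?_ ?_
        · have h00 : ((0 : ℝ), (0 : ℝ)) = 0 := rfl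
          simp [hy', h00]
        · simp only [Prod.snd_add, Prod.smul_snd, smul_eq_mul, mul_zero, add_zero]
          rw [div_mul_cancel₀ _ hD.ne', ← hz0]
          ring
      change (y, z) ∈ K
      rw [he]
      exact hsum
    · intro i _
      fin_cases i
      · simpa using (div_le_one hD).mpr htD
      · simpa using div_nonneg hs0 hD.le
      · simpa using div_nonneg (sub_nonneg.mpr hs1) hD.le
    · simp only [Fin.sum_univ_three, Matrix.cons_val_zero, Matrix.cons_val_one,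
        Matrix.cons_val_two, Matrix.head_cons, Matrix.tail_cons]
      field_simp
      ring
    · intro i _
      fin_cases i
      · exact hk
      · exact hb
      · exact ha
  have hEJ : volume (Prod.mk y ⁻¹' E ∩ J) ≤ c y := by
    have h1 := h k hk t ht0 htD (by rw [hy']; exact hmax)
    rw [hy'] at h1
    refine le_trans (le_of_eq ?_) h1
    rw [← measure_preimage_add volume z0 (Prod.mk y ⁻¹' E ∩ J)]
    congr 1
    ext s
    simp only [mem_preimage, mem_inter_iff, hJ, mem_Icc, mem_ofPred_eq]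
    constructor
    · rintro ⟨h1, h2, h3⟩
      exact ⟨by linarith, by linarith, h1⟩
    · rintro ⟨h1, h2, h3⟩
      exact ⟨h3, by linarith, by linarith⟩
  have hEsplit : volume (Prod.mk y ⁻¹' E) ≤ c y + volume (Prod.mk y ⁻¹' K \ J) := by
    rw [← measure_inter_add_sdiff (Prod.mk y ⁻¹' E) hJm]
    exact add_le_add hEJ (measure_mono (sdiff_subset_sdiff_left (preimage_mono hEK)))
  have hKsplit : volume (Prod.mk y ⁻¹' K \ J) + ENNReal.ofReal t = volume (Prod.mk y ⁻¹' K) := by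
    rw [← measure_inter_add_sdiff (Prod.mk y ⁻¹' K) hJm, inter_eq_right.mpr hJK, hJv, add_comm]
  calc volume (Prod.mk y ⁻¹' E) + volume Cy
      ≤ (c y + volume (Prod.mk y ⁻¹' K \ J)) + ENNReal.ofReal t := add_le_add hEsplit hCyle
    _ = c y + volume (Prod.mk y ⁻¹' K) := by rw [add_assoc, hKsplit]

/-- The integrated fibre lemma of step (3). The point in the hypothesis is
`(1 - t / D) k + (s / D) b + ((t - s) / D) a` with `a = (0, 0)`, `b = (0, D)`. -/
theorem fibre_lemma {K : Set ((ℝ × ℝ) × ℝ)} (hK : IsCompact K) (hc : Convex ℝ K) {D : ℝ}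
    (hD : 0 < D) (ha : ((0, 0), 0) ∈ K) (hb : ((0, 0), D) ∈ K) {E : Set ((ℝ × ℝ) × ℝ)}
    (hE : MeasurableSet E) (hEK : E ⊆ K) {c : ℝ × ℝ → ENNReal} (hcm : Measurable c)
    (h : ∀ k ∈ K, ∀ t : ℝ, 0 ≤ t → t ≤ D →
      (∀ τ : ℝ, t < τ → τ ≤ D → (1 - t / D) • k.1 ∉ (1 - τ / D) • (Prod.fst '' K)) →
      volume {s : ℝ | 0 ≤ s ∧ s ≤ t ∧ ((1 - t / D) • k.1, (1 - t / D) * k.2 + s) ∈ E} ≤
        c ((1 - t / D) • k.1)) :
    volume E + ENNReal.ofReal (D / 3) * volume (Prod.fst '' K) ≤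
      (∫⁻ y in Prod.fst '' K, c y) + volume K := by
  have hP : IsCompact (Prod.fst '' K) := hK.image continuous_fst
  have hPm : MeasurableSet (Prod.fst '' K) := hP.measurableSet
  have hPc : Convex ℝ (Prod.fst '' K) := hc.linear_image (LinearMap.fst ℝ (ℝ × ℝ) ℝ)
  have hP0 : (0 : ℝ × ℝ) ∈ Prod.fst '' K := ⟨_, ha, rfl⟩
  have hCm : MeasurableSet (cone (Prod.fst '' K) D) := (isCompact_cone hP D).measurableSet
  have hKm : MeasurableSet K := hK.measurableSet
  rw [← volume_cone hP hD,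
    volume_eq_setLIntegral_fibre hE hPm (fun q hq => ⟨q, hEK hq, rfl⟩),
    volume_eq_setLIntegral_fibre hKm hPm (fun q hq => ⟨q, hq, rfl⟩),
    volume_eq_setLIntegral_fibre hCm hPm ?_,
    ← lintegral_add_left (measurable_measure_prodMk_left hE),
    ← lintegral_add_left hcm]
  · exact setLIntegral_mono' hPm fun y hy => fibre_pointwise hK hc hD ha hb hEK h hy
  · rintro q ⟨h0, h1, p, hp, hq⟩
    rw [← hq]
    refine hPc.smul_mem_of_zero_mem hP0 hp ⟨?_, ?_⟩
    · exact sub_nonneg.mpr ((div_le_one hD).mpr h1)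
    · have := div_nonneg h0 hD.le
      linarith

end Vale.Agent.Lib.P243
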