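import Mathlib

/-!
# P243, centrally symmetric bodies: basic definitions

`polarSet K` is the polar body, `Feas K` is the set of linear maps `C` whose dual ellipsoid
(the image of the unit ball under the adjoint of `C`) lies in `K`, and `ballDens` is the density
`1 / sqrt (1 - |y|^2)` on the open unit ball (it is `0` outside because `Real.sqrt` of a
nonpositive number is `0` and `0⁻¹ = 0`).
-/

namespace Vale.Agent.Lib.P243

variable {E : Type*} [NormedAddCommGroup E] [InnerProductSpace ℝ E]

/-- The polar body of `K`. -/
def polarSet (K : Set E) : Set E := {a | ∀ x ∈ K, inner ℝ a x ≤ 1}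

/-- Linear maps `C` with `‖C a‖ ≤ 1` on the polar body. -/
def Feas (K : Set E) : Set (E →L[ℝ] E) := {C | ∀ a ∈ polarSet K, ‖C a‖ ≤ 1}

/-- The density `1 / sqrt (1 - |y|^2)` on the open unit ball, `0` elsewhere. -/
noncomputable def ballDens (y : E) : ENNReal := ENNReal.ofReal (Real.sqrt (1 - ‖y‖ ^ 2))⁻¹

end Vale.Agent.Lib.P243
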