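import Mathlib
import Vale.Agent.Lib.P243.SymDefs

namespace Vale.Agent.Lib.P243

open Set

variable {E : Type*} [NormedAddCommGroup E] [InnerProductSpace ℝ E]

/-- If the ball of radius `r` lies in `K`, the polar body lies in the ball of radius `1 / r`. -/
theorem norm_le_of_mem_polarSet {K : Set E} {r : ℝ} (hr : 0 < r)
    (hball : Metric.closedBall (0 : E) r ⊆ K) {a : E} (ha : a ∈ polarSet K) : ‖a‖ ≤ 1 / r := by
  by_cases h0 : a = 0
  · subst h0
    simp only [norm_zero]
    positivity
  have hn : 0 < ‖a‖ := norm_pos_iff.2 h0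
  have hx : (r / ‖a‖) • a ∈ K := by
    apply hball
    rw [mem_closedBall_zero_iff, norm_smul, Real.norm_eq_abs, abs_of_pos (by positivity)]
    rw [div_mul_cancel₀ _ hn.ne']
  have h1 := ha _ hx
  rw [inner_smul_right, real_inner_self_eq_norm_sq] at h1
  have h2 : r / ‖a‖ * ‖a‖ ^ 2 = r * ‖a‖ := by
    field_simp
  rw [h2] at h1
  rw [le_div_iff₀ hr]
  linarith

/-- If `K` lies in the ball of radius `R`, the polar body contains the ball of radius `1 / R`. -/
theorem mem_polarSet_of_norm_le {K : Set E} {R : ℝ} (hR : 0 < R)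
    (hK : K ⊆ Metric.closedBall (0 : E) R) {a : E} (ha : ‖a‖ ≤ 1 / R) : a ∈ polarSet K := by
  intro x hx
  have hx' : ‖x‖ ≤ R := by simpa using hK hx
  calc inner ℝ a x ≤ ‖a‖ * ‖x‖ := real_inner_le_norm a x
    _ ≤ (1 / R) * R := by gcongr
    _ = 1 := by field_simp

theorem isClosed_polarSet (K : Set E) : IsClosed (polarSet K) := by
  have : polarSet K = ⋂ x ∈ K, {a : E | inner ℝ a x ≤ 1} := by
    ext a
    simp [polarSet]
  rw [this]
  refine isClosed_biInter fun x _ => ?_
  exact isClosed_le (by fun_prop) continuous_const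

theorem isCompact_polarSet [FiniteDimensional ℝ E] {K : Set E} (h0 : 0 ∈ interior K) :
    IsCompact (polarSet K) := by
  obtain ⟨r, hr, hball⟩ := Metric.isOpen_iff.1 isOpen_interior 0 h0
  have hcb : Metric.closedBall (0 : E) (r / 2) ⊆ K :=
    (Metric.closedBall_subset_ball (by linarith)).trans (hball.trans interior_subset)
  refine Metric.isCompact_of_isClosed_isBounded (isClosed_polarSet K) ?_
  refine (Metric.isBounded_closedBall (x := (0 : E)) (r := 1 / (r / 2))).subset ?_
  intro a ha
  rw [mem_closedBall_zero_iff]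
  exact norm_le_of_mem_polarSet (by positivity) hcb ha

/-- Separation (bipolar theorem): a point outside a closed convex set containing `0` in its
interior is cut off by a member of the polar body. -/
theorem exists_polar_gt [FiniteDimensional ℝ E] {K : Set E} (hK : Convex ℝ K) (hKc : IsClosed K)
    (h0 : 0 ∈ interior K) {x : E} (hx : x ∉ K) : ∃ a ∈ polarSet K, 1 < inner ℝ a x := by
  obtain ⟨f, u, hfu, hux⟩ := geometric_hahn_banach_closed_point hK hKc hx
  have h0K : (0 : E) ∈ K := interior_subset h0
  have hu : 0 < u := by simpa using hfu 0 h0K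
  let a : E := (InnerProductSpace.toDual ℝ E).symm f
  have ha : ∀ y, inner ℝ a y = f y := fun y => by
    simp [a]
  refine ⟨(1 / u) • a, ?_, ?_⟩
  · intro y hy
    rw [inner_smul_left, ha]
    have := hfu y hy
    simp only [one_div, conj_trivial]
    rw [inv_mul_le_iff₀ hu]
    linarith
  · rw [inner_smul_left, ha]
    simp only [one_div, conj_trivial]
    rw [lt_inv_mul_iff₀ hu]
    linarith

end Vale.Agent.Lib.P243
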