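import Mathlib
import Vale.Agent.Lib.P243.SymPolar

namespace Vale.Agent.Lib.P243

open Set

variable {E : Type*} [NormedAddCommGroup E] [InnerProductSpace ℝ E] [FiniteDimensional ℝ E]

/- Sketch: if adjoint C θ ∉ K take a from exists_polar_gt;
1 < inner a (adjoint C θ) = inner (C a) θ ≤ ‖C a‖ ‖θ‖ ≤ 1. -/
theorem adjoint_mem_of_feas {K : Set E} (hK : Convex ℝ K) (hKc : IsClosed K)
    (h0 : 0 ∈ interior K) {C : E →L[ℝ] E} (hC : C ∈ Feas K) {θ : E} (hθ : ‖θ‖ ≤ 1) :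
    (ContinuousLinearMap.adjoint C) θ ∈ K := by
  by_contra hx
  obtain ⟨a, ha, h1⟩ := exists_polar_gt hK hKc h0 hx
  rw [ContinuousLinearMap.adjoint_inner_right] at h1
  have h2 : inner ℝ (C a) θ ≤ ‖C a‖ * ‖θ‖ := real_inner_le_norm _ _
  have h3 : ‖C a‖ ≤ 1 := hC a ha
  have h4 : ‖C a‖ * ‖θ‖ ≤ 1 * 1 := by gcongr
  linarith

/- Sketch: LinearMap.toMatrix_adjoint in an orthonormal basis, Matrix.det_conjTranspose. -/
theorem det_adjoint_eq (C : E →L[ℝ] E) : (ContinuousLinearMap.adjoint C).det = C.det := by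
  classical
  let b := stdOrthonormalBasis ℝ E
  have h1 : (ContinuousLinearMap.adjoint C).det
      = LinearMap.det (LinearMap.adjoint (C : E →ₗ[ℝ] E)) := by
    rw [ContinuousLinearMap.det]
    congr 1
  rw [h1, ContinuousLinearMap.det, ← LinearMap.det_toMatrix b.toBasis,
    LinearMap.toMatrix_adjoint b b, Matrix.det_conjTranspose, LinearMap.det_toMatrix]
  simp

theorem norm_adjoint_apply_le (C : E →L[ℝ] E) (θ : E) :
    ‖(ContinuousLinearMap.adjoint C) θ‖ ≤ ‖C‖ * ‖θ‖ := by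
  have := (ContinuousLinearMap.adjoint C).le_opNorm θ
  rwa [LinearIsometryEquiv.norm_map] at this

end Vale.Agent.Lib.P243
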