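import Mathlib

namespace Vale.Agent.Lib.P243

open MeasureTheory Set

/- On Ioo (-1) 1 the function arcsin has derivative 1 / √(1 - r^2) ≥ 0 and is continuous on Icc, so the
fundamental theorem of calculus gives the value π for c = 1; the general case follows by an affine
substitution. Outside the interval the integrand is 0 (Real.sqrt of nonpositive = 0, inv 0 = 0). -/

theorem arc_integrand_zero {r : ℝ} (h : r ∉ Ioc (-1 : ℝ) 1) : (Real.sqrt (1 - r ^ 2))⁻¹ = 0 := by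
  have h1 : 1 - r ^ 2 ≤ 0 := by
    simp only [mem_Ioc, not_and_or, not_lt, not_le] at h
    rcases h with h | h <;> nlinarith
  rw [Real.sqrt_eq_zero_of_nonpos h1, inv_zero]

theorem arc_base : ∫⁻ r : ℝ, ENNReal.ofReal (Real.sqrt (1 - r ^ 2))⁻¹ = ENNReal.ofReal Real.pi := by
  have hderiv : ∀ x ∈ Ioo (-1 : ℝ) 1, HasDerivAt Real.arcsin ((Real.sqrt (1 - x ^ 2))⁻¹) x := by
    intro x hx
    have := Real.hasDerivAt_arcsin (ne_of_gt hx.1) (ne_of_lt hx.2)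
    simpa [one_div] using this
  have hpos : ∀ x ∈ Ioo (-1 : ℝ) 1, 0 ≤ (Real.sqrt (1 - x ^ 2))⁻¹ := fun x _ =>
    inv_nonneg.2 (Real.sqrt_nonneg _)
  have hcont : ContinuousOn Real.arcsin (Icc (-1 : ℝ) 1) := Real.continuous_arcsin.continuousOn
  have hint : IntegrableOn (fun x : ℝ => (Real.sqrt (1 - x ^ 2))⁻¹) (Ioc (-1 : ℝ) 1) :=
    intervalIntegral.integrableOn_deriv_of_nonneg hcont hderiv hpos
  have hle : (-1 : ℝ) ≤ 1 := by norm_num
  have hII : IntervalIntegrable (fun x : ℝ => (Real.sqrt (1 - x ^ 2))⁻¹) volume (-1) 1 :=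
    (intervalIntegrable_iff_integrableOn_Ioc_of_le hle).2 hint
  have hval : ∫ x in (-1 : ℝ)..1, (Real.sqrt (1 - x ^ 2))⁻¹ = Real.pi := by
    rw [intervalIntegral.integral_eq_sub_of_hasDerivAt_of_le hle hcont hderiv hII]
    rw [Real.arcsin_one, Real.arcsin_neg_one]
    ring
  have hind : (fun r : ℝ => ENNReal.ofReal (Real.sqrt (1 - r ^ 2))⁻¹) =
      (Ioc (-1 : ℝ) 1).indicator (fun r : ℝ => ENNReal.ofReal (Real.sqrt (1 - r ^ 2))⁻¹) := by
    funext r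
    by_cases hr : r ∈ Ioc (-1 : ℝ) 1
    · rw [indicator_of_mem hr]
    · rw [indicator_of_notMem hr, arc_integrand_zero hr, ENNReal.ofReal_zero]
  rw [hind, lintegral_indicator measurableSet_Ioc,
    ← ofReal_integral_eq_lintegral_ofReal hint
      (Filter.Eventually.of_forall fun x => inv_nonneg.2 (Real.sqrt_nonneg _)),
    ← intervalIntegral.integral_of_le hle, hval]

theorem lintegral_comp_affine (g : ℝ → ENNReal) (hg : Measurable g) (t0 : ℝ) {a : ℝ} (ha : 0 < a) :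
    ∫⁻ r : ℝ, g (a * (r + t0)) = ENNReal.ofReal a⁻¹ * ∫⁻ r : ℝ, g r := by
  have h1 : ∫⁻ r : ℝ, g (a * (r + t0)) = ∫⁻ r : ℝ, g (a * r) :=
    lintegral_add_right_eq_self (fun r => g (a * r)) t0
  rw [h1]
  have h2 : ∫⁻ r : ℝ, g (a * r) = ∫⁻ r, g r ∂(Measure.map (a * ·) volume) := by
    rw [lintegral_map hg (measurable_const_mul a)]
  rw [h2, Real.map_volume_mul_left (ne_of_gt ha), lintegral_smul_measure, abs_of_pos (inv_pos.2 ha)]
  rfl

theorem lintegral_inv_sqrt_affine_eq {c : ℝ} (hc : 0 < c) (t0 : ℝ) {q : ℝ} (hq : 0 < q) :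
    ∫⁻ r : ℝ, ENNReal.ofReal (Real.sqrt (c - q ^ 2 * (r + t0) ^ 2))⁻¹ =
      ENNReal.ofReal (Real.pi / q) := by
  have hsc : 0 < Real.sqrt c := Real.sqrt_pos.2 hc
  set a : ℝ := q / Real.sqrt c with ha
  have hapos : 0 < a := div_pos hq hsc
  have hfun : ∀ r : ℝ, ENNReal.ofReal (Real.sqrt (c - q ^ 2 * (r + t0) ^ 2))⁻¹ =
      ENNReal.ofReal (Real.sqrt c)⁻¹ * ENNReal.ofReal (Real.sqrt (1 - (a * (r + t0)) ^ 2))⁻¹ := by
    intro r
    have e1 : c - q ^ 2 * (r + t0) ^ 2 = c * (1 - (a * (r + t0)) ^ 2) := by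
      have : Real.sqrt c ^ 2 = c := Real.sq_sqrt hc.le
      rw [ha]
      field_simp
      rw [this]
      ring
    rw [e1, Real.sqrt_mul hc.le, mul_inv, ENNReal.ofReal_mul (inv_nonneg.2 hsc.le)]
  simp_rw [hfun]
  rw [lintegral_const_mul' _ _ ENNReal.ofReal_ne_top]
  have hmeas : Measurable (fun r : ℝ => ENNReal.ofReal (Real.sqrt (1 - r ^ 2))⁻¹) := by
    fun_prop
  rw [lintegral_comp_affine (fun r : ℝ => ENNReal.ofReal (Real.sqrt (1 - r ^ 2))⁻¹) hmeas t0 hapos,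
    arc_base, ← ENNReal.ofReal_mul (inv_nonneg.2 hapos.le),
    ← ENNReal.ofReal_mul (inv_nonneg.2 hsc.le)]
  congr 1
  rw [ha]
  field_simp

/-- `∫ dr / sqrt (c - r^2) = π` for `c > 0` (the integrand is `0` where `c - r^2 ≤ 0`). -/
theorem lintegral_inv_sqrt_eq {c : ℝ} (hc : 0 < c) :
    ∫⁻ r : ℝ, ENNReal.ofReal (Real.sqrt (c - r ^ 2))⁻¹ = ENNReal.ofReal Real.pi := by
  have := lintegral_inv_sqrt_affine_eq hc 0 (q := 1) one_pos
  simpa using this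

theorem lintegral_inv_sqrt_of_nonpos {c : ℝ} (hc : c ≤ 0) :
    ∫⁻ r : ℝ, ENNReal.ofReal (Real.sqrt (c - r ^ 2))⁻¹ = 0 := by
  have : ∀ r : ℝ, ENNReal.ofReal (Real.sqrt (c - r ^ 2))⁻¹ = 0 := by
    intro r
    have h1 : c - r ^ 2 ≤ 0 := by nlinarith [sq_nonneg r]
    rw [Real.sqrt_eq_zero_of_nonpos h1, inv_zero, ENNReal.ofReal_zero]
  simp [this]

/-- affine substitution: r ↦ q * (r + t0). -/
theorem lintegral_inv_sqrt_affine_le (c t0 : ℝ) {q : ℝ} (hq : 0 < q) :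
    ∫⁻ r : ℝ, ENNReal.ofReal (Real.sqrt (c - q ^ 2 * (r + t0) ^ 2))⁻¹ ≤
      ENNReal.ofReal (Real.pi / q) := by
  rcases lt_or_ge 0 c with hc | hc
  · exact (lintegral_inv_sqrt_affine_eq hc t0 hq).le
  · have : ∀ r : ℝ, ENNReal.ofReal (Real.sqrt (c - q ^ 2 * (r + t0) ^ 2))⁻¹ = 0 := by
      intro r
      have h1 : c - q ^ 2 * (r + t0) ^ 2 ≤ 0 := by nlinarith [mul_nonneg (sq_nonneg q) (sq_nonneg (r + t0))]
      rw [Real.sqrt_eq_zero_of_nonpos h1, inv_zero, ENNReal.ofReal_zero]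
    simp [this]

end Vale.Agent.Lib.P243
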