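import Mathlib
import Vale.Agent.Lib.P243.SymDefs
import Vale.Agent.Lib.P243.SymArc

namespace Vale.Agent.Lib.P243

open MeasureTheory Set

variable {E : Type*} [NormedAddCommGroup E] [InnerProductSpace ℝ E]

theorem measurable_ballDens [MeasurableSpace E] [BorelSpace E] :
    Measurable (ballDens : E → ENNReal) := by
  unfold ballDens
  fun_prop

theorem ballDens_eq_zero {y : E} (hy : 1 ≤ ‖y‖) : ballDens y = 0 := by
  unfold ballDens
  have h1 : 1 - ‖y‖ ^ 2 ≤ 0 := by nlinarith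
  rw [Real.sqrt_eq_zero_of_nonpos h1]
  simp

/-- X-ray of the ball density along the line `p + ℝ q`. Complete the square:
`1 - ‖p + r q‖^2 = c - ‖q‖^2 (r + t0)^2` with `t0 = ⟨p,q⟩ / ‖q‖^2`,
`c = 1 - ‖p‖^2 + ⟨p,q⟩^2 / ‖q‖^2`; then use `lintegral_inv_sqrt_affine_le`. -/
theorem lintegral_ballDens_line_le (p : E) {q : E} (hq : q ≠ 0) :
    ∫⁻ r : ℝ, ballDens (p + r • q) ≤ ENNReal.ofReal (Real.pi / ‖q‖) := by
  have hqn : 0 < ‖q‖ := norm_pos_iff.mpr hq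
  have key : ∀ r : ℝ, 1 - ‖p + r • q‖ ^ 2 =
      (1 - ‖p‖ ^ 2 + (inner ℝ p q) ^ 2 / ‖q‖ ^ 2) -
        ‖q‖ ^ 2 * (r + inner ℝ p q / ‖q‖ ^ 2) ^ 2 := by
    intro r
    rw [norm_add_sq_real, inner_smul_right, norm_smul, mul_pow, Real.norm_eq_abs, sq_abs]
    field_simp
    ring
  unfold ballDens
  simp only [key]
  exact lintegral_inv_sqrt_affine_le _ _ hqn

end Vale.Agent.Lib.P243
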