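import Mathlib
import Vale.Agent.Lib.P243.Bridge3
import Vale.Agent.Lib.P243.SymDefs
import Vale.Agent.Lib.P243.SymArc

namespace Vale.Agent.Lib.P243

open MeasureTheory Set

set_option linter.unusedSectionVars false

theorem measurableSet_disc : MeasurableSet {p : ℝ × ℝ | p.1 ^ 2 + p.2 ^ 2 < 1} :=
  measurableSet_lt (by fun_prop) measurable_const

/-- area of the unit disc in `ℝ × ℝ`. -/
theorem volume_disc : volume {p : ℝ × ℝ | p.1 ^ 2 + p.2 ^ 2 < 1} = ENNReal.ofReal Real.pi := by
  have h1 := Complex.volume_preserving_equiv_real_prod.measure_preimage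
    measurableSet_disc.nullMeasurableSet
  rw [← h1]
  have h2 : (Complex.measurableEquivRealProd ⁻¹' {p : ℝ × ℝ | p.1 ^ 2 + p.2 ^ 2 < 1}) =
      Metric.ball (0 : ℂ) 1 := by
    ext z
    simp only [mem_preimage, mem_ofPred_eq, Metric.mem_ball, dist_zero_right,
      Complex.measurableEquivRealProd_apply]
    rw [← sq_lt_one_iff₀ (norm_nonneg z), Complex.sq_norm, Complex.normSq_apply]
    constructor <;> intro h <;> nlinarith
  rw [h2, Complex.volume_ball]
  simp [ENNReal.ofReal, Real.toNNReal_of_nonneg Real.pi_pos.le, NNReal.pi]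
  rfl

variable {E : Type*} [NormedAddCommGroup E] [InnerProductSpace ℝ E] [FiniteDimensional ℝ E]
  [MeasurableSpace E] [BorelSpace E] [Fact (Module.finrank ℝ E = 2 + 1)]

/-- Parseval for an orthonormal triple in dimension three. -/
theorem norm_sq_eq_of_triple {u e f : E} (hu : ‖u‖ = 1) (he : ‖e‖ = 1) (hf : ‖f‖ = 1)
    (hue : inner ℝ u e = 0) (huf : inner ℝ u f = 0) (hef : inner ℝ e f = 0) (x : E) :
    ‖x‖ ^ 2 = (inner ℝ e x) ^ 2 + (inner ℝ f x) ^ 2 + (inner ℝ u x) ^ 2 := by
  have hon : Orthonormal ℝ ![e, f, u] := by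
    constructor
    · intro i
      fin_cases i
      · simpa using he
      · simpa using hf
      · simpa using hu
    · intro i j hij
      fin_cases i <;> fin_cases j
      · exact absurd rfl hij
      · simpa using hef
      · simpa [real_inner_comm] using hue
      · simpa [real_inner_comm] using hef
      · exact absurd rfl hij
      · simpa [real_inner_comm] using huf
      · simpa using hue
      · simpa using huf
      · exact absurd rfl hij
  have hcard : Fintype.card (Fin 3) = Module.finrank ℝ E := by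
    rw [(Fact.out : Module.finrank ℝ E = 2 + 1)]; simp
  let b0 := basisOfOrthonormalOfCardEqFinrank hon hcard
  have hb0 : (b0 : Fin 3 → E) = ![e, f, u] := coe_basisOfOrthonormalOfCardEqFinrank hon hcard
  let b : OrthonormalBasis (Fin 3) ℝ E := b0.toOrthonormalBasis (by rw [hb0]; exact hon)
  have hb : (b : Fin 3 → E) = ![e, f, u] := by
    rw [Module.Basis.coe_toOrthonormalBasis, hb0]
  have h := b.sum_sq_norm_inner_right x
  rw [hb, Fin.sum_univ_three] at h
  simp only [Matrix.cons_val_zero, Matrix.cons_val_one, Matrix.cons_val_two, Real.norm_eq_abs,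
    sq_abs] at h
  simpa using h.symm

/-- total mass of the ball density in dimension three. -/
theorem lintegral_ballDens : ∫⁻ y : E, ballDens y = ENNReal.ofReal (Real.pi ^ 2) := by
  obtain ⟨u, hu, -, -⟩ := exists_third (u := (0 : E)) (e := (0 : E))
  obtain ⟨e, he, hue, -⟩ := exists_third (u := u) (e := u)
  obtain ⟨f, hf, huf, hef⟩ := exists_third (u := u) (e := e)
  obtain ⟨Φ, hΦ, hΦa⟩ := exists_coords3 hu he hf hue huf hef
  set G : (ℝ × ℝ) × ℝ → ENNReal :=
    fun z => ENNReal.ofReal (Real.sqrt ((1 - z.1.1 ^ 2 - z.1.2 ^ 2) - z.2 ^ 2))⁻¹ with hG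
  have hGm : Measurable G := by
    rw [hG]; fun_prop
  have h1 : ∀ y : E, ballDens y = G (Φ y) := by
    intro y
    rw [hΦa y, hG, ballDens, norm_sq_eq_of_triple hu he hf hue huf hef y]
    simp only
    congr 3
    ring
  simp_rw [h1]
  rw [hΦ.lintegral_comp hGm, Measure.volume_eq_prod, lintegral_prod _ hGm.aemeasurable]
  have h2 : ∀ p : ℝ × ℝ, ∫⁻ r : ℝ, G (p, r) =
      ({p : ℝ × ℝ | p.1 ^ 2 + p.2 ^ 2 < 1}).indicator (fun _ => ENNReal.ofReal Real.pi) p := by
    intro p
    by_cases hp : p ∈ {p : ℝ × ℝ | p.1 ^ 2 + p.2 ^ 2 < 1}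
    · rw [indicator_of_mem hp]
      have hc : 0 < 1 - p.1 ^ 2 - p.2 ^ 2 := by
        simp only [mem_ofPred_eq] at hp; linarith
      exact lintegral_inv_sqrt_eq hc
    · rw [indicator_of_notMem hp]
      have hc : 1 - p.1 ^ 2 - p.2 ^ 2 ≤ 0 := by
        simp only [mem_ofPred_eq, not_lt] at hp; linarith
      exact lintegral_inv_sqrt_of_nonpos hc
  simp_rw [h2]
  rw [lintegral_indicator_const measurableSet_disc, volume_disc,
    ← ENNReal.ofReal_mul Real.pi_pos.le]
  congr 1
  ring

end Vale.Agent.Lib.P243
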