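import Mathlib
import Vale.Agent.Lib.P243.Bridge3

namespace Vale.Agent.Lib.P243

open MeasureTheory Set

variable {E : Type*} [NormedAddCommGroup E] [InnerProductSpace ℝ E] [FiniteDimensional ℝ E]
  [MeasurableSpace E] [BorelSpace E] [Fact (Module.finrank ℝ E = 2 + 1)]

/- Sketch. S ⊆ ⋃ i, cyl i with cyl i = {x | proj x ∈ toMeasurable (B i)} (measurable), so
∫⁻ over S ≤ ∑ i ∫⁻ over cyl i (lintegral_mono_set, lintegral_iUnion_le or induction).
For one i take e, f from exists_third, κ from exists_coords, Φ from exists_coords3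
(see vol_cylinder_le in Bridge3 for the same set-up). Then with Q = κ '' toMeasurable (B i):
∫⁻ x in cyl i, F x = ∫⁻ z in Q ×ˢ univ, F (Φ.symm z) = ∫⁻ p in Q, ∫⁻ r, F (Φ.symm (p, r))
and Φ.symm (p, r) = Φ.symm (p, 0) + r • u, so the inner integral is ≤ 1 by hX. -/

/-- One cylinder: the mass of a density with X-rays at most `1` in the direction `u` on the
cylinder over `B` is at most the area of `B`. -/
theorem lintegral_cyl_le {F : E → ENNReal} (hF : Measurable F) {u : E} (hu : ‖u‖ = 1)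
    (hX : ∀ x : E, ∫⁻ r : ℝ, F (x + r • u) ≤ 1) (B : Set (ℝ ∙ u)ᗮ) :
    ∫⁻ x in {x : E | ∃ p ∈ B, ∃ r : ℝ, x = (p : E) + r • u}, F x ≤ volume B := by
  obtain ⟨e, he, hue, -⟩ := exists_third (u := u) (e := u)
  obtain ⟨f, hf, huf, hef⟩ := exists_third (u := u) (e := e)
  obtain ⟨κ, hκ, hκa⟩ := exists_coords hu he hf hue huf hef
  obtain ⟨Φ, hΦ, hΦa⟩ := exists_coords3 hu he hf hue huf hef
  set Q : Set (ℝ × ℝ) := κ '' (toMeasurable volume B) with hQ
  have hQm : MeasurableSet Q := κ.measurableSet_image.mpr (measurableSet_toMeasurable _ _)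
  have hQv : volume Q = volume B := by
    rw [hQ, MeasurableEquiv.image_eq_preimage_symm, (hκ.symm κ).measure_preimage_equiv,
      measure_toMeasurable]
  set G : (ℝ × ℝ) × ℝ → ENNReal := fun z => F (Φ.symm z) with hG
  have hGm : Measurable G := hF.comp Φ.symm.measurable
  have hFG : ∀ x, F x = G (Φ x) := by
    intro x
    simp [hG]
  have hsub : {x : E | ∃ p ∈ B, ∃ r : ℝ, x = (p : E) + r • u} ⊆ Φ ⁻¹' (Q ×ˢ (univ : Set ℝ)) := by
    rintro _ ⟨p, hp, t, rfl⟩
    refine ⟨?_, mem_univ _⟩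
    refine ⟨p, subset_toMeasurable _ _ hp, ?_⟩
    rw [hκa, hΦa]
    simp only [inner_add_right, inner_smul_right]
    rw [real_inner_comm u e, hue, real_inner_comm u f, huf]
    simp
  have hline : ∀ (p : ℝ × ℝ) (r : ℝ), Φ.symm (p, r) = Φ.symm (p, 0) + r • u := by
    intro p r
    apply Φ.injective
    rw [Φ.apply_symm_apply, hΦa]
    have h0 := hΦa (Φ.symm (p, 0))
    rw [Φ.apply_symm_apply] at h0
    simp only [inner_add_right, inner_smul_right]
    rw [real_inner_comm u e, hue, real_inner_comm u f, huf, real_inner_self_eq_norm_sq, hu]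
    have h1 : inner ℝ e (Φ.symm (p, 0)) = p.1 := by
      have := congrArg (fun z => z.1.1) h0
      simpa using this.symm
    have h2 : inner ℝ f (Φ.symm (p, 0)) = p.2 := by
      have := congrArg (fun z => z.1.2) h0
      simpa using this.symm
    have h3 : inner ℝ u (Φ.symm (p, 0)) = 0 := by
      have := congrArg (fun z => z.2) h0
      simpa using this.symm
    rw [h1, h2, h3]
    simp
  calc ∫⁻ x in {x : E | ∃ p ∈ B, ∃ r : ℝ, x = (p : E) + r • u}, F x
      ≤ ∫⁻ x in Φ ⁻¹' (Q ×ˢ (univ : Set ℝ)), F x := lintegral_mono_set hsub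
    _ = ∫⁻ x in Φ ⁻¹' (Q ×ˢ (univ : Set ℝ)), G (Φ x) := by simp only [hFG]
    _ = ∫⁻ z in Q ×ˢ (univ : Set ℝ), G z :=
        hΦ.setLIntegral_comp_preimage (hQm.prod MeasurableSet.univ) hGm
    _ = ∫⁻ p in Q, ∫⁻ r : ℝ, G (p, r) := by
        rw [Measure.volume_eq_prod, ← Measure.prod_restrict, Measure.restrict_univ,
          lintegral_prod _ hGm.aemeasurable]
    _ ≤ ∫⁻ _p in Q, 1 := by
        apply lintegral_mono
        intro p
        have hr : ∀ r : ℝ, G (p, r) = F (Φ.symm (p, 0) + r • u) := by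
          intro r
          show F (Φ.symm (p, r)) = _
          rw [hline p r]
        calc ∫⁻ r : ℝ, G (p, r) = ∫⁻ r : ℝ, F (Φ.symm (p, 0) + r • u) :=
              lintegral_congr hr
          _ ≤ 1 := hX _
    _ = volume B := by
        rw [lintegral_one, Measure.restrict_apply_univ, hQv]

/-- Dual certificate: a density all of whose X-rays are at most `1` has mass at most the total
base area on any set covered by cylinders. -/
theorem lintegral_le_of_xray {F : E → ENNReal} (hF : Measurable F)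
    (hX : ∀ u : E, ‖u‖ = 1 → ∀ x : E, ∫⁻ r : ℝ, F (x + r • u) ≤ 1)
    {S : Set E} {m : ℕ} (u : Fin m → E) (hu : ∀ i, ‖u i‖ = 1) (B : ∀ i, Set (ℝ ∙ u i)ᗮ)
    (hcov : ∀ x ∈ S, ∃ i, ∃ p ∈ B i, ∃ r : ℝ, x = (p : E) + r • u i) :
    ∫⁻ x in S, F x ≤ ∑ i, volume (B i) := by
  have hsub : S ⊆ ⋃ i, {x : E | ∃ p ∈ B i, ∃ r : ℝ, x = (p : E) + r • u i} := by
    intro x hx
    obtain ⟨i, hi⟩ := hcov x hx
    exact mem_iUnion.mpr ⟨i, hi⟩
  calc ∫⁻ x in S, F x
      ≤ ∫⁻ x in ⋃ i, {x : E | ∃ p ∈ B i, ∃ r : ℝ, x = (p : E) + r • u i}, F x :=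
        lintegral_mono_set hsub
    _ ≤ ∑' i, ∫⁻ x in {x : E | ∃ p ∈ B i, ∃ r : ℝ, x = (p : E) + r • u i}, F x :=
        lintegral_iUnion_le _ _
    _ = ∑ i, ∫⁻ x in {x : E | ∃ p ∈ B i, ∃ r : ℝ, x = (p : E) + r • u i}, F x :=
        tsum_fintype _
    _ ≤ ∑ i, volume (B i) :=
        Finset.sum_le_sum fun i _ => lintegral_cyl_le hF (hu i) (hX (u i) (hu i)) (B i)

end Vale.Agent.Lib.P243
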