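import Mathlib
import Vale.Agent.Lib.P243.SymXray
import Vale.Agent.Lib.P243.SymLine
import Vale.Agent.Lib.P243.SymMass

namespace Vale.Agent.Lib.P243

open MeasureTheory Set

variable {E : Type*} [NormedAddCommGroup E] [InnerProductSpace ℝ E] [FiniteDimensional ℝ E]
  [MeasurableSpace E] [BorelSpace E] [Fact (Module.finrank ℝ E = 2 + 1)]

/-- change of variables for the ellipsoid density -/
theorem lintegral_ballDens_comp (A : E ≃L[ℝ] E) :
    ∫⁻ x : E, ballDens (A.symm x) =
      ENNReal.ofReal (|(A : E →L[ℝ] E).det| * Real.pi ^ 2) := by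
  have hmul : LinearMap.det ((A.toLinearEquiv : E ≃ₗ[ℝ] E) : E →ₗ[ℝ] E) *
      LinearMap.det ((A.toLinearEquiv.symm : E ≃ₗ[ℝ] E) : E →ₗ[ℝ] E) = 1 :=
    LinearEquiv.det_mul_det_symm A.toLinearEquiv
  have hdA : (A : E →L[ℝ] E).det = LinearMap.det ((A.toLinearEquiv : E ≃ₗ[ℝ] E) : E →ₗ[ℝ] E) := rfl
  have hne : LinearMap.det ((A.toLinearEquiv.symm : E ≃ₗ[ℝ] E) : E →ₗ[ℝ] E) ≠ 0 := by
    intro h
    rw [h, mul_zero] at hmul
    exact zero_ne_one hmul
  have hinv : (LinearMap.det ((A.toLinearEquiv.symm : E ≃ₗ[ℝ] E) : E →ₗ[ℝ] E))⁻¹ =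
      (A : E →L[ℝ] E).det := by
    rw [hdA]
    field_simp
    linarith
  have hmap := Measure.map_linearMap_addHaar_eq_smul_addHaar (volume : Measure E) hne
  have hmeas : Measurable (fun x : E => A.symm x) := A.symm.continuous.measurable
  have h1 : ∫⁻ x : E, ballDens (A.symm x) =
      ∫⁻ y : E, ballDens y ∂(Measure.map (fun x : E => A.symm x) volume) :=
    (lintegral_map measurable_ballDens hmeas).symm
  have h2 : Measure.map (fun x : E => A.symm x) (volume : Measure E) =
      ENNReal.ofReal |(A : E →L[ℝ] E).det| • (volume : Measure E) := by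
    rw [← hinv]
    exact hmap
  rw [h1, h2, lintegral_smul_measure, lintegral_ballDens, smul_eq_mul,
    ← ENNReal.ofReal_mul (abs_nonneg _)]

/-- Cylinders covering the ellipsoid `A (unit ball)` have total base area at least
`π |det A| / t` whenever `‖A‖ ≤ t` (this is the least shadow area of the ellipsoid if `t = ‖A‖`). -/
theorem ellipsoid_cover_bound (A : E →L[ℝ] E) (hdet : A.det ≠ 0) {t : ℝ} (ht : 0 < t)
    (hA : ∀ θ, ‖A θ‖ ≤ t * ‖θ‖)
    {m : ℕ} (u : Fin m → E) (hu : ∀ i, ‖u i‖ = 1) (B : ∀ i, Set (ℝ ∙ u i)ᗮ)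
    (hcov : ∀ θ : E, ‖θ‖ < 1 → ∃ i, ∃ p ∈ B i, ∃ r : ℝ, A θ = (p : E) + r • u i) :
    ENNReal.ofReal (Real.pi * |A.det| / t) ≤ ∑ i, volume (B i) := by
  set A' : E ≃L[ℝ] E := A.toContinuousLinearEquivOfDetNeZero hdet with hA'
  have hcoe : (A' : E →L[ℝ] E) = A := A.coe_toContinuousLinearEquivOfDetNeZero hdet
  have happ : ∀ x, A' x = A x := fun x => by rw [← hcoe]; rfl
  have hpi : 0 < Real.pi := Real.pi_pos
  set c : ENNReal := ENNReal.ofReal (1 / (Real.pi * t)) with hc
  set F : E → ENNReal := fun x => c * ballDens (A'.symm x) with hF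
  have hbm : Measurable (fun x : E => ballDens (A'.symm x)) :=
    measurable_ballDens.comp A'.symm.continuous.measurable
  have hFm : Measurable F := hbm.const_mul c
  have hX : ∀ v : E, ‖v‖ = 1 → ∀ x : E, ∫⁻ r : ℝ, F (x + r • v) ≤ 1 := by
    intro v hv x
    have hqn : 1 / t ≤ ‖A'.symm v‖ := by
      have h1 := hA (A'.symm v)
      rw [← happ, A'.apply_symm_apply, hv] at h1
      rw [div_le_iff₀ ht]
      linarith
    have hqpos : 0 < ‖A'.symm v‖ := lt_of_lt_of_le (by positivity) hqn
    have hq : A'.symm v ≠ 0 := norm_pos_iff.mp hqpos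
    have hm2 : Measurable (fun r : ℝ => ballDens (A'.symm x + r • A'.symm v)) :=
      measurable_ballDens.comp (by fun_prop)
    calc ∫⁻ r : ℝ, F (x + r • v)
        = ∫⁻ r : ℝ, c * ballDens (A'.symm x + r • A'.symm v) := by
          simp only [hF, map_add, map_smul]
      _ = c * ∫⁻ r : ℝ, ballDens (A'.symm x + r • A'.symm v) := lintegral_const_mul _ hm2
      _ ≤ c * ENNReal.ofReal (Real.pi / ‖A'.symm v‖) := by
          gcongr
          exact lintegral_ballDens_line_le _ hq
      _ ≤ c * ENNReal.ofReal (Real.pi * t) := by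
          gcongr
          rw [div_le_iff₀ hqpos]
          have : 1 ≤ t * ‖A'.symm v‖ := by
            rw [div_le_iff₀ ht] at hqn
            linarith
          nlinarith
      _ = 1 := by
          rw [hc, ← ENNReal.ofReal_mul (by positivity)]
          have : 1 / (Real.pi * t) * (Real.pi * t) = 1 := by field_simp
          rw [this, ENNReal.ofReal_one]
  set S : Set E := {x | ‖A'.symm x‖ < 1} with hS
  have hSm : MeasurableSet S := by
    have : IsOpen S := isOpen_lt (by fun_prop) continuous_const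
    exact this.measurableSet
  have hcov' : ∀ x ∈ S, ∃ i, ∃ p ∈ B i, ∃ r : ℝ, x = (p : E) + r • u i := by
    intro x hx
    have h1 := hcov (A'.symm x) hx
    rwa [← happ, A'.apply_symm_apply] at h1
  have hmain := lintegral_le_of_xray hFm hX u hu B hcov'
  have hind : S.indicator F = F := by
    apply Set.indicator_eq_self.mpr
    intro x hx
    by_contra hxS
    have h1 : 1 ≤ ‖A'.symm x‖ := not_lt.mp hxS
    apply hx
    simp only [hF]
    rw [ballDens_eq_zero h1, mul_zero]
  have htot : ∫⁻ x in S, F x = ENNReal.ofReal (Real.pi * |A.det| / t) := by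
    rw [← lintegral_indicator hSm, hind]
    simp only [hF]
    rw [lintegral_const_mul _ hbm, lintegral_ballDens_comp, hcoe, hc,
      ← ENNReal.ofReal_mul (by positivity)]
    congr 1
    field_simp
  rw [← htot]
  exact hmain

end Vale.Agent.Lib.P243
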