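import Mathlib

namespace Vale.Agent.Lib.P243

/- Sketch. Suppose 2 s1 s2 Gram(α, α') < 1 for all α, α' ∈ Z. Write d = s 1 * s 2.
(i) Z = ∅: M = 1, τ = 2.
(ii) s 1 = s 0, or some α' ∈ Z has α' 0 = 0: fix such α' (any α' ∈ Z if s 1 = s 0). By compactness
  g α = d * Gram(α, α') has a maximum < 1/2 on Z; choose β with g < β < 1/2 on Z. Let
  M i j = (d / 2) * (|α'|^2 δ_ij - α' i * α' j) / s i - (β / 2) δ_ij. Then
  ∑ s i α i (M α) i = (g α - β) / 2 < 0 on Z (uses ∑ s i α i^2 = 1);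
  ∑ s i v i (M v) i = (d/2) (|α'|^2 - ⟨α', v⟩^2) - (β/2) s 0 ≤ X * s 0, X = (d/2) |α'|^2 / s 0 - β/2;
  trace M - X = (1 - 2β - (s0 - s1)(s0 - s2)/s0 * (α' 0)^2) / 2 = (1 - 2β)/2 > 0 (uses ∑ s i α' i^2 = 1).
  Take τ = (X + trace M) / 2.
(iii) s 1 < s 0 and α 0 ≠ 0 for all α ∈ Z: by compactness (α 0)^2 ≥ δ > 0 on Z. M = diagonal (-N, 1, 1),
  τ = 1 - N, N large: ∑ s i α i (M α) i = 1 - (N + 1) s0 (α 0)^2 < 0; a unit v with ∑ s i v i^2 = s 0 has
  v 1 = v 2 = 0, (v 0)^2 = 1, so ∑ s i v i (M v) i = - N s0 < τ s0; trace M = 2 - N > τ. -/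

/-- the matrix of case (ii) -/
noncomputable def certM (s a : Fin 3 → ℝ) (d β : ℝ) : Matrix (Fin 3) (Fin 3) ℝ :=
  Matrix.of fun i j => (d / 2) * ((if i = j then ∑ k, a k ^ 2 else 0) - a i * a j) / s i
    - (if i = j then β / 2 else 0)

theorem certM_quad (s a x : Fin 3 → ℝ) (hs : ∀ i, 0 < s i) (d β : ℝ) :
    ∑ i, s i * x i * ((certM s a d β).mulVec x) i =
      (d / 2) * ((∑ i, x i ^ 2) * (∑ i, a i ^ 2) - (∑ i, x i * a i) ^ 2)
        - (β / 2) * ∑ i, s i * x i ^ 2 := by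
  have h0 := (hs 0).ne'
  have h1 := (hs 1).ne'
  have h2 := (hs 2).ne'
  simp only [certM, Matrix.mulVec, dotProduct, Fin.sum_univ_three, Matrix.of_apply]
  simp
  field_simp
  ring

theorem certM_trace (s a : Fin 3 → ℝ) (hs : ∀ i, 0 < s i) (β : ℝ)
    (ha : ∑ i, s i * a i ^ 2 = 1) :
    (certM s a (s 1 * s 2) β).trace - ((s 1 * s 2 / 2) * (∑ i, a i ^ 2) / s 0 - β / 2) =
      (1 - 2 * β - (s 0 - s 1) * (s 0 - s 2) / s 0 * a 0 ^ 2) / 2 := by
  have h0 := (hs 0).ne'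
  have h1 := (hs 1).ne'
  have h2 := (hs 2).ne'
  rw [Fin.sum_univ_three] at ha
  have e1 : (1 : ℝ) = s 0 * a 0 ^ 2 + s 1 * a 1 ^ 2 + s 2 * a 2 ^ 2 := ha.symm
  simp only [certM, Matrix.trace, Matrix.diag, Fin.sum_univ_three, Matrix.of_apply]
  simp only [if_true]
  rw [e1]
  field_simp
  ring

/-- The certificate lemma in coordinates. `Z` is the set of coordinate vectors of the contact
functionals, `s 0 ≥ s 1 ≥ s 2 > 0` are the squared semi-axes. If there is no improving direction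
`(M, τ)` then two contact functionals span a large parallelogram. -/
theorem cert_pure (s : Fin 3 → ℝ) (hs : ∀ i, 0 < s i) (h10 : s 1 ≤ s 0) (h21 : s 2 ≤ s 1)
    (Z : Set (Fin 3 → ℝ)) (hZ : IsCompact Z) (hZ1 : ∀ α ∈ Z, ∑ i, s i * α i ^ 2 = 1)
    (hopt : ∀ (M : Matrix (Fin 3) (Fin 3) ℝ) (τ : ℝ),
      (∀ α ∈ Z, ∑ i, s i * α i * (M.mulVec α) i < 0) →
      (∀ v : Fin 3 → ℝ, ∑ i, v i ^ 2 = 1 → ∑ i, s i * v i ^ 2 = s 0 →
        ∑ i, s i * v i * (M.mulVec v) i < τ * s 0) →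
      τ < M.trace → False) :
    ∃ α ∈ Z, ∃ α' ∈ Z, 1 ≤ 2 * s 1 * s 2 *
      ((∑ i, α i ^ 2) * (∑ i, α' i ^ 2) - (∑ i, α i * α' i) ^ 2) := by
  by_contra hcon
  push Not at hcon
  have hs0 := hs 0
  have hs1 := hs 1
  have hs2 := hs 2
  -- case (i)
  rcases Z.eq_empty_or_nonempty with hE | hne
  · refine hopt 1 2 (by simp [hE]) ?_ ?_
    · intro v _ hv
      simp only [Matrix.one_mulVec]
      have : ∑ i, s i * v i * v i = s 0 := by
        rw [← hv]
        exact Finset.sum_congr rfl fun i _ => by ring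
      rw [this]
      linarith
    · simp [Matrix.trace_one]
      norm_num
  -- case (ii), as a general statement
  have key : ∀ a ∈ Z, (s 0 - s 1) * a 0 ^ 2 = 0 → False := by
    intro a haZ hdeg
    set d := s 1 * s 2 with hd
    have hcont : ContinuousOn (fun α : Fin 3 → ℝ =>
        d * ((∑ i, α i ^ 2) * (∑ i, a i ^ 2) - (∑ i, α i * a i) ^ 2)) Z := by
      apply Continuous.continuousOn
      fun_prop
    obtain ⟨α₀, hα₀, hmax⟩ := hZ.exists_isMaxOn hne hcont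
    set gs := d * ((∑ i, α₀ i ^ 2) * (∑ i, a i ^ 2) - (∑ i, α₀ i * a i) ^ 2) with hgs
    have hgs2 : gs < 1 / 2 := by
      have := hcon α₀ hα₀ a haZ
      rw [hgs, hd]
      linarith
    set β := (gs + 1 / 2) / 2 with hβ
    have hβ1 : gs < β := by rw [hβ]; linarith
    have hβ2 : β < 1 / 2 := by rw [hβ]; linarith
    set X := (d / 2) * (∑ i, a i ^ 2) / s 0 - β / 2 with hX
    have htr : (certM s a d β).trace - X = (1 - 2 * β) / 2 := by
      rw [hX, hd, certM_trace s a hs β (hZ1 a haZ)]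
      have : (s 0 - s 1) * (s 0 - s 2) / s 0 * a 0 ^ 2
          = ((s 0 - s 1) * a 0 ^ 2) * ((s 0 - s 2) / s 0) := by ring
      rw [this, hdeg]
      ring
    refine hopt (certM s a d β) ((X + (certM s a d β).trace) / 2) ?_ ?_ ?_
    · intro α hα
      rw [certM_quad s a α hs, hZ1 α hα]
      have h1 : d * ((∑ i, α i ^ 2) * (∑ i, a i ^ 2) - (∑ i, α i * a i) ^ 2) ≤ gs := hmax hα
      linarith
    · intro v hv1 hv2
      rw [certM_quad s a v hs, hv1, hv2]
      have hdpos : 0 < d := by rw [hd]; positivity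
      have h1 : (d / 2) * (1 * (∑ i, a i ^ 2) - (∑ i, v i * a i) ^ 2) ≤ (d / 2) * (∑ i, a i ^ 2) := by
        have : 0 ≤ (d / 2) * (∑ i, v i * a i) ^ 2 := by positivity
        linarith
      have h2 : X * s 0 = (d / 2) * (∑ i, a i ^ 2) - β / 2 * s 0 := by
        rw [hX]
        field_simp
      have h3 : X < (X + (certM s a d β).trace) / 2 := by linarith
      have h4 : X * s 0 < (X + (certM s a d β).trace) / 2 * s 0 := by
        exact mul_lt_mul_of_pos_right h3 hs0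
      linarith
    · linarith
  -- reduce to case (iii)
  have hlt : s 1 < s 0 := by
    rcases h10.lt_or_eq with h | h
    · exact h
    · exfalso
      obtain ⟨a, ha⟩ := hne
      exact key a ha (by rw [h]; ring)
  have hnz : ∀ α ∈ Z, α 0 ≠ 0 := by
    intro α hα h0
    exact key α hα (by rw [h0]; ring)
  have hcont : ContinuousOn (fun α : Fin 3 → ℝ => α 0 ^ 2) Z := by
    apply Continuous.continuousOn
    fun_prop
  obtain ⟨α₀, hα₀, hmin⟩ := hZ.exists_isMinOn hne hcont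
  set δ := α₀ 0 ^ 2 with hδ
  have hδpos : 0 < δ := by
    have := hnz α₀ hα₀
    rw [hδ]
    positivity
  set N := 1 / (s 0 * δ) with hN
  have hNpos : 0 < N := by rw [hN]; positivity
  refine hopt (Matrix.diagonal ![-N, 1, 1]) (1 - N) ?_ ?_ ?_
  · intro α hα
    have h1 := hZ1 α hα
    have h2 : δ ≤ α 0 ^ 2 := hmin hα
    rw [Fin.sum_univ_three] at h1
    simp only [Matrix.mulVec_diagonal, Fin.sum_univ_three]
    simp
    have h3 : N * (s 0 * δ) = 1 := by
      rw [hN]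
      field_simp
    have h4 : N * (s 0 * δ) ≤ N * (s 0 * α 0 ^ 2) := by gcongr
    have h5 : 0 < s 0 * α 0 ^ 2 := by
      have := hnz α hα
      positivity
    nlinarith
  · intro v hv1 hv2
    rw [Fin.sum_univ_three] at hv1 hv2
    have h1 : (s 0 - s 1) * v 1 ^ 2 + (s 0 - s 2) * v 2 ^ 2 = 0 := by nlinarith
    have h2 : 0 ≤ (s 0 - s 1) * v 1 ^ 2 := by
      have : 0 < s 0 - s 1 := by linarith
      positivity
    have h3 : 0 ≤ (s 0 - s 2) * v 2 ^ 2 := by
      have : 0 < s 0 - s 2 := by linarith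
      positivity
    have h4 : (s 0 - s 1) * v 1 ^ 2 = 0 := by linarith
    have h5 : (s 0 - s 2) * v 2 ^ 2 = 0 := by linarith
    have h6 : v 1 ^ 2 = 0 := by
      rcases mul_eq_zero.1 h4 with h | h
      · linarith
      · exact h
    have h7 : v 2 ^ 2 = 0 := by
      rcases mul_eq_zero.1 h5 with h | h
      · linarith
      · exact h
    have h8 : v 0 ^ 2 = 1 := by linarith
    simp only [Matrix.mulVec_diagonal, Fin.sum_univ_three]
    simp
    have e0 : s 0 * v 0 * (N * v 0) = s 0 * N * v 0 ^ 2 := by ring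
    have e1 : s 1 * v 1 * v 1 = s 1 * v 1 ^ 2 := by ring
    have e2 : s 2 * v 2 * v 2 = s 2 * v 2 ^ 2 := by ring
    rw [e0, e1, e2, h6, h7, h8]
    linarith
  · simp [Matrix.trace, Fin.sum_univ_three]
    linarith

end Vale.Agent.Lib.P243
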