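import Mathlib

namespace Vale.Agent.Lib.P243

variable {E : Type*} [NormedAddCommGroup E] [InnerProductSpace ℝ E] [FiniteDimensional ℝ E]

/- Sketch: T = adjoint C ∘ C is symmetric (LinearMap.isSymmetric_adjoint_comp_self or by hand);
f = hT.eigenvectorBasis h3, s = hT.eigenvalues h3 (antitone: eigenvalues_antitone).
inner (C x) (C y) = inner x (T y), expand y in the basis f. s i = ‖C (f i)‖^2 > 0 since C is injective.
det: matrix M of C in the basis f satisfies Mᵀ M = diagonal s. Norm: ‖C x‖^2 = ∑ s i x_i^2 ≤ s 0 ‖x‖^2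
with equality at f 0. -/

/-- Diagonalisation of the form `⟨C x, C y⟩` in an orthonormal basis, largest value first. -/
theorem exists_diag (h3 : Module.finrank ℝ E = 3) (C : E →L[ℝ] E) (hdet : C.det ≠ 0) :
    ∃ (f : OrthonormalBasis (Fin 3) ℝ E) (s : Fin 3 → ℝ), (∀ i, 0 < s i) ∧ s 1 ≤ s 0 ∧ s 2 ≤ s 1 ∧
      (∀ x y : E, inner ℝ (C x) (C y) = ∑ i, s i * inner ℝ (f i) x * inner ℝ (f i) y) ∧
      C.det ^ 2 = s 0 * s 1 * s 2 ∧ ‖C‖ ^ 2 = s 0 := by
  classical
  set c : E →ₗ[ℝ] E := (C : E →ₗ[ℝ] E) with hc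
  set T : E →ₗ[ℝ] E := LinearMap.adjoint c ∘ₗ c with hT
  have hsym : T.IsSymmetric := by
    intro x y
    simp [hT, LinearMap.adjoint_inner_left, LinearMap.adjoint_inner_right]
  set f := hsym.eigenvectorBasis h3 with hf
  set s := hsym.eigenvalues h3 with hs
  have hanti : Antitone s := hsym.eigenvalues_antitone h3
  have hform : ∀ x y : E,
      inner ℝ (C x) (C y) = ∑ i, s i * inner ℝ (f i) x * inner ℝ (f i) y := by
    intro x y
    have h1 : inner ℝ (C x) (C y) = inner ℝ x (T y) := by
      simp [hT, hc, LinearMap.adjoint_inner_right]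
    rw [h1, ← f.sum_inner_mul_inner x (T y)]
    apply Finset.sum_congr rfl
    intro i _
    have h2 : inner ℝ (f i) (T y) = s i * inner ℝ (f i) y := by
      rw [← hsym (f i) y, hf, hsym.apply_eigenvectorBasis, inner_smul_left]
      simp [hs]
    rw [h2, real_inner_comm]
    ring
  have hsi : ∀ i, s i = ‖C (f i)‖ ^ 2 := by
    intro i
    rw [← real_inner_self_eq_norm_sq, hform]
    have : ∀ j, s j * inner ℝ (f j) (f i) * inner ℝ (f j) (f i) = if j = i then s i else 0 := by
      intro j
      by_cases hji : j = i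
      · subst hji
        simp
      · have := f.orthonormal.2 hji
        simp [this, hji]
    simp [this]
  have hinj : Function.Injective c := by
    have hu : IsUnit (LinearMap.det c) := isUnit_iff_ne_zero.mpr hdet
    have := (LinearMap.isUnit_iff_ker_eq_bot c).mp ((LinearMap.isUnit_iff_isUnit_det c).mpr hu)
    exact LinearMap.ker_eq_bot.mp this
  have hpos : ∀ i, 0 < s i := by
    intro i
    rw [hsi]
    have hne : C (f i) ≠ 0 := by
      intro h0
      have : f i = 0 := hinj (by simpa [hc] using h0)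
      have h1 := f.orthonormal.1 i
      rw [this] at h1
      simp at h1
    positivity
  have hdet2 : C.det ^ 2 = s 0 * s 1 * s 2 := by
    have h1 := LinearMap.normDet_sq c
    rw [LinearMap.normDet_eq_abs_det, sq_abs] at h1
    have h2 := hsym.det_eq_prod_eigenvalues h3
    have h3' : (LinearMap.det c) ^ 2 = LinearMap.det T := by
      rw [hT]
      exact_mod_cast h1
    have : C.det = LinearMap.det c := rfl
    rw [this, h3', h2, Fin.prod_univ_three]
    simp [hs]
  have hnorm : ‖C‖ ^ 2 = s 0 := by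
    have hle : ∀ x, ‖C x‖ ^ 2 ≤ s 0 * ‖x‖ ^ 2 := by
      intro x
      rw [← real_inner_self_eq_norm_sq, hform, ← f.sum_sq_norm_inner_right x, Finset.mul_sum]
      apply Finset.sum_le_sum
      intro i _
      have h1 : s i ≤ s 0 := hanti (Fin.zero_le i)
      have h2 : ‖inner ℝ (f i) x‖ ^ 2 = inner ℝ (f i) x * inner ℝ (f i) x := by
        rw [Real.norm_eq_abs, sq_abs]; ring
      rw [h2, mul_assoc]
      exact mul_le_mul_of_nonneg_right h1 (mul_self_nonneg _)
    apply le_antisymm
    · have h0 : ‖C‖ ≤ Real.sqrt (s 0) := by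
        apply C.opNorm_le_bound (Real.sqrt_nonneg _)
        intro x
        have := hle x
        have h4 : (Real.sqrt (s 0) * ‖x‖) ^ 2 = s 0 * ‖x‖ ^ 2 := by
          rw [mul_pow, Real.sq_sqrt (hpos 0).le]
        exact abs_le_of_sq_le_sq' (by rw [h4]; exact this) (by positivity) |>.2
      calc ‖C‖ ^ 2 ≤ (Real.sqrt (s 0)) ^ 2 := by gcongr
        _ = s 0 := Real.sq_sqrt (hpos 0).le
    · rw [hsi 0]
      have := C.le_opNorm (f 0)
      rw [f.orthonormal.1 0, mul_one] at this
      gcongr
  exact ⟨f, s, hpos, hanti (by decide), hanti (by decide), hform, hdet2, hnorm⟩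

/-- The operator with a given matrix in an orthonormal basis. -/
theorem exists_op (f : OrthonormalBasis (Fin 3) ℝ E) (M : Matrix (Fin 3) (Fin 3) ℝ) :
    ∃ V : E →L[ℝ] E, (∀ x i, inner ℝ (f i) (V x) = ∑ j, M i j * inner ℝ (f j) x) ∧
      LinearMap.trace ℝ E (V : E →ₗ[ℝ] E) = M.trace := by
  classical
  set v : E →ₗ[ℝ] E := Matrix.toLin f.toBasis f.toBasis M with hv
  refine ⟨LinearMap.toContinuousLinearMap v, ?_, ?_⟩
  · intro x i
    have h1 : inner ℝ (f i) (v x) = f.toBasis.repr (v x) i := by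
      rw [f.coe_toBasis_repr_apply, f.repr_apply_apply]
    have h2 : f.toBasis.repr (v x) = M.mulVec (f.toBasis.repr x) := by
      rw [hv]
      exact Matrix.repr_toLin _ _ _ _
    simp only [LinearMap.coe_toContinuousLinearMap']
    rw [h1, h2]
    simp [Matrix.mulVec, dotProduct, f.repr_apply_apply]
  · have : ((LinearMap.toContinuousLinearMap v : E →L[ℝ] E) : E →ₗ[ℝ] E) = v := rfl
    rw [this, LinearMap.trace_eq_matrix_trace ℝ f.toBasis, hv, LinearMap.toMatrix_toLin]

end Vale.Agent.Lib.P243
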