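import Mathlib
import Vale.Agent.Lib.P243.SymPolar

namespace Vale.Agent.Lib.P243

open Set

variable {E : Type*} [NormedAddCommGroup E] [InnerProductSpace ℝ E] [FiniteDimensional ℝ E]

/- Sketch. Take 0 < ρ with closedBall 0 ρ ⊆ K and R with K ⊆ closedBall 0 R.
Feas K is closed and bounded by R (for a unit v, (1/R) v ∈ polarSet K), hence compact
(finite-dimensional space of operators is proper). ρ • 1 ∈ Feas K by norm_le_of_mem_polarSet.
On the compact set {C ∈ Feas K | ρ ≤ ‖C‖} the function |det C| / ‖C‖ is continuous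
(ContinuousLinearMap.continuous_det), take a maximiser C. If C' ∈ Feas K has 0 < ‖C'‖ < ρ then
(ρ / ‖C'‖) • C' has norm ρ, is in Feas K (‖.. a‖ ≤ ρ ‖a‖ ≤ 1), and a larger quotient
(det scales with the power finrank ≥ 1 ... in fact quotient scales with s^(n-1), s > 1).
If C' = 0 then det C' = 0. -/

omit [FiniteDimensional ℝ E] in
theorem isClosed_Feas (K : Set E) : IsClosed (Feas K) := by
  have h : Feas K = ⋂ a ∈ polarSet K, {C : E →L[ℝ] E | ‖C a‖ ≤ 1} := by
    ext C
    simp [Feas]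
  rw [h]
  refine isClosed_biInter fun a _ => ?_
  exact isClosed_le (by fun_prop) continuous_const

omit [FiniteDimensional ℝ E] in
theorem norm_le_of_mem_Feas {K : Set E} {R : ℝ} (hR : 0 < R)
    (hK : K ⊆ Metric.closedBall (0 : E) R) {C : E →L[ℝ] E} (hC : C ∈ Feas K) : ‖C‖ ≤ R := by
  refine ContinuousLinearMap.opNorm_le_bound C hR.le fun v => ?_
  by_cases hv : v = 0
  · simp [hv]
  have hvn : 0 < ‖v‖ := norm_pos_iff.mpr hv
  have ha : (1 / (R * ‖v‖)) • v ∈ polarSet K := by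
    apply mem_polarSet_of_norm_le hR hK
    rw [norm_smul, Real.norm_of_nonneg (by positivity)]
    apply le_of_eq
    field_simp
  have h1 := hC _ ha
  rw [map_smul, norm_smul, Real.norm_of_nonneg (by positivity)] at h1
  have h2 : 0 < R * ‖v‖ := by positivity
  rw [one_div, inv_mul_le_iff₀ h2, mul_one] at h1
  exact h1

omit [FiniteDimensional ℝ E] in
theorem mem_Feas_of_norm_le {K : Set E} {ρ : ℝ} (hρ : 0 < ρ)
    (hball : Metric.closedBall (0 : E) ρ ⊆ K) {C : E →L[ℝ] E} (hC : ‖C‖ ≤ ρ) : C ∈ Feas K := by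
  intro a ha
  have h1 := norm_le_of_mem_polarSet hρ hball ha
  calc ‖C a‖ ≤ ‖C‖ * ‖a‖ := C.le_opNorm a
    _ ≤ ρ * (1 / ρ) := by gcongr
    _ = 1 := by field_simp

/-- Existence of a maximiser of `|det C| / ‖C‖` on `Feas K` (written without division). -/
theorem exists_opt [Nontrivial E] {K : Set E} (hKb : Bornology.IsBounded K) (h0 : 0 ∈ interior K) :
    ∃ C ∈ Feas K, C.det ≠ 0 ∧ ∀ C' ∈ Feas K, |C'.det| * ‖C‖ ≤ |C.det| * ‖C'‖ := by
  obtain ⟨ρ, hρ, hball⟩ : ∃ ρ : ℝ, 0 < ρ ∧ Metric.closedBall (0 : E) ρ ⊆ K := by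
    obtain ⟨ε, hε, hb⟩ := Metric.nhds_basis_closedBall.mem_iff.mp (mem_interior_iff_mem_nhds.mp h0)
    exact ⟨ε, hε, hb⟩
  obtain ⟨R, hR, hKR⟩ : ∃ R : ℝ, 0 < R ∧ K ⊆ Metric.closedBall (0 : E) R := by
    obtain ⟨R, hR⟩ := hKb.subset_closedBall (0 : E)
    refine ⟨max R 1, by positivity, hR.trans (Metric.closedBall_subset_closedBall (le_max_left _ _))⟩
  set n := Module.finrank ℝ E with hn
  have hnpos : 0 < n := Module.finrank_pos
  have hdet_smul : ∀ (s : ℝ) (C : E →L[ℝ] E), (s • C).det = s ^ n * C.det := by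
    intro s C
    change LinearMap.det (s • (C : E →ₗ[ℝ] E)) = _
    rw [LinearMap.det_smul]
  set S : Set (E →L[ℝ] E) := {C | C ∈ Feas K ∧ ρ ≤ ‖C‖} with hS
  have hSc : IsCompact S := by
    apply Metric.isCompact_of_isClosed_isBounded
    · exact (isClosed_Feas K).inter (isClosed_le continuous_const continuous_norm)
    · refine (Metric.isBounded_closedBall (x := (0 : E →L[ℝ] E)) (r := R)).subset ?_
      rintro C ⟨hC, -⟩
      rw [mem_closedBall_zero_iff]
      exact norm_le_of_mem_Feas hR hKR hC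
  have hid : ‖ρ • ContinuousLinearMap.id ℝ E‖ = ρ := by
    rw [norm_smul, ContinuousLinearMap.norm_id, mul_one, Real.norm_of_nonneg hρ.le]
  have hidS : ρ • ContinuousLinearMap.id ℝ E ∈ S :=
    ⟨mem_Feas_of_norm_le hρ hball hid.le, hid.ge⟩
  have hcont : ContinuousOn (fun C : E →L[ℝ] E => |C.det| / ‖C‖) S := by
    apply ContinuousOn.div
    · exact (continuous_abs.comp ContinuousLinearMap.continuous_det).continuousOn
    · exact continuous_norm.continuousOn
    · rintro C ⟨-, hC⟩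
      exact (lt_of_lt_of_le hρ hC).ne'
  obtain ⟨C, hCS, hmax⟩ := hSc.exists_isMaxOn ⟨_, hidS⟩ hcont
  have hCn : 0 < ‖C‖ := lt_of_lt_of_le hρ hCS.2
  have hkey : ∀ C' ∈ S, |C'.det| * ‖C‖ ≤ |C.det| * ‖C'‖ := by
    intro C' hC'
    have h1 : |C'.det| / ‖C'‖ ≤ |C.det| / ‖C‖ := hmax hC'
    have h2 : 0 < ‖C'‖ := lt_of_lt_of_le hρ hC'.2
    rwa [div_le_div_iff₀ h2 hCn] at h1
  refine ⟨C, hCS.1, ?_, ?_⟩
  · intro hdet
    have h1 := hkey _ hidS
    rw [hdet, abs_zero, zero_mul, hdet_smul] at h1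
    have h2 : (ContinuousLinearMap.id ℝ E).det = 1 := by
      change LinearMap.det (LinearMap.id : E →ₗ[ℝ] E) = 1
      exact LinearMap.det_id
    rw [h2, mul_one] at h1
    have h3 : 0 < |ρ ^ n| * ‖C‖ := by positivity
    linarith
  · intro C' hC'
    by_cases hC0 : C' = 0
    · subst hC0
      have : (0 : E →L[ℝ] E).det = 0 := by
        change LinearMap.det (0 : E →ₗ[ℝ] E) = 0
        rw [LinearMap.det_zero, ← hn, zero_pow hnpos.ne']
      rw [this]; simp
    have hC'n : 0 < ‖C'‖ := norm_pos_iff.mpr hC0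
    by_cases hle : ρ ≤ ‖C'‖
    · exact hkey C' ⟨hC', hle⟩
    · rw [not_le] at hle
      set s := ρ / ‖C'‖ with hs
      have hs1 : 1 ≤ s := by
        rw [hs, one_le_div hC'n]; exact hle.le
      have hs0 : 0 < s := by positivity
      have hnorm : ‖s • C'‖ = ρ := by
        rw [norm_smul, Real.norm_of_nonneg hs0.le, hs]
        field_simp
      have hmem : s • C' ∈ S := ⟨mem_Feas_of_norm_le hρ hball hnorm.le, hnorm.ge⟩
      have h1 := hkey _ hmem
      rw [hdet_smul, hnorm, abs_mul, abs_of_nonneg (by positivity : (0:ℝ) ≤ s ^ n)] at h1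
      have hρs : ρ = s * ‖C'‖ := by
        rw [hs]; field_simp
      obtain ⟨k, hk⟩ : ∃ k, n = k + 1 := ⟨n - 1, by omega⟩
      rw [hk, pow_succ] at h1
      have h2 : s * (s ^ k * (|C'.det| * ‖C‖)) ≤ s * (|C.det| * ‖C'‖) := by
        calc s * (s ^ k * (|C'.det| * ‖C‖)) = s ^ k * s * |C'.det| * ‖C‖ := by ring
          _ ≤ |C.det| * ρ := h1
          _ = s * (|C.det| * ‖C'‖) := by rw [hρs]; ring
      have h3 := le_of_mul_le_mul_left h2 hs0
      have h4 : 1 ≤ s ^ k := one_le_pow₀ hs1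
      have h5 : 0 ≤ |C'.det| * ‖C‖ := by positivity
      nlinarith

end Vale.Agent.Lib.P243
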