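import Mathlib

namespace Vale.Agent.Lib.P243

variable {E : Type*} [NormedAddCommGroup E] [InnerProductSpace ℝ E] [FiniteDimensional ℝ E]

/- Sketch: pass to a matrix (LinearMap.det_toMatrix, LinearMap.trace_eq_matrix_trace) and use
Matrix.det_one_add_smul: det (1 + r • M) = 1 + trace M * r + p.eval r * r ^ 2 with p a polynomial,
which is bounded on [0, 1] by continuity. -/

/-- First-order expansion of the determinant: if `τ < trace V` then `det (1 + ε V) > 1 + ε τ`
for all small `ε > 0`. -/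
theorem exists_eps_det (V : E →L[ℝ] E) {τ : ℝ}
    (hτ : τ < LinearMap.trace ℝ E (V : E →ₗ[ℝ] E)) :
    ∃ ε0 : ℝ, 0 < ε0 ∧ ∀ ε : ℝ, 0 < ε → ε < ε0 →
      1 + ε * τ < ((1 : E →L[ℝ] E) + ε • V).det := by
  classical
  set b := Module.finBasis ℝ E with hb
  set Mx := LinearMap.toMatrix b b (V : E →ₗ[ℝ] E) with hMx
  have htr : LinearMap.trace ℝ E (V : E →ₗ[ℝ] E) = Mx.trace :=
    LinearMap.trace_eq_matrix_trace ℝ b _
  have hdet : ∀ ε : ℝ, ((1 : E →L[ℝ] E) + ε • V).det = (1 + ε • Mx).det := by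
    intro ε
    have h1 : (((1 : E →L[ℝ] E) + ε • V : E →L[ℝ] E) : E →ₗ[ℝ] E)
        = LinearMap.id + ε • (V : E →ₗ[ℝ] E) := by
      ext x; simp
    unfold ContinuousLinearMap.det
    rw [h1, ← LinearMap.det_toMatrix b]
    congr 1
    rw [map_add, map_smul, LinearMap.toMatrix_id]
  set p := (Matrix.det (1 + (Polynomial.X : Polynomial ℝ) • Mx.map Polynomial.C)).divX.divX with hp
  obtain ⟨B, hB⟩ := (isCompact_Icc (a := (0 : ℝ)) (b := 1)).exists_bound_of_continuousOn
    (f := fun r => p.eval r) p.continuous.continuousOn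
  set T := Mx.trace with hT
  rw [htr] at hτ
  have hBpos : 0 < |B| + 1 := by positivity
  refine ⟨min 1 ((T - τ) / (|B| + 1)), lt_min one_pos (div_pos (by linarith) hBpos), ?_⟩
  intro ε hε hε2
  have he1 : ε < 1 := lt_of_lt_of_le hε2 (min_le_left _ _)
  have he2 : ε < (T - τ) / (|B| + 1) := lt_of_lt_of_le hε2 (min_le_right _ _)
  have he3 : ε * (|B| + 1) < T - τ := by rwa [lt_div_iff₀ hBpos] at he2
  rw [hdet, Matrix.det_one_add_smul]
  have hb1 := hB ε ⟨hε.le, he1.le⟩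
  rw [Real.norm_eq_abs] at hb1
  have hb2 : -(|B|) ≤ p.eval ε := by
    have := neg_abs_le (p.eval ε)
    have h3 := le_abs_self B
    linarith
  have hb3 : -(|B|) * ε ^ 2 ≤ p.eval ε * ε ^ 2 :=
    mul_le_mul_of_nonneg_right hb2 (by positivity)
  have hb4 : ε * (ε * (|B| + 1)) < ε * (T - τ) := mul_lt_mul_of_pos_left he3 hε
  have hb5 : 0 ≤ ε ^ 2 := by positivity
  nlinarith

end Vale.Agent.Lib.P243
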