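import Mathlib

namespace Vale.Agent.Lib.P243

open Set

/-- Generic first-order compactness lemma. Sketch: let M bound |f1|, |f2| on Z.
Near a point with f0 < 0 the zeroth order term wins, near a point with f0 = 0 the first order
term wins; finitely many such neighbourhoods cover Z. -/
theorem exists_eps_of_compact {X : Type*} [TopologicalSpace X] {Z : Set X} (hZ : IsCompact Z)
    {f0 f1 f2 : X → ℝ} (h0c : ContinuousOn f0 Z) (h1c : ContinuousOn f1 Z)
    (h2c : ContinuousOn f2 Z) (h0 : ∀ x ∈ Z, f0 x ≤ 0) (h1 : ∀ x ∈ Z, f0 x = 0 → f1 x < 0) :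
    ∃ ε0 : ℝ, 0 < ε0 ∧ ∀ ε : ℝ, 0 < ε → ε < ε0 → ∀ x ∈ Z, f0 x + ε * f1 x + ε ^ 2 * f2 x ≤ 0 := by
  obtain ⟨M1, hM1⟩ := hZ.exists_bound_of_continuousOn h1c
  obtain ⟨M2, hM2⟩ := hZ.exists_bound_of_continuousOn h2c
  set M : ℝ := max (max M1 M2) 0 + 1 with hM
  have hMpos : 0 < M := by
    have : 0 ≤ max (max M1 M2) 0 := le_max_right _ _
    linarith
  have hb1 : ∀ x ∈ Z, f1 x ≤ M := by
    intro x hx
    have h := hM1 x hx
    rw [Real.norm_eq_abs] at h
    have h2 : M1 ≤ max (max M1 M2) 0 := le_trans (le_max_left _ _) (le_max_left _ _)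
    have h3 := le_abs_self (f1 x)
    linarith
  have hb2 : ∀ x ∈ Z, f2 x ≤ M := by
    intro x hx
    have h := hM2 x hx
    rw [Real.norm_eq_abs] at h
    have h2 : M2 ≤ max (max M1 M2) 0 := le_trans (le_max_right _ _) (le_max_left _ _)
    have h3 := le_abs_self (f2 x)
    linarith
  refine hZ.induction_on (p := fun S => ∃ ε0 : ℝ, 0 < ε0 ∧ ∀ ε : ℝ, 0 < ε → ε < ε0 →
    ∀ x ∈ S, f0 x + ε * f1 x + ε ^ 2 * f2 x ≤ 0) ?_ ?_ ?_ ?_
  · exact ⟨1, one_pos, fun _ _ _ x hx => absurd hx (Set.notMem_empty x)⟩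
  · rintro s t hst ⟨ε0, hε0, h⟩
    exact ⟨ε0, hε0, fun ε h1 h2 x hx => h ε h1 h2 x (hst hx)⟩
  · rintro s t ⟨ε1, hε1, hs⟩ ⟨ε2, hε2, ht⟩
    refine ⟨min ε1 ε2, lt_min hε1 hε2, fun ε h1 h2 x hx => ?_⟩
    rcases hx with hx | hx
    · exact hs ε h1 (lt_of_lt_of_le h2 (min_le_left _ _)) x hx
    · exact ht ε h1 (lt_of_lt_of_le h2 (min_le_right _ _)) x hx
  · intro x hx
    rcases lt_or_eq_of_le (h0 x hx) with hlt | heq
    · -- zeroth order term wins
      set κ : ℝ := -(f0 x) / 2 with hκ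
      have hκpos : 0 < κ := by rw [hκ]; linarith
      have hev : ∀ᶠ z in nhdsWithin x Z, f0 z < -κ := by
        have : f0 x < -κ := by rw [hκ]; linarith
        exact (h0c x hx).eventually (gt_mem_nhds this)
      refine ⟨Z ∩ {z | f0 z < -κ}, Filter.inter_mem self_mem_nhdsWithin hev, ?_⟩
      refine ⟨min 1 (κ / (2 * M)), lt_min one_pos (by positivity), ?_⟩
      rintro ε hε hε2 z ⟨hzZ, hz⟩
      have hz' : f0 z < -κ := hz
      have he1 : ε < 1 := lt_of_lt_of_le hε2 (min_le_left _ _)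
      have he2 : ε < κ / (2 * M) := lt_of_lt_of_le hε2 (min_le_right _ _)
      have he3 : ε * (2 * M) < κ := by
        rwa [lt_div_iff₀ (by positivity)] at he2
      have t1 : ε * f1 z ≤ ε * M := mul_le_mul_of_nonneg_left (hb1 z hzZ) hε.le
      have t2 : ε ^ 2 * f2 z ≤ ε ^ 2 * M := mul_le_mul_of_nonneg_left (hb2 z hzZ) (by positivity)
      have t3 : ε ^ 2 * M ≤ ε * M := by
        have : ε ^ 2 ≤ ε := by nlinarith
        exact mul_le_mul_of_nonneg_right this hMpos.le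
      nlinarith
    · -- first order term wins
      have hneg := h1 x hx heq
      set η : ℝ := -(f1 x) / 2 with hη
      have hηpos : 0 < η := by rw [hη]; linarith
      have hev : ∀ᶠ z in nhdsWithin x Z, f1 z < -η := by
        have : f1 x < -η := by rw [hη]; linarith
        exact (h1c x hx).eventually (gt_mem_nhds this)
      refine ⟨Z ∩ {z | f1 z < -η}, Filter.inter_mem self_mem_nhdsWithin hev, ?_⟩
      refine ⟨η / M, by positivity, ?_⟩
      rintro ε hε hε2 z ⟨hzZ, hz⟩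
      have hz' : f1 z < -η := hz
      have he3 : ε * M < η := by
        rwa [lt_div_iff₀ hMpos] at hε2
      have t0 := h0 z hzZ
      have t1 : ε * f1 z ≤ ε * (-η) := mul_le_mul_of_nonneg_left hz'.le hε.le
      have t2 : ε ^ 2 * f2 z ≤ ε ^ 2 * M := mul_le_mul_of_nonneg_left (hb2 z hzZ) (by positivity)
      have t3 : ε ^ 2 * M ≤ ε * η := by
        have : ε ^ 2 * M = ε * (ε * M) := by ring
        rw [this]
        exact mul_le_mul_of_nonneg_left he3.le hε.le
      linarith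

end Vale.Agent.Lib.P243
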