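import Mathlib
import Vale.Agent.Lib.P243.SymPolar
import Vale.Agent.Lib.P243.SymGC
import Vale.Agent.Lib.P243.SymDet

namespace Vale.Agent.Lib.P243

open Set

variable {E : Type*} [NormedAddCommGroup E] [InnerProductSpace ℝ E] [FiniteDimensional ℝ E]

/- Sketch. Put t = ‖C‖ and C_ε = C ∘L (1 + ε • V).
(1) exists_eps_of_compact on Z = polarSet K (compact by isCompact_polarSet) with
    f0 a = ‖C a‖^2 - 1, f1 a = 2 * inner (C a) (C (V a)), f2 a = ‖C (V a)‖^2 gives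
    ‖C_ε a‖^2 = f0 + ε f1 + ε^2 f2 + 1 ≤ 1, so C_ε ∈ Feas K for small ε.
(2) exists_eps_of_compact on the unit sphere with f0 v = ‖C v‖^2 - t^2,
    f1 v = 2 * inner (C v) (C (V v)) - 2 * τ * t^2, f2 v = ‖C (V v)‖^2 - τ^2 * t^2 gives
    ‖C_ε v‖^2 ≤ t^2 (1 + ε τ)^2, hence ‖C_ε‖ ≤ t (1 + ε τ) (opNorm_le_of_unit_norm; 1 + ε τ > 0).
(3) exists_eps_det: det (1 + ε V) > 1 + ε τ > 0, and det C_ε = det C * det (1 + ε V).
(4) hopt C_ε: |det C| (1 + ε τ) t < |det C_ε| t ≤ |det C| ‖C_ε‖ ≤ |det C| t (1 + ε τ). Contradiction. -/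

omit [FiniteDimensional ℝ E] in
theorem norm_sq_pert (C V : E →L[ℝ] E) (ε : ℝ) (a : E) :
    ‖(C ∘L ((1 : E →L[ℝ] E) + ε • V)) a‖ ^ 2 =
      ‖C a‖ ^ 2 + ε * (2 * inner ℝ (C a) (C (V a))) + ε ^ 2 * ‖C (V a)‖ ^ 2 := by
  have h : (C ∘L ((1 : E →L[ℝ] E) + ε • V)) a = C a + ε • C (V a) := by
    simp
  rw [h, norm_add_sq_real, inner_smul_right, norm_smul, mul_pow, Real.norm_eq_abs, sq_abs]
  ring

/-- Optimality condition: at a maximiser `C` of `|det C| / ‖C‖` on `Feas K` there is no improving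
direction `C (1 + ε V)`. -/
theorem no_improving_direction {K : Set E} (h0 : 0 ∈ interior K)
    {C : E →L[ℝ] E} (hC : C ∈ Feas K) (hdet : C.det ≠ 0) (hpos : 0 < ‖C‖)
    (hopt : ∀ C' ∈ Feas K, |C'.det| * ‖C‖ ≤ |C.det| * ‖C'‖)
    (V : E →L[ℝ] E) (τ : ℝ)
    (ha : ∀ a ∈ polarSet K, ‖C a‖ = 1 → inner ℝ (C a) (C (V a)) < 0)
    (hb : ∀ v : E, ‖v‖ = 1 → ‖C v‖ = ‖C‖ → inner ℝ (C v) (C (V v)) < τ * ‖C‖ ^ 2)
    (hc : τ < LinearMap.trace ℝ E (V : E →ₗ[ℝ] E)) : False := by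
  set t := ‖C‖ with ht
  -- (1) feasibility
  obtain ⟨e1, he1, H1⟩ := exists_eps_of_compact (isCompact_polarSet h0)
    (f0 := fun a => ‖C a‖ ^ 2 - 1) (f1 := fun a => 2 * inner ℝ (C a) (C (V a)))
    (f2 := fun a => ‖C (V a)‖ ^ 2)
    (by fun_prop) (by fun_prop) (by fun_prop)
    (by
      intro a haK
      have h1 : ‖C a‖ ≤ 1 := hC a haK
      have h2 : 0 ≤ ‖C a‖ := norm_nonneg _
      show ‖C a‖ ^ 2 - 1 ≤ 0
      nlinarith)
    (by
      intro a haK h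
      have h' : ‖C a‖ ^ 2 - 1 = 0 := h
      have h2 : 0 ≤ ‖C a‖ := norm_nonneg _
      have h3 : ‖C a‖ = 1 := by nlinarith
      have := ha a haK h3
      show 2 * inner ℝ (C a) (C (V a)) < 0
      linarith)
  -- (2) norm
  obtain ⟨e2, he2, H2⟩ := exists_eps_of_compact (isCompact_sphere (0 : E) 1)
    (f0 := fun v => ‖C v‖ ^ 2 - t ^ 2)
    (f1 := fun v => 2 * inner ℝ (C v) (C (V v)) - 2 * τ * t ^ 2)
    (f2 := fun v => ‖C (V v)‖ ^ 2 - τ ^ 2 * t ^ 2)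
    (by fun_prop) (by fun_prop) (by fun_prop)
    (by
      intro v hv
      have hv1 : ‖v‖ = 1 := by simpa using hv
      have h1 : ‖C v‖ ≤ t := by
        have := C.le_opNorm v
        rw [hv1, mul_one] at this
        exact this
      have h2 : 0 ≤ ‖C v‖ := norm_nonneg _
      show ‖C v‖ ^ 2 - t ^ 2 ≤ 0
      nlinarith)
    (by
      intro v hv h
      have hv1 : ‖v‖ = 1 := by simpa using hv
      have h' : ‖C v‖ ^ 2 - t ^ 2 = 0 := h
      have h2 : 0 ≤ ‖C v‖ := norm_nonneg _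
      have h3 : ‖C v‖ = t := by
        have h4 : ‖C v‖ ^ 2 = t ^ 2 := by linarith
        exact (pow_left_inj₀ h2 hpos.le (by norm_num)).mp h4
      have := hb v hv1 h3
      show 2 * inner ℝ (C v) (C (V v)) - 2 * τ * t ^ 2 < 0
      linarith)
  -- (3) determinant
  obtain ⟨e3, he3, H3⟩ := exists_eps_det V hc
  -- choose ε
  have he4 : 0 < 1 / (|τ| + 1) := by positivity
  set ε := min (min e1 e2) (min e3 (1 / (|τ| + 1))) / 2 with hε
  have hm : 0 < min (min e1 e2) (min e3 (1 / (|τ| + 1))) :=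
    lt_min (lt_min he1 he2) (lt_min he3 he4)
  have hεpos : 0 < ε := by rw [hε]; linarith
  have hεlt : ε < min (min e1 e2) (min e3 (1 / (|τ| + 1))) := by rw [hε]; linarith
  have hε1 : ε < e1 := lt_of_lt_of_le hεlt (le_trans (min_le_left _ _) (min_le_left _ _))
  have hε2 : ε < e2 := lt_of_lt_of_le hεlt (le_trans (min_le_left _ _) (min_le_right _ _))
  have hε3 : ε < e3 := lt_of_lt_of_le hεlt (le_trans (min_le_right _ _) (min_le_left _ _))
  have hε4 : ε < 1 / (|τ| + 1) :=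
    lt_of_lt_of_le hεlt (le_trans (min_le_right _ _) (min_le_right _ _))
  have hone : 0 < 1 + ε * τ := by
    have h1 : ε * (|τ| + 1) < 1 := by rwa [lt_div_iff₀ (by positivity)] at hε4
    have h2 : -(|τ|) ≤ τ := neg_abs_le τ
    have h3 : ε * (-(|τ|)) ≤ ε * τ := mul_le_mul_of_nonneg_left h2 hεpos.le
    nlinarith
  set Cε : E →L[ℝ] E := C ∘L ((1 : E →L[ℝ] E) + ε • V) with hCε
  have hfeas : Cε ∈ Feas K := by
    intro a haK
    have h := H1 ε hεpos hε1 a haK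
    have h2 := norm_sq_pert C V ε a
    have h3 : ‖Cε a‖ ^ 2 ≤ 1 := by
      rw [hCε, h2]
      have h' : ‖C a‖ ^ 2 - 1 + ε * (2 * inner ℝ (C a) (C (V a))) + ε ^ 2 * ‖C (V a)‖ ^ 2 ≤ 0 := h
      linarith
    have h4 : 0 ≤ ‖Cε a‖ := norm_nonneg _
    nlinarith
  have hnorm : ‖Cε‖ ≤ t * (1 + ε * τ) := by
    refine ContinuousLinearMap.opNorm_le_of_unit_norm (by positivity) ?_
    intro v hv
    have h := H2 ε hεpos hε2 v (by simpa using hv)
    have h2 := norm_sq_pert C V ε v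
    have h3 : ‖Cε v‖ ^ 2 ≤ (t * (1 + ε * τ)) ^ 2 := by
      rw [hCε, h2]
      have h' : ‖C v‖ ^ 2 - t ^ 2 + ε * (2 * inner ℝ (C v) (C (V v)) - 2 * τ * t ^ 2)
        + ε ^ 2 * (‖C (V v)‖ ^ 2 - τ ^ 2 * t ^ 2) ≤ 0 := h
      nlinarith
    exact (pow_le_pow_iff_left₀ (norm_nonneg _) (by positivity) (by norm_num)).mp h3
  have hdetε : Cε.det = C.det * ((1 : E →L[ℝ] E) + ε • V).det := by
    unfold ContinuousLinearMap.det
    rw [hCε, ← LinearMap.det_comp]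
    rfl
  have hD := H3 ε hεpos hε3
  have hfin := hopt Cε hfeas
  rw [hdetε, abs_mul] at hfin
  have hDpos : 0 < ((1 : E →L[ℝ] E) + ε • V).det := lt_trans hone hD
  rw [abs_of_pos hDpos] at hfin
  have hdpos : 0 < |C.det| := abs_pos.mpr hdet
  have h5 : |C.det| * ‖Cε‖ ≤ |C.det| * (t * (1 + ε * τ)) :=
    mul_le_mul_of_nonneg_left hnorm hdpos.le
  have h6 : |C.det| * (1 + ε * τ) * t < |C.det| * ((1 : E →L[ℝ] E) + ε • V).det * t := by
    have := mul_lt_mul_of_pos_left hD hdpos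
    exact mul_lt_mul_of_pos_right this hpos
  nlinarith

end Vale.Agent.Lib.P243
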