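import Mathlib
import Vale.Agent.Lib.P243.SymMax
import Vale.Agent.Lib.P243.SymPert
import Vale.Agent.Lib.P243.SymDiag
import Vale.Agent.Lib.P243.SymCert

namespace Vale.Agent.Lib.P243

open Set

variable {E : Type*} [NormedAddCommGroup E] [InnerProductSpace ℝ E] [FiniteDimensional ℝ E]

omit [FiniteDimensional ℝ E] in
theorem parseval3 (f : OrthonormalBasis (Fin 3) ℝ E) (x y : E) :
    ∑ i, inner ℝ (f i) x * inner ℝ (f i) y = inner ℝ x y := by
  rw [← f.sum_inner_mul_inner x y]
  exact Finset.sum_congr rfl fun i _ => by rw [real_inner_comm x (f i)]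

omit [FiniteDimensional ℝ E] in
theorem parseval3_sq (f : OrthonormalBasis (Fin 3) ℝ E) (x : E) :
    ∑ i, inner ℝ (f i) x ^ 2 = ‖x‖ ^ 2 := by
  rw [← real_inner_self_eq_norm_sq, ← parseval3 f x x]
  exact Finset.sum_congr rfl fun i _ => by ring

/-- John-type lemma adapted to the least shadow area. -/
theorem john_sym (h3 : Module.finrank ℝ E = 3) {K : Set E} (hKb : Bornology.IsBounded K)
    (h0 : 0 ∈ interior K) :
    ∃ (C : E →L[ℝ] E) (a a' : E), C.det ≠ 0 ∧ C ∈ Feas K ∧ a ∈ polarSet K ∧ a' ∈ polarSet K ∧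
      ‖C‖ ^ 2 ≤ 2 * C.det ^ 2 * (‖a‖ ^ 2 * ‖a'‖ ^ 2 - (inner ℝ a a') ^ 2) := by
  have hnt : Nontrivial E := Module.nontrivial_of_finrank_pos (R := ℝ) (by omega)
  obtain ⟨C, hC, hdet, hopt⟩ := exists_opt hKb h0
  have hpos : 0 < ‖C‖ := by
    rw [norm_pos_iff]
    rintro rfl
    apply hdet
    have : (0 : E →L[ℝ] E).det = LinearMap.det (0 : E →ₗ[ℝ] E) := rfl
    have hne : Nonempty (Fin (Module.finrank ℝ E)) := by rw [h3]; exact ⟨0⟩
    rw [this, LinearMap.det_zero' (Module.finBasis ℝ E)]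
  obtain ⟨f, s, hs, h10, h21, hin, hdet2, hnorm⟩ := exists_diag h3 C hdet
  let co : E → (Fin 3 → ℝ) := fun a i => inner ℝ (f i) a
  have hco : Continuous co := by
    refine continuous_pi fun i => ?_
    fun_prop
  let Z0 : Set E := polarSet K ∩ {a | ‖C a‖ = 1}
  have hZ0 : IsCompact Z0 := by
    refine (isCompact_polarSet h0).inter_right ?_
    exact isClosed_eq (by fun_prop) continuous_const
  have hquad : ∀ x : E, ∑ i, s i * co x i ^ 2 = ‖C x‖ ^ 2 := by
    intro x
    rw [← real_inner_self_eq_norm_sq, hin]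
    exact Finset.sum_congr rfl fun i _ => by simp only [co]; ring
  obtain ⟨α, ⟨a, ha, rfl⟩, α', ⟨a', ha', rfl⟩, hG⟩ :=
    cert_pure s hs h10 h21 (co '' Z0) (hZ0.image hco)
      (by
        rintro _ ⟨a, ha, rfl⟩
        rw [hquad, ha.2]
        norm_num)
      (by
        intro M τ hA hB hT
        obtain ⟨V, hV, htr⟩ := exists_op f M
        have hform : ∀ x : E, inner ℝ (C x) (C (V x)) =
            ∑ i, s i * co x i * (M.mulVec (co x)) i := by
          intro x
          rw [hin]
          refine Finset.sum_congr rfl fun i _ => ?_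
          rw [hV]
          rfl
        refine no_improving_direction h0 hC hdet hpos hopt V τ ?_ ?_ ?_
        · intro a ha1 ha2
          rw [hform]
          exact hA _ ⟨a, ⟨ha1, ha2⟩, rfl⟩
        · intro v hv1 hv2
          rw [hform, hnorm]
          refine hB _ ?_ ?_
          · have := parseval3_sq f v
            rw [hv1] at this
            simpa [co] using this
          · rw [hquad, hv2, hnorm]
        · rw [htr]
          exact hT)
  refine ⟨C, a, a', hdet, hC, ha.1, ha'.1, ?_⟩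
  have e1 : ∑ i, co a i ^ 2 = ‖a‖ ^ 2 := parseval3_sq f a
  have e2 : ∑ i, co a' i ^ 2 = ‖a'‖ ^ 2 := parseval3_sq f a'
  have e3 : ∑ i, co a i * co a' i = inner ℝ a a' := parseval3 f a a'
  rw [e1, e2, e3] at hG
  rw [hnorm, hdet2]
  have hs0 := hs 0
  nlinarith

end Vale.Agent.Lib.P243
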