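import Mathlib
import Vale.Agent.Lib.P243.Bridge

namespace Vale.Agent.Lib.P243

open MeasureTheory Set

/-- area of a parallelogram given by two slabs in `ℝ × ℝ`: it is the preimage of
`Icc (-1) 1 ×ˢ Icc (-1) 1` under the linear map `L p = (a1 p.1 + a2 p.2, b1 p.1 + b2 p.2)`,
`det L = a1 b2 - a2 b1`; use `MeasureTheory.Measure.addHaar_preimage_linearMap`. -/
theorem volume_two_slabs (a1 a2 b1 b2 : ℝ) (hd : a1 * b2 - a2 * b1 ≠ 0) :
    volume {p : ℝ × ℝ | |a1 * p.1 + a2 * p.2| ≤ 1 ∧ |b1 * p.1 + b2 * p.2| ≤ 1} =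
      ENNReal.ofReal (4 / |a1 * b2 - a2 * b1|) := by
  set L : (ℝ × ℝ) →ₗ[ℝ] (ℝ × ℝ) :=
    Matrix.toLin (Module.Basis.finTwoProd ℝ) (Module.Basis.finTwoProd ℝ) !![a1, a2; b1, b2] with hL
  have hdet : LinearMap.det L = a1 * b2 - a2 * b1 := by
    rw [hL, LinearMap.det_toLin, Matrix.det_fin_two_of]
  have hset : {p : ℝ × ℝ | |a1 * p.1 + a2 * p.2| ≤ 1 ∧ |b1 * p.1 + b2 * p.2| ≤ 1} =
      L ⁻¹' (Icc (-1) 1 ×ˢ Icc (-1) 1) := by
    ext p
    simp only [mem_ofPred_eq, mem_preimage, mem_prod, mem_Icc, hL, Matrix.toLin_finTwoProd_apply,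
      abs_le]
  have hvol : volume ((Icc (-1) 1 ×ˢ Icc (-1) 1 : Set (ℝ × ℝ))) = ENNReal.ofReal 4 := by
    rw [Measure.volume_eq_prod, Measure.prod_prod, Real.volume_Icc,
      ← ENNReal.ofReal_mul (by norm_num)]
    norm_num
  rw [hset, Measure.addHaar_preimage_linearMap volume (by rw [hdet]; exact hd), hvol, hdet,
    ← ENNReal.ofReal_mul (abs_nonneg _), abs_inv]
  congr 1
  field_simp

variable {E : Type*} [NormedAddCommGroup E] [InnerProductSpace ℝ E] [FiniteDimensional ℝ E]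
  [MeasurableSpace E] [BorelSpace E] [Fact (Module.finrank ℝ E = 2 + 1)]

omit [MeasurableSpace E] [BorelSpace E] in
/-- Parseval (polarised) for an orthonormal triple in dimension three. -/
theorem inner_eq_of_triple {u e f : E} (hu : ‖u‖ = 1) (he : ‖e‖ = 1) (hf : ‖f‖ = 1)
    (hue : inner ℝ u e = 0) (huf : inner ℝ u f = 0) (hef : inner ℝ e f = 0) (x y : E) :
    inner ℝ x y = inner ℝ e x * inner ℝ e y + inner ℝ f x * inner ℝ f y +
      inner ℝ u x * inner ℝ u y := by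
  have hon : Orthonormal ℝ ![e, f, u] := by
    constructor
    · intro i
      fin_cases i
      · simpa using he
      · simpa using hf
      · simpa using hu
    · intro i j hij
      fin_cases i <;> fin_cases j
      · exact absurd rfl hij
      · simpa using hef
      · simpa [real_inner_comm] using hue
      · simpa [real_inner_comm] using hef
      · exact absurd rfl hij
      · simpa [real_inner_comm] using huf
      · simpa using hue
      · simpa using huf
      · exact absurd rfl hij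
  have hcard : Fintype.card (Fin 3) = Module.finrank ℝ E := by
    rw [(Fact.out : Module.finrank ℝ E = 2 + 1)]; simp
  let b0 := basisOfOrthonormalOfCardEqFinrank hon hcard
  have hb0 : (b0 : Fin 3 → E) = ![e, f, u] := coe_basisOfOrthonormalOfCardEqFinrank hon hcard
  let b : OrthonormalBasis (Fin 3) ℝ E := b0.toOrthonormalBasis (by rw [hb0]; exact hon)
  have hb : (b : Fin 3 → E) = ![e, f, u] := by
    rw [Module.Basis.coe_toOrthonormalBasis, hb0]
  have h := b.sum_inner_mul_inner x y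
  rw [Fin.sum_univ_three, hb] at h
  simp only [Matrix.cons_val_zero, Matrix.cons_val_one, Matrix.cons_val] at h
  rw [← h, real_inner_comm e x, real_inner_comm f x, real_inner_comm u x]

/-- A set inside two slabs has a shadow inside a parallelogram. Take a unit `u` orthogonal to
`a, a'` (`exists_third`), then unit `e, f` completing `u` to an orthonormal triple, `κ` from
`exists_coords`. With `a1 = ⟨e,a⟩, a2 = ⟨f,a⟩` etc. one has `⟨a, p⟩ = a1 ⟨e,p⟩ + a2 ⟨f,p⟩` for `p ⟂ u`,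
`⟨a, proj x⟩ = ⟨a, x⟩`, and `(a1 b2 - a2 b1)^2 = ‖a‖^2 ‖a'‖^2 - ⟨a,a'⟩^2`. -/
theorem shadow_le_of_slabs {K : Set E} {a a' : E} (ha : ∀ x ∈ K, |inner ℝ a x| ≤ 1)
    (ha' : ∀ x ∈ K, |inner ℝ a' x| ≤ 1)
    (hG : 0 < ‖a‖ ^ 2 * ‖a'‖ ^ 2 - (inner ℝ a a') ^ 2) :
    ∃ u : E, ‖u‖ = 1 ∧ volume ((ℝ ∙ u)ᗮ.orthogonalProjectionOnto '' K) ≤
      ENNReal.ofReal (4 / Real.sqrt (‖a‖ ^ 2 * ‖a'‖ ^ 2 - (inner ℝ a a') ^ 2)) := by
  obtain ⟨u, hu, hau, ha'u⟩ := exists_third (u := a) (e := a')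
  obtain ⟨e, he, hue, -⟩ := exists_third (u := u) (e := u)
  obtain ⟨f, hf, huf, hef⟩ := exists_third (u := u) (e := e)
  refine ⟨u, hu, ?_⟩
  rw [volume_shadow_eq hu he hf hue huf hef]
  have hP := inner_eq_of_triple hu he hf hue huf hef
  have hua : inner ℝ u a = 0 := by rw [real_inner_comm]; exact hau
  have hua' : inner ℝ u a' = 0 := by rw [real_inner_comm]; exact ha'u
  set a1 := inner ℝ e a with ha1
  set a2 := inner ℝ f a with ha2
  set b1 := inner ℝ e a' with hb1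
  set b2 := inner ℝ f a' with hb2
  have hna : ‖a‖ ^ 2 = a1 ^ 2 + a2 ^ 2 := by
    rw [← real_inner_self_eq_norm_sq, hP a a, hua]; ring
  have hna' : ‖a'‖ ^ 2 = b1 ^ 2 + b2 ^ 2 := by
    rw [← real_inner_self_eq_norm_sq, hP a' a', hua']; ring
  have haa' : inner ℝ a a' = a1 * b1 + a2 * b2 := by
    rw [hP a a', hua]; ring
  have hgram : ‖a‖ ^ 2 * ‖a'‖ ^ 2 - (inner ℝ a a') ^ 2 = (a1 * b2 - a2 * b1) ^ 2 := by
    rw [hna, hna', haa']; ring
  have hd : a1 * b2 - a2 * b1 ≠ 0 := by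
    intro h
    rw [hgram, h] at hG
    norm_num at hG
  rw [hgram, Real.sqrt_sq_eq_abs, ← volume_two_slabs a1 a2 b1 b2 hd]
  apply measure_mono
  rintro _ ⟨x, hx, rfl⟩
  refine ⟨?_, ?_⟩
  · have := ha x hx
    rw [hP a x, hua] at this
    simpa using this
  · have := ha' x hx
    rw [hP a' x, hua'] at this
    simpa using this

end Vale.Agent.Lib.P243
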