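import Mathlib
import Vale.Agent.Lib.P243.SymEll
import Vale.Agent.Lib.P243.SymPar
import Vale.Agent.Lib.P243.SymJohn
import Vale.Agent.Lib.P243.SymAdj

namespace Vale.Agent.Lib.P243

open MeasureTheory Set

variable {E : Type*} [NormedAddCommGroup E] [InnerProductSpace ℝ E] [FiniteDimensional ℝ E]
  [MeasurableSpace E] [BorelSpace E] [Fact (Module.finrank ℝ E = 2 + 1)]

omit [InnerProductSpace ℝ E] [FiniteDimensional ℝ E] [MeasurableSpace E] [BorelSpace E]
  [Fact (Module.finrank ℝ E = 2 + 1)] in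
/-- The centre of a symmetric convex set with nonempty interior is an interior point. -/
theorem zero_mem_interior_of_sym [NormedSpace ℝ E] {K : Set E} (hK : Convex ℝ K)
    (hKi : (interior K).Nonempty) (hsym : ∀ x ∈ K, -x ∈ K) : (0 : E) ∈ interior K := by
  obtain ⟨x, hx⟩ := hKi
  have hneg : -x ∈ interior K := by
    have h1 : (fun y : E => -y) ⁻¹' (interior K) ⊆ K := by
      intro y hy
      have := hsym _ (interior_subset hy)
      simpa using this
    have h2 : IsOpen ((fun y : E => -y) ⁻¹' (interior K)) :=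
      isOpen_interior.preimage continuous_neg
    have h3 := interior_maximal h1 h2
    apply h3
    simpa using hx
  have h := hK.interior hx hneg (a := 1 / 2) (b := 1 / 2) (by norm_num) (by norm_num)
    (by norm_num)
  simpa using h

/-- Origin-symmetric bodies. -/
theorem sym_main {K : Set E} (hK : Convex ℝ K) (hKc : IsCompact K) (hKi : (interior K).Nonempty)
    (hsym : ∀ x ∈ K, -x ∈ K)
    {m : ℕ} (u : Fin m → E) (hu : ∀ i, ‖u i‖ = 1) (B : ∀ i, Set (ℝ ∙ u i)ᗮ)
    (hcov : ∀ x ∈ K, ∃ i, ∃ p ∈ B i, ∃ r : ℝ, x = (p : E) + r • u i) :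
    ∃ w : E, ‖w‖ = 1 ∧
      ENNReal.ofReal (Real.pi / (4 * Real.sqrt 2)) *
        volume ((ℝ ∙ w)ᗮ.orthogonalProjectionOnto '' K) ≤ ∑ i, volume (B i) := by
  have h3 : Module.finrank ℝ E = 3 := (Fact.out : Module.finrank ℝ E = 2 + 1)
  have h0 : (0 : E) ∈ interior K := zero_mem_interior_of_sym hK hKi hsym
  obtain ⟨C, a, a', hdet, hCf, ha, ha', hineq⟩ := john_sym h3 hKc.isBounded h0
  have hC0 : C ≠ 0 := by
    intro h
    apply hdet
    rw [h]
    show LinearMap.det (0 : E →ₗ[ℝ] E) = 0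
    rw [LinearMap.det_zero, h3]
    norm_num
  have hpos : 0 < ‖C‖ := norm_pos_iff.mpr hC0
  set A : E →L[ℝ] E := ContinuousLinearMap.adjoint C with hA
  have hdA : A.det = C.det := det_adjoint_eq C
  have hdA0 : A.det ≠ 0 := by rw [hdA]; exact hdet
  have hbound := ellipsoid_cover_bound A hdA0 hpos (norm_adjoint_apply_le C) u hu B
    (fun θ hθ => hcov _ (adjoint_mem_of_feas hK hKc.isClosed h0 hCf hθ.le))
  have hslab : ∀ b ∈ polarSet K, ∀ x ∈ K, |inner ℝ b x| ≤ 1 := by
    intro b hb x hx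
    rw [abs_le]
    constructor
    · have := hb _ (hsym x hx)
      rw [inner_neg_right] at this
      linarith
    · exact hb x hx
  set G : ℝ := ‖a‖ ^ 2 * ‖a'‖ ^ 2 - (inner ℝ a a') ^ 2 with hG
  have hd2 : 0 < C.det ^ 2 := by positivity
  have hGpos : 0 < G := by
    by_contra hneg
    have hG0 : G ≤ 0 := not_lt.mp hneg
    have h1 : 0 < ‖C‖ ^ 2 := by positivity
    nlinarith
  obtain ⟨w, hw, hshadow⟩ := shadow_le_of_slabs (hslab a ha) (hslab a' ha') hGpos
  refine ⟨w, hw, le_trans ?_ hbound⟩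
  have hs2 : 0 < Real.sqrt 2 := by positivity
  have hsG : 0 < Real.sqrt G := Real.sqrt_pos.mpr hGpos
  have hpi : 0 < Real.pi := Real.pi_pos
  calc ENNReal.ofReal (Real.pi / (4 * Real.sqrt 2)) *
        volume ((ℝ ∙ w)ᗮ.orthogonalProjectionOnto '' K)
      ≤ ENNReal.ofReal (Real.pi / (4 * Real.sqrt 2)) * ENNReal.ofReal (4 / Real.sqrt G) := by
        gcongr
    _ = ENNReal.ofReal (Real.pi / (4 * Real.sqrt 2) * (4 / Real.sqrt G)) :=
        (ENNReal.ofReal_mul (by positivity)).symm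
    _ ≤ ENNReal.ofReal (Real.pi * |A.det| / ‖C‖) := by
        apply ENNReal.ofReal_le_ofReal
        rw [hdA]
        have hkey : ‖C‖ ≤ |C.det| * (Real.sqrt 2 * Real.sqrt G) := by
          apply abs_le_of_sq_le_sq' _ (by positivity) |>.2
          rw [mul_pow, mul_pow, sq_abs, Real.sq_sqrt (by norm_num : (0 : ℝ) ≤ 2),
            Real.sq_sqrt hGpos.le]
          linarith
        have e1 : Real.pi / (4 * Real.sqrt 2) * (4 / Real.sqrt G) =
            Real.pi / (Real.sqrt 2 * Real.sqrt G) := by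
          field_simp
        rw [e1, div_le_div_iff₀ (by positivity) hpos]
        nlinarith

end Vale.Agent.Lib.P243
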