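import Mathlib
import Vale.Agent.Lib.P243.SymMain

namespace Vale.Agent.Lib.P243

open MeasureTheory Set

variable {E : Type*} [NormedAddCommGroup E] [InnerProductSpace ℝ E] [FiniteDimensional ℝ E]
  [MeasurableSpace E] [BorelSpace E] [Fact (Module.finrank ℝ E = 2 + 1)]

/-- splitting of a vector along a unit vector -/
theorem eq_proj_add_smul {u : E} (hu : ‖u‖ = 1) (c : E) :
    c = (((ℝ ∙ u)ᗮ.orthogonalProjectionOnto c : (ℝ ∙ u)ᗮ) : E) + (inner ℝ u c) • u := by
  rw [Submodule.coe_orthogonalProjectionOnto_apply, Submodule.starProjection_orthogonal_val,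
    Submodule.starProjection_unit_singleton ℝ hu]
  simp

/-- Bodies symmetric about an arbitrary centre `c`. -/
theorem sym_main_centre' {K : Set E} (hK : Convex ℝ K) (hKc : IsCompact K)
    (hKi : (interior K).Nonempty) (c : E) (hsym : ∀ x ∈ K, c + c - x ∈ K)
    {m : ℕ} (u : Fin m → E) (hu : ∀ i, ‖u i‖ = 1) (B : ∀ i, Set (ℝ ∙ u i)ᗮ)
    (hcov : ∀ x ∈ K, ∃ i, ∃ p ∈ B i, ∃ r : ℝ, x = (p : E) + r • u i) :
    ∃ w : E, ‖w‖ = 1 ∧
      ENNReal.ofReal (Real.pi / (4 * Real.sqrt 2)) *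
        volume ((ℝ ∙ w)ᗮ.orthogonalProjectionOnto '' K) ≤ ∑ i, volume (B i) := by
  set K' : Set E := (fun y => y + c) ⁻¹' K with hK'
  have h1 : Convex ℝ K' := hK.translate_preimage_left c
  have h2 : IsCompact K' := (Homeomorph.addRight c).isCompact_preimage.mpr hKc
  have h3 : (interior K').Nonempty := by
    have : interior K' = (fun y => y + c) ⁻¹' interior K :=
      ((Homeomorph.addRight c).preimage_interior K).symm
    rw [this]
    obtain ⟨x, hx⟩ := hKi
    exact ⟨x - c, by simpa using hx⟩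
  have h4 : ∀ y ∈ K', -y ∈ K' := by
    intro y hy
    have := hsym (y + c) hy
    have e : c + c - (y + c) = -y + c := by abel
    rw [e] at this
    exact this
  set q : ∀ i, (ℝ ∙ u i)ᗮ := fun i => (ℝ ∙ u i)ᗮ.orthogonalProjectionOnto c with hq
  set B' : ∀ i, Set (ℝ ∙ u i)ᗮ := fun i => (fun p => p + q i) ⁻¹' B i with hB'
  have h5 : ∀ y ∈ K', ∃ i, ∃ p ∈ B' i, ∃ r : ℝ, y = (p : E) + r • u i := by
    intro y hy
    obtain ⟨i, p, hp, r, hr⟩ := hcov (y + c) hy
    refine ⟨i, p - q i, ?_, r - inner ℝ (u i) c, ?_⟩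
    · simpa [hB'] using hp
    · have hc := eq_proj_add_smul (hu i) c
      have hy' : y = (p : E) + r • u i - c := by rw [← hr]; abel
      rw [hy']
      conv_lhs => rw [hc]
      simp only [hq, Submodule.coe_sub, sub_smul]
      abel
  obtain ⟨w, hw, hmain⟩ := sym_main h1 h2 h3 h4 u hu B' h5
  refine ⟨w, hw, ?_⟩
  have h6 : ∀ i, volume (B' i) = volume (B i) := fun i => measure_preimage_add_right _ _ _
  have h7 : (ℝ ∙ w)ᗮ.orthogonalProjectionOnto '' K' =
      (fun p => p + (ℝ ∙ w)ᗮ.orthogonalProjectionOnto c) ⁻¹'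
        ((ℝ ∙ w)ᗮ.orthogonalProjectionOnto '' K) := by
    ext p
    constructor
    · rintro ⟨y, hy, rfl⟩
      exact ⟨y + c, hy, by simp⟩
    · rintro ⟨x, hx, hxp⟩
      refine ⟨x - c, by simpa [hK'] using hx, ?_⟩
      rw [map_sub, hxp]
      simp
  have h8 : volume ((ℝ ∙ w)ᗮ.orthogonalProjectionOnto '' K') =
      volume ((ℝ ∙ w)ᗮ.orthogonalProjectionOnto '' K) := by
    rw [h7]
    exact measure_preimage_add_right _ _ _
  rw [h8] at hmain
  simpa only [h6] using hmain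

end Vale.Agent.Lib.P243
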