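import Mathlib
import Vale.Agent.Lib.P243.Coplanar
import Vale.Agent.Lib.P243.Bridge3

/-!
# P243 (Bang's half-area cylinder covering problem)

For a covering of a convex body `K` in a 3-dimensional real inner product space by `m` cylinders
`B i + ℝ u i` (arbitrary bases) we prove:

1. with `β i = min 1 (|B i| / |shadow of K along u i|)`, the inequality
   `∑ i, (3 β i - 2 (β i) ^ (3/2)) ≥ 1`, which sharpens the known `∑ i, 3 β i ≥ 1`;
2. if `m ≤ 2`, the directionwise relative area is at least `1/2` (the strong form of the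
   conjecture for two cylinders);
3. if all axes are parallel to one plane, the total base area is at least `A_min(K) / 2`.
-/

namespace Vale.Agent.Results.P243.TwoCylindersStrong

open MeasureTheory Set

variable {E : Type} [NormedAddCommGroup E] [InnerProductSpace ℝ E] [FiniteDimensional ℝ E]
  [MeasurableSpace E] [BorelSpace E]

/-- The plane through the origin orthogonal to `u`. -/
noncomputable def Perp (u : E) : Submodule ℝ E := (ℝ ∙ u)ᗮ

/-- Lebesgue (outer) measure of a subset of the plane orthogonal to `u`. -/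
noncomputable def area {u : E} (B : Set (Perp u)) : ENNReal := volume B

/-- The cylinder `B + ℝ u` with base `B` in the plane orthogonal to `u`. -/
def cylinder (u : E) (B : Set (Perp u)) : Set E :=
  {x | ∃ b ∈ B, ∃ t : ℝ, x = (b : E) + t • u}

/-- The orthogonal projection of `K` onto the plane orthogonal to `u`. -/
noncomputable def shadow (K : Set E) (u : E) : Set (Perp u) :=
  (Perp u).orthogonalProjectionOnto '' K

/-- The smallest area of an orthogonal projection of `K` onto a plane. -/
noncomputable def Amin (K : Set E) : ENNReal :=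
  ⨅ u : {u : E // ‖u‖ = 1}, area (shadow K u)

/-- The relative base area `|B| / |shadow of K along u|` of a cylinder. -/
noncomputable def relArea (K : Set E) (u : E) (B : Set (Perp u)) : ENNReal :=
  area B / area (shadow K u)

/-- The relative base area capped at `1`, as a real number. -/
noncomputable def capArea (K : Set E) (u : E) (B : Set (Perp u)) : ℝ :=
  (min 1 (relArea K u B)).toReal

theorem result (h3 : Module.finrank ℝ E = 3)
    (K : Set E) (hK : Convex ℝ K) (hKc : IsCompact K) (hKi : (interior K).Nonempty)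
    (m : ℕ) (u : Fin m → E) (hu : ∀ i, ‖u i‖ = 1) (B : ∀ i, Set (Perp (u i)))
    (hcov : K ⊆ ⋃ i, cylinder (u i) (B i)) :
    (1 ≤ ∑ i, (3 * capArea K (u i) (B i) - 2 * capArea K (u i) (B i) ^ (3 / 2 : ℝ))) ∧
    (m ≤ 2 → 1 / 2 ≤ ∑ i, relArea K (u i) (B i)) ∧
    ((∃ n : E, n ≠ 0 ∧ ∀ i, inner ℝ n (u i) = 0) → Amin K / 2 ≤ ∑ i, area (B i)) := by
  have hfact : Fact (Module.finrank ℝ E = 2 + 1) := ⟨h3⟩
  have hne : K.Nonempty := hKi.mono interior_subset
  have hcov' : ∀ x ∈ K, ∃ i, ∃ b ∈ B i, ∃ t : ℝ, x = (b : E) + t • u i := by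
    intro x hx
    obtain ⟨i, hi⟩ := mem_iUnion.mp (hcov hx)
    exact ⟨i, hi⟩
  -- the square roots of the capped relative areas
  set β : Fin m → ℝ := fun i => capArea K (u i) (B i) with hβ
  have hβ0 : ∀ i, 0 ≤ β i := fun i => ENNReal.toReal_nonneg
  have hβ1 : ∀ i, β i ≤ 1 := by
    intro i
    have : (min 1 (relArea K (u i) (B i))).toReal ≤ (1 : ENNReal).toReal :=
      ENNReal.toReal_mono ENNReal.one_ne_top (min_le_left _ _)
    rw [ENNReal.toReal_one] at this
    exact this
  have hβof : ∀ i, ENNReal.ofReal (β i) = min 1 (relArea K (u i) (B i)) := by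
    intro i
    exact ENNReal.ofReal_toReal (ne_top_of_le_ne_top ENNReal.one_ne_top (min_le_left _ _))
  set b : Fin m → ℝ := fun i => Real.sqrt (β i) with hb
  have hb0 : ∀ i, 0 ≤ b i := fun i => Real.sqrt_nonneg _
  have hb1 : ∀ i, b i ≤ 1 := fun i => Real.sqrt_le_one.mpr (hβ1 i)
  have hbsq : ∀ i, (b i) ^ 2 = β i := fun i => Real.sq_sqrt (hβ0 i)
  have hshfin : ∀ i, area (shadow K (u i)) ≠ ⊤ := by
    intro i
    exact (hKc.image (Perp (u i)).orthogonalProjectionOnto.continuous).measure_lt_top.ne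
  have hB : ∀ i, b i < 1 → area (B i) ≤ ENNReal.ofReal ((b i) ^ 2) * area (shadow K (u i)) := by
    intro i hi
    rw [hbsq, hβof]
    have hlt : β i < 1 := by
      rw [← hbsq]; nlinarith [hb0 i]
    have hlt' : min 1 (relArea K (u i) (B i)) < 1 := by
      rw [← hβof, ← ENNReal.ofReal_one]
      exact (ENNReal.ofReal_lt_ofReal_iff one_pos).mpr hlt
    have hrel : relArea K (u i) (B i) < 1 := by
      rcases min_lt_iff.mp hlt' with h | h
      · exact absurd h (lt_irrefl _)
      · exact h
    rw [min_eq_right hrel.le]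
    by_cases h0 : area (shadow K (u i)) = 0
    · by_cases hB0 : area (B i) = 0
      · rw [hB0]; exact zero_le
      · exfalso
        rw [relArea, h0, ENNReal.div_zero hB0] at hrel
        exact absurd hrel (not_lt.mpr le_top)
    · rw [relArea, ENNReal.div_mul_cancel h0 (hshfin i)]
  have key : 1 ≤ ∑ i, (3 * (b i) ^ 2 - 2 * (b i) ^ 3) :=
    Vale.Agent.Lib.P243.sum_phi_ge_one hK hKc hKi u hu B hcov' b hb0 hb1 hB
  refine ⟨?_, ?_, ?_⟩
  · refine key.trans (le_of_eq (Finset.sum_congr rfl fun i _ => ?_))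
    have e : (b i) ^ 3 = β i ^ (3 / 2 : ℝ) := by
      rw [hb]
      simp only
      rw [Real.sqrt_eq_rpow, ← Real.rpow_natCast, ← Real.rpow_mul (hβ0 i)]
      norm_num
    rw [hbsq, e]
  · intro hm
    have h1 : ∀ i, 3 * (b i) ^ 2 - 2 * (b i) ^ 3 ≤ 1 / 8 + 3 / 2 * β i := by
      intro i
      rw [← hbsq]
      have : 0 ≤ 2 * (b i - 1 / 2) ^ 2 * (b i + 1 / 4) := by
        have := hb0 i
        positivity
      nlinarith
    have h2 : 1 ≤ ∑ i : Fin m, (1 / 8 + 3 / 2 * β i) := key.trans (Finset.sum_le_sum fun i _ => h1 i)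
    rw [Finset.sum_add_distrib, ← Finset.mul_sum] at h2
    simp only [Finset.sum_const, Finset.card_univ, Fintype.card_fin, nsmul_eq_mul] at h2
    have hm' : (m : ℝ) ≤ 2 := by exact_mod_cast hm
    have h3' : 1 / 2 ≤ ∑ i, β i := by linarith
    calc (1 / 2 : ENNReal) = ENNReal.ofReal (1 / 2) := by
          rw [ENNReal.ofReal_div_of_pos (by norm_num : (0 : ℝ) < 2)]; simp
      _ ≤ ENNReal.ofReal (∑ i, β i) := ENNReal.ofReal_le_ofReal h3'
      _ = ∑ i, ENNReal.ofReal (β i) := ENNReal.ofReal_sum_of_nonneg fun i _ => hβ0 i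
      _ ≤ ∑ i, relArea K (u i) (B i) := Finset.sum_le_sum fun i _ => by
          rw [hβof]; exact min_le_right _ _
  · rintro ⟨n, hn, hcop⟩
    have hn0 : ‖n‖ ≠ 0 := norm_ne_zero_iff.mpr hn
    set n' : E := (‖n‖)⁻¹ • n with hn'
    have hn1 : ‖n'‖ = 1 := by
      rw [hn', norm_smul, norm_inv, norm_norm, inv_mul_cancel₀ hn0]
    have hcop' : ∀ i, inner ℝ n' (u i) = 0 := by
      intro i
      rw [hn', real_inner_smul_left, hcop i, mul_zero]
    have key2 : ∀ a : ℝ, ENNReal.ofReal a ≤ Amin K →
        ENNReal.ofReal (a / 2) ≤ ∑ i, area (B i) := by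
      intro a ha
      refine Vale.Agent.Lib.P243.coplanar_general hK hKc hne u hu B hcov' hn1 hcop' ?_
      intro v hv _
      exact ha.trans (iInf_le (fun w : {w : E // ‖w‖ = 1} => area (shadow K w)) ⟨v, hv⟩)
    by_cases htop : Amin K = ⊤
    · have hall : ∀ r : NNReal, (r : ENNReal) ≤ ∑ i, area (B i) := by
        intro r
        have := key2 (2 * (r : ℝ)) (by rw [htop]; exact le_top)
        rw [mul_div_cancel_left₀ _ (two_ne_zero), ENNReal.ofReal_coe_nnreal] at this
        exact this
      rw [ENNReal.eq_top_of_forall_nnreal_le hall]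
      exact le_top
    · have := key2 (Amin K).toReal (by rw [ENNReal.ofReal_toReal htop])
      rw [ENNReal.ofReal_div_of_pos (by norm_num : (0 : ℝ) < 2), ENNReal.ofReal_toReal htop] at this
      simpa using this

end Vale.Agent.Results.P243.TwoCylindersStrong
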