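import Mathlib
import Vale.Agent.Lib.P243.SymXray

/-!
# P243, universal bound `1/3 + 10^-14`: definitions

`K` convex body, `a b` a diameter of length `D`, `u = (b - a)/D`, `(e, f, u)` an orthonormal frame.
Constants: eta = 1/10^12, rho = 1/10^4 (radius `R = rho * D`), s1 = 5/10^4.
-/

namespace Vale.Agent.Lib.P243

open MeasureTheory Set

variable {E : Type*} [NormedAddCommGroup E] [InnerProductSpace ℝ E]

/-- The points of `K` which see some point of `K` at distance more than `L`. -/
def farSet (K : Set E) (L : ℝ) : Set E := {x | x ∈ K ∧ ∃ y ∈ K, L < ‖x - y‖}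

/-- The plane section of `K` at height `h` above `a` in the direction `u`. -/
def sect (K : Set E) (a u : E) (h : ℝ) : Set E := {x | x ∈ K ∧ inner ℝ u (x - a) = h}

/-- `K` is compact convex, `[a, b]` is a diameter of length `D` and direction `u`,
and `(e, f, u)` is an orthonormal frame. -/
structure Setup (K : Set E) (a b e f u : E) (D : ℝ) : Prop where
  conv : Convex ℝ K
  cpt : IsCompact K
  ha : a ∈ K
  hb : b ∈ K
  hD : 0 < D
  hba : b = a + D • u
  diam : ∀ x ∈ K, ∀ y ∈ K, ‖x - y‖ ≤ D
  he : ‖e‖ = 1
  hf : ‖f‖ = 1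
  hu : ‖u‖ = 1
  hue : inner ℝ u e = 0
  huf : inner ℝ u f = 0
  hef : inner ℝ e f = 0

theorem Setup.swap {K : Set E} {a b e f u : E} {D : ℝ} (S : Setup K a b e f u D) :
    Setup K b a e f (-u) D where
  conv := S.conv
  cpt := S.cpt
  ha := S.hb
  hb := S.ha
  hD := S.hD
  hba := by rw [S.hba]; simp
  diam := S.diam
  he := S.he
  hf := S.hf
  hu := by rw [norm_neg]; exact S.hu
  hue := by rw [inner_neg_left, S.hue, neg_zero]
  huf := by rw [inner_neg_left, S.huf, neg_zero]
  hef := S.hef

/-- The section at height `h` above `b` in the direction `-u` is the section at height `D - h`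
above `a` in the direction `u`. -/
theorem Setup.sect_swap {K : Set E} {a b e f u : E} {D : ℝ} (S : Setup K a b e f u D) (h : ℝ) :
    sect K b (-u) h = sect K a u (D - h) := by
  ext x
  simp only [sect, mem_setOf_eq]
  refine and_congr_right fun _ => ?_
  rw [S.hba, inner_neg_left, sub_add_eq_sub_sub, inner_sub_right, inner_smul_right,
    real_inner_self_eq_norm_sq, S.hu]
  constructor <;> intro h1 <;> linarith

end Vale.Agent.Lib.P243
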