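import Mathlib
import Vale.Agent.Lib.P243.UniDefs

/-! # P243 universal bound, task A1: Stewart identity and heights -/

namespace Vale.Agent.Lib.P243

open MeasureTheory Set

variable {E : Type*} [NormedAddCommGroup E] [InnerProductSpace ℝ E]

theorem stewart_aux (A B C : E) (la lb lk : ℝ) :
    ‖la • A + lb • B + lk • C‖ ^ 2 +
      (la * lb * ‖A - B‖ ^ 2 + la * lk * ‖A - C‖ ^ 2 + lb * lk * ‖B - C‖ ^ 2) =
    (la + lb + lk) * (la * ‖A‖ ^ 2 + lb * ‖B‖ ^ 2 + lk * ‖C‖ ^ 2) := by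
  have h1 : ‖la • A + lb • B + lk • C‖ ^ 2 = la ^ 2 * ‖A‖ ^ 2 + lb ^ 2 * ‖B‖ ^ 2 + lk ^ 2 * ‖C‖ ^ 2
      + 2 * la * lb * inner ℝ A B + 2 * la * lk * inner ℝ A C + 2 * lb * lk * inner ℝ B C := by
    rw [← real_inner_self_eq_norm_sq]
    simp only [inner_add_left, inner_add_right, inner_smul_left, inner_smul_right,
      real_inner_self_eq_norm_sq, RCLike.conj_to_real]
    rw [real_inner_comm A B, real_inner_comm A C, real_inner_comm B C]
    ring
  rw [h1, norm_sub_sq_real, norm_sub_sq_real, norm_sub_sq_real]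
  ring

/-- Stewart / Lagrange identity as an inequality. Proof: with p = la a + lb b + lk k one has the
identity |p - x|^2 = la |a-x|^2 + lb |b-x|^2 + lk |k-x|^2
  - (la lb |a-b|^2 + la lk |a-k|^2 + lb lk |b-k|^2)   (expand all norms via inner products, using
la + lb + lk = 1), and each |.-x|^2 is at most D^2. -/
theorem stewart_le {a b k x : E} {la lb lk D : ℝ} (ha : 0 ≤ la) (hb : 0 ≤ lb) (hk : 0 ≤ lk)
    (hsum : la + lb + lk = 1) (hxa : ‖a - x‖ ≤ D) (hxb : ‖b - x‖ ≤ D) (hxk : ‖k - x‖ ≤ D) :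
    ‖(la • a + lb • b + lk • k) - x‖ ^ 2 +
      (la * lb * ‖a - b‖ ^ 2 + la * lk * ‖a - k‖ ^ 2 + lb * lk * ‖b - k‖ ^ 2) ≤ D ^ 2 := by
  have h := stewart_aux (a - x) (b - x) (k - x) la lb lk
  have e1 : la • (a - x) + lb • (b - x) + lk • (k - x) = (la • a + lb • b + lk • k) - x := by
    have : x = (la + lb + lk) • x := by rw [hsum, one_smul]
    conv_rhs => rw [this]
    simp only [smul_sub, add_smul]
    abel
  have e2 : (a - x) - (b - x) = a - b := by abel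
  have e3 : (a - x) - (k - x) = a - k := by abel
  have e4 : (b - x) - (k - x) = b - k := by abel
  rw [e1, e2, e3, e4, hsum, one_mul] at h
  rw [h]
  have sa : ‖a - x‖ ^ 2 ≤ D ^ 2 := pow_le_pow_left₀ (norm_nonneg _) hxa 2
  have sb : ‖b - x‖ ^ 2 ≤ D ^ 2 := pow_le_pow_left₀ (norm_nonneg _) hxb 2
  have sk : ‖k - x‖ ^ 2 ≤ D ^ 2 := pow_le_pow_left₀ (norm_nonneg _) hxk 2
  have t1 := mul_le_mul_of_nonneg_left sa ha
  have t2 := mul_le_mul_of_nonneg_left sb hb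
  have t3 := mul_le_mul_of_nonneg_left sk hk
  have : la * D ^ 2 + lb * D ^ 2 + lk * D ^ 2 = D ^ 2 := by
    rw [← add_mul, ← add_mul, hsum, one_mul]
  linarith

theorem norm_ab {K : Set E} {a b e f u : E} {D : ℝ} (S : Setup K a b e f u D) :
    ‖a - b‖ = D := by
  rw [S.hba]
  have : a - (a + D • u) = -(D • u) := by abel
  rw [this, norm_neg, norm_smul, S.hu, mul_one, Real.norm_eq_abs, abs_of_pos S.hD]

/-- A convex combination of `a, b, k` which lies in the far set has a small Stewart bracket: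
there is x in K with |p - x| > (1 - eta) D, so bracket ≤ D^2 - |p-x|^2 < (2 eta - eta^2) D^2. -/
theorem far_bracket {K : Set E} {a b e f u : E} {D : ℝ} (S : Setup K a b e f u D)
    {k : E} (hkK : k ∈ K) {la lb lk : ℝ} (ha : 0 ≤ la) (hb : 0 ≤ lb) (hk : 0 ≤ lk)
    (hsum : la + lb + lk = 1)
    (hV : la • a + lb • b + lk • k ∈ farSet K ((1 - 1 / 10 ^ 12) * D)) :
    la * lb * D ^ 2 + la * lk * ‖a - k‖ ^ 2 + lb * lk * ‖b - k‖ ^ 2 < 2 / 10 ^ 12 * D ^ 2 := by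
  obtain ⟨-, x, hx, hfar⟩ := hV
  have h := stewart_le ha hb hk hsum (S.diam a S.ha x hx) (S.diam b S.hb x hx)
    (S.diam k hkK x hx)
  rw [norm_ab S] at h
  have hD := S.hD
  have h0 : 0 ≤ (1 - 1 / 10 ^ 12 : ℝ) * D := by
    apply mul_nonneg _ hD.le
    norm_num
  have h1 : ((1 - 1 / 10 ^ 12 : ℝ) * D) ^ 2 < ‖la • a + lb • b + lk • k - x‖ ^ 2 :=
    pow_lt_pow_left₀ hfar h0 (by norm_num)
  have h2 : ((1 - 1 / 10 ^ 12 : ℝ) * D) ^ 2 = D ^ 2 - 2 / 10 ^ 12 * D ^ 2 + 1 / 10 ^ 24 * D ^ 2 := by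
    ring
  have h3 : 0 < 1 / 10 ^ 24 * D ^ 2 := by positivity
  linarith

/-- |x - b| ≤ D = |a - b| gives |x - a|^2 ≤ 2 D <u, x - a>. -/
theorem height_ge {K : Set E} {a b e f u : E} {D : ℝ} (S : Setup K a b e f u D)
    {x : E} (hx : x ∈ K) : ‖x - a‖ ^ 2 ≤ 2 * D * inner ℝ u (x - a) := by
  have h := S.diam x hx b S.hb
  have e : x - b = (x - a) - D • u := by rw [S.hba]; abel
  have h2 : ‖x - b‖ ^ 2 ≤ D ^ 2 := pow_le_pow_left₀ (norm_nonneg _) h 2
  rw [e, norm_sub_sq_real, inner_smul_right, norm_smul, S.hu, mul_one, Real.norm_eq_abs,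
    sq_abs, real_inner_comm] at h2
  linarith

theorem height_nonneg {K : Set E} {a b e f u : E} {D : ℝ} (S : Setup K a b e f u D)
    {x : E} (hx : x ∈ K) : 0 ≤ inner ℝ u (x - a) := by
  have h := height_ge S hx
  have hD := S.hD
  have h0 : 0 ≤ ‖x - a‖ ^ 2 := by positivity
  by_contra hc
  push Not at hc
  have : 2 * D * inner ℝ u (x - a) < 0 := mul_neg_of_pos_of_neg (by linarith) hc
  linarith

/-- <u, x - a> ≤ |x - a|. -/
theorem height_le_norm {K : Set E} {a b e f u : E} {D : ℝ} (S : Setup K a b e f u D)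
    (x : E) : inner ℝ u (x - a) ≤ ‖x - a‖ := by
  have := real_inner_le_norm u (x - a)
  rwa [S.hu, one_mul] at this

end Vale.Agent.Lib.P243
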