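import Mathlib
import Vale.Agent.Lib.P243.UniStewart

/-! # P243 universal bound, task A3: far points away from both ends -/

namespace Vale.Agent.Lib.P243

open MeasureTheory Set

variable {E : Type*} [NormedAddCommGroup E] [InnerProductSpace ℝ E]

/-- Pure real arithmetic core (normalise by D if convenient). A = |a-k|, B = |b-k|.
Assume lb ≤ la. From la lb D^2 < 2 eta D^2: lb^2 < 2/10^12 so lb < 15/10^7.
hpa: rho D < lb D + lk A, so lk A > (1/10^4 - 15/10^7) D = 985/10^7 D.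
la (lk A)^2 ≤ la lk A^2 < 2 eta D^2 (lk ≤ 1), so la < 2/10^12 / (985/10^7)^2 < 21/10^5.
So la + lb < 5/10^4 and lk > 999/1000. If B ≥ D/2 then lb lk B^2 < 2 eta D^2 gives lb < 9 eta,
otherwise A > D/2 (hAB) and la lk A^2 < 2 eta D^2 gives la < 9 eta. -/
theorem far_arith {la lb lk A B D : ℝ} (hD : 0 < D) (ha : 0 ≤ la) (hb : 0 ≤ lb) (hk : 0 ≤ lk)
    (hsum : la + lb + lk = 1) (hA : 0 ≤ A) (hB : 0 ≤ B) (hAB : D ≤ A + B) (hle : lb ≤ la)
    (hbr : la * lb * D ^ 2 + la * lk * A ^ 2 + lb * lk * B ^ 2 < 2 / 10 ^ 12 * D ^ 2)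
    (hpa : 1 / 10 ^ 4 * D < lb * D + lk * A) :
    la + lb < 5 / 10 ^ 4 ∧ (la < 9 / 10 ^ 12 ∨ lb < 9 / 10 ^ 12) := by
  have hD2 : 0 < D ^ 2 := by positivity
  have t1 : 0 ≤ la * lk * A ^ 2 := by positivity
  have t2 : 0 ≤ lb * lk * B ^ 2 := by positivity
  have t3 : 0 ≤ la * lb * D ^ 2 := by positivity
  have hs : la + lb < 5 / 10 ^ 4 := by
    have h1 : la * lb < 2 / 10 ^ 12 := by
      have : la * lb * D ^ 2 < 2 / 10 ^ 12 * D ^ 2 := by linarith
      exact lt_of_mul_lt_mul_right this hD2.le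
    have hlb : lb < 15 / 10 ^ 7 := by
      by_contra hc
      push Not at hc
      have : (15 / 10 ^ 7 : ℝ) * (15 / 10 ^ 7) ≤ la * lb := by
        have h2 : (15 / 10 ^ 7 : ℝ) ≤ la := le_trans hc hle
        exact mul_le_mul h2 hc (by norm_num) ha
      norm_num at this h1
      linarith
    have hka : 985 / 10 ^ 7 * D < lk * A := by nlinarith
    have hlk1 : lk ≤ 1 := by linarith
    have h3 : (lk * A) ^ 2 ≤ lk * A ^ 2 := by
      have : lk * lk ≤ lk * 1 := mul_le_mul_of_nonneg_left hlk1 hk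
      nlinarith [sq_nonneg A]
    have h4 : (985 / 10 ^ 7 * D) ^ 2 < (lk * A) ^ 2 := by
      have : 0 ≤ 985 / 10 ^ 7 * D := by positivity
      nlinarith
    have h5 : la * (985 / 10 ^ 7 * D) ^ 2 ≤ la * lk * A ^ 2 := by
      calc la * (985 / 10 ^ 7 * D) ^ 2 ≤ la * (lk * A ^ 2) :=
            mul_le_mul_of_nonneg_left (le_trans h4.le h3) ha
        _ = la * lk * A ^ 2 := by ring
    have h6 : la * (985 / 10 ^ 7 * D) ^ 2 < 2 / 10 ^ 12 * D ^ 2 := by linarith
    have h7 : la * (985 / 10 ^ 7) ^ 2 < 2 / 10 ^ 12 := by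
      have : la * (985 / 10 ^ 7) ^ 2 * D ^ 2 < 2 / 10 ^ 12 * D ^ 2 := by nlinarith
      exact lt_of_mul_lt_mul_right this hD2.le
    have h8 : la < 21 / 10 ^ 5 := by
      norm_num at h7 ⊢
      linarith
    norm_num at h8 hlb ⊢
    linarith
  refine ⟨hs, ?_⟩
  have hlk : 9995 / 10 ^ 4 < lk := by
    norm_num at hs ⊢
    linarith
  rcases le_total (D / 2) B with hc | hc
  · right
    have h1 : D ^ 2 / 4 ≤ B ^ 2 := by nlinarith
    have h2 : lb * (9995 / 10 ^ 4 * (D ^ 2 / 4)) ≤ lb * lk * B ^ 2 := by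
      calc lb * (9995 / 10 ^ 4 * (D ^ 2 / 4)) ≤ lb * (lk * B ^ 2) := by
            apply mul_le_mul_of_nonneg_left _ hb
            exact mul_le_mul hlk.le h1 (by positivity) hk
        _ = lb * lk * B ^ 2 := by ring
    have h3 : lb * (9995 / 10 ^ 4 / 4) * D ^ 2 < 2 / 10 ^ 12 * D ^ 2 := by nlinarith
    have h4 := lt_of_mul_lt_mul_right h3 hD2.le
    norm_num at h4 ⊢
    linarith
  · left
    have hc' : D / 2 ≤ A := by linarith
    have h1 : D ^ 2 / 4 ≤ A ^ 2 := by nlinarith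
    have h2 : la * (9995 / 10 ^ 4 * (D ^ 2 / 4)) ≤ la * lk * A ^ 2 := by
      calc la * (9995 / 10 ^ 4 * (D ^ 2 / 4)) ≤ la * (lk * A ^ 2) := by
            apply mul_le_mul_of_nonneg_left _ ha
            exact mul_le_mul hlk.le h1 (by positivity) hk
        _ = la * lk * A ^ 2 := by ring
    have h3 : la * (9995 / 10 ^ 4 / 4) * D ^ 2 < 2 / 10 ^ 12 * D ^ 2 := by nlinarith
    have h4 := lt_of_mul_lt_mul_right h3 hD2.le
    norm_num at h4 ⊢
    linarith

/-- Proof. `far_bracket` gives the bracket bound; |p - a| = |lb (b-a) + lk (k-a)| ≤ lb D + lk |a-k|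
and |p - b| ≤ la D + lk |b-k|; D ≤ |a-k| + |b-k| by the triangle inequality. Apply `far_arith`
directly if lb ≤ la, and with the roles of (la, A) and (lb, B) exchanged otherwise. -/
theorem far_bound {K : Set E} {a b e f u : E} {D : ℝ} (S : Setup K a b e f u D)
    {k : E} (hkK : k ∈ K) {la lb lk : ℝ} (ha : 0 ≤ la) (hb : 0 ≤ lb) (hk : 0 ≤ lk)
    (hsum : la + lb + lk = 1)
    (hV : la • a + lb • b + lk • k ∈ farSet K ((1 - 1 / 10 ^ 12) * D))
    (hfa : 1 / 10 ^ 4 * D < ‖(la • a + lb • b + lk • k) - a‖)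
    (hfb : 1 / 10 ^ 4 * D < ‖(la • a + lb • b + lk • k) - b‖) :
    la + lb < 5 / 10 ^ 4 ∧ (la < 9 / 10 ^ 12 ∨ lb < 9 / 10 ^ 12) := by
  have hbr := far_bracket S hkK ha hb hk hsum hV
  have hab : ‖a - b‖ = D := norm_ab S
  have hAB : D ≤ ‖a - k‖ + ‖b - k‖ := by
    rw [← hab]
    calc ‖a - b‖ = ‖(a - k) - (b - k)‖ := by congr 1; abel
      _ ≤ ‖a - k‖ + ‖b - k‖ := norm_sub_le _ _
  have hpa : ‖(la • a + lb • b + lk • k) - a‖ ≤ lb * D + lk * ‖a - k‖ := by
    have e1 : (la • a + lb • b + lk • k) - a = lb • (b - a) + lk • (k - a) := by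
      have hla : la = 1 - lb - lk := by linarith
      rw [hla]
      module
    rw [e1]
    calc ‖lb • (b - a) + lk • (k - a)‖ ≤ ‖lb • (b - a)‖ + ‖lk • (k - a)‖ := norm_add_le _ _
      _ = lb * D + lk * ‖a - k‖ := by
          rw [norm_smul, norm_smul, Real.norm_of_nonneg hb, Real.norm_of_nonneg hk,
            norm_sub_rev b a, hab, norm_sub_rev k a]
  have hpb : ‖(la • a + lb • b + lk • k) - b‖ ≤ la * D + lk * ‖b - k‖ := by
    have e1 : (la • a + lb • b + lk • k) - b = la • (a - b) + lk • (k - b) := by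
      have hlb : lb = 1 - la - lk := by linarith
      rw [hlb]
      module
    rw [e1]
    calc ‖la • (a - b) + lk • (k - b)‖ ≤ ‖la • (a - b)‖ + ‖lk • (k - b)‖ := norm_add_le _ _
      _ = la * D + lk * ‖b - k‖ := by
          rw [norm_smul, norm_smul, Real.norm_of_nonneg ha, Real.norm_of_nonneg hk,
            hab, norm_sub_rev k b]
  rcases le_total lb la with h | h
  · exact far_arith S.hD ha hb hk hsum (norm_nonneg _) (norm_nonneg _) hAB h hbr
      (lt_of_lt_of_le hfa hpa)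
  · have := far_arith (la := lb) (lb := la) (lk := lk) (A := ‖b - k‖) (B := ‖a - k‖) S.hD hb ha hk
      (by linarith) (norm_nonneg _) (norm_nonneg _) (by linarith) h (by nlinarith)
      (lt_of_lt_of_le hfb hpb)
    exact ⟨by linarith [this.1], this.2.symm⟩

end Vale.Agent.Lib.P243
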