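import Mathlib
import Vale.Agent.Lib.P243.UniDefs

/-! # P243 universal bound, task B1: the volume of a (normalised) cone -/

namespace Vale.Agent.Lib.P243

open MeasureTheory Set
open scoped Pointwise

/-- The cone of height `1` over `P` (at level `0`) with apex over `p0` (at level `1`). -/
def cone1 (P : Set (ℝ × ℝ)) (p0 : ℝ × ℝ) : Set ((ℝ × ℝ) × ℝ) :=
  {x | x.2 ∈ Icc (0 : ℝ) 1 ∧ ∃ q ∈ P, x.1 = (1 - x.2) • q + x.2 • p0}

theorem cone1_isCompact {P : Set (ℝ × ℝ)} (hP : IsCompact P) (p0 : ℝ × ℝ) :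
    IsCompact (cone1 P p0) := by
  have h : cone1 P p0 = (fun z : (ℝ × ℝ) × ℝ => ((1 - z.2) • z.1 + z.2 • p0, z.2)) ''
      (P ×ˢ Icc (0 : ℝ) 1) := by
    ext x
    simp only [cone1, mem_setOf_eq, mem_image, mem_prod]
    constructor
    · rintro ⟨hx, q, hq, hxq⟩
      exact ⟨(q, x.2), ⟨hq, hx⟩, Prod.ext hxq.symm rfl⟩
    · rintro ⟨z, ⟨hz1, hz2⟩, rfl⟩
      exact ⟨hz2, z.1, hz1, rfl⟩
  rw [h]
  refine (hP.prod isCompact_Icc).image ?_
  fun_prop

theorem cone1_slice (P : Set (ℝ × ℝ)) (p0 : ℝ × ℝ) (y : ℝ) :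
    volume ((fun x : ℝ × ℝ => (x, y)) ⁻¹' cone1 P p0) =
      (Icc (0 : ℝ) 1).indicator (fun y => ENNReal.ofReal ((1 - y) ^ 2) * volume P) y := by
  by_cases hy : y ∈ Icc (0 : ℝ) 1
  · rw [indicator_of_mem hy]
    have h : (fun x : ℝ × ℝ => (x, y)) ⁻¹' cone1 P p0 =
        (fun z => z + y • p0) '' ((1 - y) • P) := by
      ext x
      simp only [cone1, mem_preimage, mem_setOf_eq, mem_image, mem_smul_set]
      constructor
      · rintro ⟨_, q, hq, hxq⟩
        exact ⟨(1 - y) • q, ⟨q, hq, rfl⟩, hxq.symm⟩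
      · rintro ⟨_, ⟨q, hq, rfl⟩, rfl⟩
        exact ⟨hy, q, hq, rfl⟩
    rw [h, image_add_right, measure_preimage_add_right, Measure.addHaar_smul]
    have hfr : Module.finrank ℝ (ℝ × ℝ) = 2 := by simp
    rw [hfr, abs_of_nonneg (sq_nonneg _)]
  · rw [indicator_of_notMem hy]
    have h : (fun x : ℝ × ℝ => (x, y)) ⁻¹' cone1 P p0 = ∅ := by
      ext x
      simp only [cone1, mem_preimage, mem_setOf_eq, mem_empty_iff_false, iff_false, not_and]
      intro h1
      exact absurd h1 hy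
    rw [h, measure_empty]

theorem cone1_volume {P : Set (ℝ × ℝ)} (hP : IsCompact P) (p0 : ℝ × ℝ) :
    volume (cone1 P p0) = ENNReal.ofReal (1 / 3) * volume P := by
  have hm : MeasurableSet (cone1 P p0) := (cone1_isCompact hP p0).measurableSet
  rw [Measure.volume_eq_prod, Measure.prod_apply_symm hm]
  simp_rw [cone1_slice]
  rw [lintegral_indicator measurableSet_Icc, lintegral_mul_const' _ _ hP.measure_lt_top.ne]
  congr 1
  rw [← ofReal_integral_eq_lintegral_ofReal]
  · congr 1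
    rw [integral_Icc_eq_integral_Ioc, ← intervalIntegral.integral_of_le zero_le_one]
    have hd : ∀ y ∈ Set.uIcc (0 : ℝ) 1, HasDerivAt (fun y : ℝ => -((1 - y) ^ 3 / 3)) ((1 - y) ^ 2) y := by
      intro y _
      have h1 : HasDerivAt (fun y : ℝ => 1 - y) (-1) y := by
        simpa using (hasDerivAt_id y).const_sub 1
      have h2 := ((h1.pow 3).div_const 3).neg
      have h3 : (1 - y) ^ 2 = -(((3 : ℕ) : ℝ) * (1 - y) ^ (3 - 1) * -1 / 3) := by
        push_cast
        ring
      rw [h3]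
      exact h2
    rw [intervalIntegral.integral_eq_sub_of_hasDerivAt hd]
    · norm_num
    · apply Continuous.intervalIntegrable
      fun_prop
  · apply Continuous.integrableOn_Icc
    fun_prop
  · exact Filter.Eventually.of_forall fun y => sq_nonneg _

end Vale.Agent.Lib.P243
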