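import Mathlib
import Vale.Agent.Lib.P243.UniCone

/-! # P243 universal bound, task B2a: the fibrewise inequality -/

namespace Vale.Agent.Lib.P243

open MeasureTheory Set

theorem convex_three_mem {V : Type*} [AddCommGroup V] [Module ℝ V] {K : Set V}
    (hc : Convex ℝ K) {x y z : V} (hx : x ∈ K) (hy : y ∈ K) (hz : z ∈ K) {a b c : ℝ}
    (ha : 0 ≤ a) (hb : 0 ≤ b) (hcc : 0 ≤ c) (h : a + b + c = 1) :
    a • x + b • y + c • z ∈ K := by
  have := hc.sum_mem (t := (Finset.univ : Finset (Fin 3))) (w := ![a, b, c]) (z := ![x, y, z])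
    (by intro i _; fin_cases i <;> simp [ha, hb, hcc])
    (by simp [Fin.sum_univ_three, h])
    (by intro i _; fin_cases i <;> simp [hx, hy, hz])
  simpa [Fin.sum_univ_three] using this

/-- Fibrewise inequality. Let P = Prod.fst '' K (convex, contains p0).
If y is not in P all of the sets on the left are empty (a point (y, τ) of the cone has
y = (1 - τ) q + τ p0 in P). If y in P: C_y = {τ | (y, τ) in cone1 P p0} is compact
(`cone1_isCompact`, preimage under the closed embedding τ -> (y, τ)) and contains 0; let t be its maximum,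
y = (1 - t) k.1 + t p0 with k in K. Then C_y ⊆ Icc 0 t has length ≤ t, and t satisfies the
maximality hypothesis of H. Put z1 = (1 - t) k.2 + t z0 and J = Icc z1 (z1 + t D). J ⊆ K_y since
(y, z1 + s D) = (1 - t) k + (t - s) (p0, z0) + s (p0, z0 + D). Es_y ⊆ (Es_y ∩ J) ∪ (K_y \ J),
|K_y \ J| = |K_y| - t D, and Es_y ∩ J is the image of {s in Icc 0 t | (y, z1 + s D) in Es} under
s -> z1 + s D, so it has length ≤ D c0, and it is empty if y is not in G. -/
theorem fiber_pointwise {K : Set ((ℝ × ℝ) × ℝ)} (hK : IsCompact K) (hc : Convex ℝ K)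
    {p0 : ℝ × ℝ} {z0 D : ℝ} (hD : 0 < D) (ha : (p0, z0) ∈ K) (hb : (p0, z0 + D) ∈ K)
    {Es : Set ((ℝ × ℝ) × ℝ)} (hEm : MeasurableSet Es) (hEK : Es ⊆ K)
    {G : Set (ℝ × ℝ)} {c0 : ℝ} (hc0 : 0 ≤ c0)
    (H : ∀ k ∈ K, ∀ t ∈ Icc (0 : ℝ) 1,
      (∀ k' ∈ K, ∀ τ ∈ Icc (0 : ℝ) 1,
        (1 - τ) • k'.1 + τ • p0 = (1 - t) • k.1 + t • p0 → τ ≤ t) →
      volume {s : ℝ | s ∈ Icc 0 t ∧
        ((1 - t) • k.1 + t • p0, (1 - t) * k.2 + t * z0 + s * D) ∈ Es} ≤ ENNReal.ofReal c0 ∧
      ((1 - t) • k.1 + t • p0 ∉ G → ∀ s ∈ Icc 0 t,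
        ((1 - t) • k.1 + t • p0, (1 - t) * k.2 + t * z0 + s * D) ∉ Es))
    (y : ℝ × ℝ) :
    volume {z : ℝ | (y, z) ∈ Es} +
        ENNReal.ofReal D * volume {τ : ℝ | (y, τ) ∈ cone1 (Prod.fst '' K) p0} ≤
      G.indicator (fun _ => ENNReal.ofReal (c0 * D)) y + volume {z : ℝ | (y, z) ∈ K} := by
  classical
  have hPc : IsCompact (Prod.fst '' K) := hK.image continuous_fst
  by_cases hy : y ∈ Prod.fst '' K
  swap
  · have h1 : {z : ℝ | (y, z) ∈ Es} = ∅ := by
      ext z
      simp only [mem_setOf_eq, mem_empty_iff_false, iff_false]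
      intro hz
      exact hy ⟨(y, z), hEK hz, rfl⟩
    have h2 : {τ : ℝ | (y, τ) ∈ cone1 (Prod.fst '' K) p0} = ∅ := by
      ext τ
      simp only [mem_setOf_eq, mem_empty_iff_false, iff_false]
      rintro ⟨hτ, q, ⟨k, hk, rfl⟩, hyq⟩
      dsimp only at hτ hyq
      apply hy
      refine ⟨(1 - τ) • k + τ • ((p0, z0) : (ℝ × ℝ) × ℝ),
        hc hk ha (by linarith [hτ.2]) hτ.1 (by ring), ?_⟩
      rw [hyq]
      rfl
    rw [h1, h2]
    simp
  · have hCc : IsCompact {τ : ℝ | (y, τ) ∈ cone1 (Prod.fst '' K) p0} := by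
      refine (isCompact_Icc (a := (0 : ℝ)) (b := 1)).of_isClosed_subset ?_ ?_
      · exact (cone1_isCompact hPc p0).isClosed.preimage
          (by fun_prop : Continuous fun τ : ℝ => (y, τ))
      · intro τ hτ
        exact hτ.1
    have hCne : {τ : ℝ | (y, τ) ∈ cone1 (Prod.fst '' K) p0}.Nonempty :=
      ⟨0, ⟨by simp, y, hy, by simp⟩⟩
    obtain ⟨t, htC, htmax⟩ := hCc.exists_isGreatest hCne
    obtain ⟨ht01, q, ⟨k, hk, rfl⟩, hyk⟩ := htC
    dsimp only at ht01 hyk
    have hmax : ∀ k' ∈ K, ∀ τ ∈ Icc (0 : ℝ) 1,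
        (1 - τ) • k'.1 + τ • p0 = (1 - t) • k.1 + t • p0 → τ ≤ t := by
      intro k' hk' τ hτ he
      apply htmax
      exact ⟨hτ, k'.1, ⟨k', hk', rfl⟩, by dsimp only; rw [he, hyk]⟩
    obtain ⟨H1, H2⟩ := H k hk t ht01 hmax
    rw [← hyk] at H1 H2
    set z1 := (1 - t) * k.2 + t * z0 with hz1
    have hJK : Icc z1 (z1 + t * D) ⊆ {z : ℝ | (y, z) ∈ K} := by
      intro z hz
      have hs0 : 0 ≤ (z - z1) / D := div_nonneg (by linarith [hz.1]) hD.le
      have hst : (z - z1) / D ≤ t := by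
        rw [div_le_iff₀ hD]
        linarith [hz.2]
      have hzs : z = z1 + (z - z1) / D * D := by
        field_simp
        ring
      have h3 := convex_three_mem hc hk ha hb (a := 1 - t) (b := t - (z - z1) / D)
        (c := (z - z1) / D) (by linarith [ht01.2]) (by linarith) hs0 (by ring)
      have he : (1 - t) • k + (t - (z - z1) / D) • ((p0, z0) : (ℝ × ℝ) × ℝ)
          + ((z - z1) / D) • ((p0, z0 + D) : (ℝ × ℝ) × ℝ) = (y, z) := by
        refine Prod.ext ?_ ?_
        · show (1 - t) • k.1 + (t - (z - z1) / D) • p0 + ((z - z1) / D) • p0 = y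
          rw [hyk]
          module
        · show (1 - t) * k.2 + (t - (z - z1) / D) * z0 + ((z - z1) / D) * (z0 + D) = z
          have : (1 - t) * k.2 + (t - (z - z1) / D) * z0 + ((z - z1) / D) * (z0 + D)
              = z1 + (z - z1) / D * D := by
            rw [hz1]
            ring
          rw [this, ← hzs]
      rw [he] at h3
      exact h3
    have hvolJ : volume (Icc z1 (z1 + t * D)) = ENNReal.ofReal (t * D) := by
      rw [Real.volume_Icc]
      congr 1
      ring
    have hKy : volume (Icc z1 (z1 + t * D)) + volume ({z : ℝ | (y, z) ∈ K} \ Icc z1 (z1 + t * D))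
        = volume {z : ℝ | (y, z) ∈ K} := by
      have := measure_inter_add_diff (μ := volume) {z : ℝ | (y, z) ∈ K}
        (measurableSet_Icc : MeasurableSet (Icc z1 (z1 + t * D)))
      rwa [inter_eq_self_of_subset_right hJK] at this
    have hCy_le : volume {τ : ℝ | (y, τ) ∈ cone1 (Prod.fst '' K) p0} ≤ ENNReal.ofReal t := by
      calc volume {τ : ℝ | (y, τ) ∈ cone1 (Prod.fst '' K) p0} ≤ volume (Icc 0 t) :=
            measure_mono (fun τ hτ => ⟨hτ.1.1, htmax hτ⟩)
        _ = ENNReal.ofReal t := by rw [Real.volume_Icc, sub_zero]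
    have hE_le : volume {z : ℝ | (y, z) ∈ Es} ≤
        volume ({z : ℝ | (y, z) ∈ Es} ∩ Icc z1 (z1 + t * D))
          + volume ({z : ℝ | (y, z) ∈ K} \ Icc z1 (z1 + t * D)) := by
      refine (measure_mono ?_).trans (measure_union_le _ _)
      intro z hz
      by_cases hzJ : z ∈ Icc z1 (z1 + t * D)
      · exact Or.inl ⟨hz, hzJ⟩
      · exact Or.inr ⟨hEK hz, hzJ⟩
    have hEJ : volume ({z : ℝ | (y, z) ∈ Es} ∩ Icc z1 (z1 + t * D)) ≤
        G.indicator (fun _ => ENNReal.ofReal (c0 * D)) y := by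
      by_cases hyG : y ∈ G
      · rw [indicator_of_mem hyG]
        have hpre : {s : ℝ | s ∈ Icc 0 t ∧ (y, z1 + s * D) ∈ Es} = (fun s => s * D) ⁻¹'
            ((fun z => z1 + z) ⁻¹' ({z : ℝ | (y, z) ∈ Es} ∩ Icc z1 (z1 + t * D))) := by
          ext s
          simp only [mem_setOf_eq, mem_preimage, mem_inter_iff, mem_Icc]
          constructor
          · rintro ⟨⟨h0, h1⟩, h2⟩
            exact ⟨h2, by nlinarith, by nlinarith⟩
          · rintro ⟨h2, h3, h4⟩
            refine ⟨⟨?_, ?_⟩, h2⟩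
            · by_contra hneg
              push_neg at hneg
              nlinarith
            · by_contra hneg
              push_neg at hneg
              nlinarith
        rw [hpre, Real.volume_preimage_mul_right hD.ne', measure_preimage_add] at H1
        have hDD : ENNReal.ofReal D * ENNReal.ofReal |D⁻¹| = 1 := by
          rw [← ENNReal.ofReal_mul hD.le, abs_of_pos (inv_pos.mpr hD), mul_inv_cancel₀ hD.ne',
            ENNReal.ofReal_one]
        calc volume ({z : ℝ | (y, z) ∈ Es} ∩ Icc z1 (z1 + t * D))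
            = ENNReal.ofReal D * (ENNReal.ofReal |D⁻¹| *
                volume ({z : ℝ | (y, z) ∈ Es} ∩ Icc z1 (z1 + t * D))) := by
              rw [← mul_assoc, hDD, one_mul]
          _ ≤ ENNReal.ofReal D * ENNReal.ofReal c0 := by gcongr
          _ = ENNReal.ofReal (c0 * D) := by rw [← ENNReal.ofReal_mul hD.le, mul_comm]
      · rw [indicator_of_notMem hyG]
        have hemp : {z : ℝ | (y, z) ∈ Es} ∩ Icc z1 (z1 + t * D) = ∅ := by
          ext z
          simp only [mem_inter_iff, mem_setOf_eq, mem_empty_iff_false, iff_false, not_and]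
          intro hzE hz
          have hs0 : 0 ≤ (z - z1) / D := div_nonneg (by linarith [hz.1]) hD.le
          have hst : (z - z1) / D ≤ t := by
            rw [div_le_iff₀ hD]
            linarith [hz.2]
          have hzs : z = z1 + (z - z1) / D * D := by
            field_simp
            ring
          have := H2 hyG ((z - z1) / D) ⟨hs0, hst⟩
          rw [← hzs] at this
          exact this hzE
        rw [hemp]
        simp
    calc volume {z : ℝ | (y, z) ∈ Es} +
          ENNReal.ofReal D * volume {τ : ℝ | (y, τ) ∈ cone1 (Prod.fst '' K) p0}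
        ≤ (volume ({z : ℝ | (y, z) ∈ Es} ∩ Icc z1 (z1 + t * D))
          + volume ({z : ℝ | (y, z) ∈ K} \ Icc z1 (z1 + t * D)))
          + ENNReal.ofReal D * ENNReal.ofReal t := by gcongr
      _ = volume ({z : ℝ | (y, z) ∈ Es} ∩ Icc z1 (z1 + t * D))
          + (volume (Icc z1 (z1 + t * D))
            + volume ({z : ℝ | (y, z) ∈ K} \ Icc z1 (z1 + t * D))) := by
          rw [hvolJ, ← ENNReal.ofReal_mul hD.le, mul_comm D t]
          ring
      _ ≤ G.indicator (fun _ => ENNReal.ofReal (c0 * D)) y + volume {z : ℝ | (y, z) ∈ K} := by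
          rw [hKy]
          gcongr

end Vale.Agent.Lib.P243
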