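import Mathlib
import Vale.Agent.Lib.P243.UniFibreA

/-! # P243 universal bound, task B2b: the fibre bound in coordinates -/

namespace Vale.Agent.Lib.P243

open MeasureTheory Set

/-- Integrate `fiber_pointwise` over y. volume = volume.prod volume (`Measure.volume_eq_prod`),
`Measure.prod_apply` for the measurable sets Es, K (compact), cone1 (compact);
`lintegral_add_left` with `measurable_measure_prodMk_left`; `lintegral_const_mul`;
`lintegral_indicator_const`; `cone1_volume` (ofReal D * ofReal (1/3) = ofReal (D/3)). -/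
theorem fiber_bound {K : Set ((ℝ × ℝ) × ℝ)} (hK : IsCompact K) (hc : Convex ℝ K)
    {p0 : ℝ × ℝ} {z0 D : ℝ} (hD : 0 < D) (ha : (p0, z0) ∈ K) (hb : (p0, z0 + D) ∈ K)
    {Es : Set ((ℝ × ℝ) × ℝ)} (hEm : MeasurableSet Es) (hEK : Es ⊆ K)
    {G : Set (ℝ × ℝ)} (hG : MeasurableSet G) {c0 : ℝ} (hc0 : 0 ≤ c0)
    (H : ∀ k ∈ K, ∀ t ∈ Icc (0 : ℝ) 1,
      (∀ k' ∈ K, ∀ τ ∈ Icc (0 : ℝ) 1,
        (1 - τ) • k'.1 + τ • p0 = (1 - t) • k.1 + t • p0 → τ ≤ t) →
      volume {s : ℝ | s ∈ Icc 0 t ∧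
        ((1 - t) • k.1 + t • p0, (1 - t) * k.2 + t * z0 + s * D) ∈ Es} ≤ ENNReal.ofReal c0 ∧
      ((1 - t) • k.1 + t • p0 ∉ G → ∀ s ∈ Icc 0 t,
        ((1 - t) • k.1 + t • p0, (1 - t) * k.2 + t * z0 + s * D) ∉ Es)) :
    volume Es + ENNReal.ofReal (D / 3) * volume (Prod.fst '' K) ≤
      ENNReal.ofReal (c0 * D) * volume G + volume K := by
  have hP : IsCompact (Prod.fst '' K) := hK.image continuous_fst
  have hCc := cone1_isCompact hP p0
  have hCv := cone1_volume hP p0
  have hKm : MeasurableSet K := hK.measurableSet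
  have hCm : MeasurableSet (cone1 (Prod.fst '' K) p0) := hCc.measurableSet
  have e1 : volume Es = ∫⁻ y, volume {z : ℝ | (y, z) ∈ Es} := by
    rw [Measure.volume_eq_prod, Measure.prod_apply hEm]
    rfl
  have e2 : volume K = ∫⁻ y, volume {z : ℝ | (y, z) ∈ K} := by
    rw [Measure.volume_eq_prod, Measure.prod_apply hKm]
    rfl
  have e3 : volume (cone1 (Prod.fst '' K) p0) =
      ∫⁻ y, volume {τ : ℝ | (y, τ) ∈ cone1 (Prod.fst '' K) p0} := by
    rw [Measure.volume_eq_prod, Measure.prod_apply hCm]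
    rfl
  have m1 : Measurable fun y : ℝ × ℝ => volume {z : ℝ | (y, z) ∈ Es} :=
    measurable_measure_prodMk_left hEm
  have m2 : Measurable fun y : ℝ × ℝ => volume {z : ℝ | (y, z) ∈ K} :=
    measurable_measure_prodMk_left hKm
  have m3 : Measurable fun y : ℝ × ℝ => volume {τ : ℝ | (y, τ) ∈ cone1 (Prod.fst '' K) p0} :=
    measurable_measure_prodMk_left hCm
  have pw := fun y => fiber_pointwise hK hc hD ha hb hEm hEK (G := G) hc0 H y
  calc volume Es + ENNReal.ofReal (D / 3) * volume (Prod.fst '' K)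
      = ∫⁻ y, (volume {z : ℝ | (y, z) ∈ Es} +
          ENNReal.ofReal D * volume {τ : ℝ | (y, τ) ∈ cone1 (Prod.fst '' K) p0}) := by
        rw [lintegral_add_left m1, lintegral_const_mul _ m3, ← e1, ← e3, hCv, ← mul_assoc,
          ← ENNReal.ofReal_mul hD.le]
        congr 3
        ring
    _ ≤ ∫⁻ y, (G.indicator (fun _ => ENNReal.ofReal (c0 * D)) y +
          volume {z : ℝ | (y, z) ∈ K}) := lintegral_mono pw
    _ = ENNReal.ofReal (c0 * D) * volume G + volume K := by
        rw [lintegral_add_right _ m2, lintegral_indicator_const hG, ← e2]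

end Vale.Agent.Lib.P243
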