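import Mathlib
import Vale.Agent.Lib.P243.UniFibre

/-! # P243 universal bound, task E1: the fibre bound in the inner product space -/

namespace Vale.Agent.Lib.P243

open MeasureTheory Set

variable {E : Type*} [NormedAddCommGroup E] [InnerProductSpace ℝ E]

/-- Horizontal coordinates. `shadow2 e f K` is by definition the image of `K` under this map. -/
def pr2 (e f : E) (x : E) : ℝ × ℝ := (inner ℝ e x, inner ℝ f x)

variable [FiniteDimensional ℝ E] [MeasurableSpace E] [BorelSpace E]
  [Fact (Module.finrank ℝ E = 2 + 1)]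

/-- Transport `fiber_bound` by Φ from `exists_coords3 S.hu S.he S.hf S.hue S.huf S.hef`
(see `vol_cylinder_le` in Bridge3.lean for the same transport: Φ '' K compact convex,
volume (Φ '' T) = volume T, Prod.fst '' (Φ '' K) = shadow2 e f K).
Use p0 = pr2 e f a, z0 = <u, a>; Φ b = (p0, z0 + D) since b = a + D u.
Φ ((t - s) a + s b + (1 - t) k) = ((1 - t) (Φ k).1 + t p0, (1 - t) (Φ k).2 + t z0 + s D)
by linearity of the inner product, and Φ is injective. -/
theorem fiber_bound_E {K : Set E} {a b e f u : E} {D : ℝ} (S : Setup K a b e f u D)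
    {Es : Set E} (hEm : MeasurableSet Es) (hEK : Es ⊆ K)
    {G : Set (ℝ × ℝ)} (hG : MeasurableSet G) {c0 : ℝ} (hc0 : 0 ≤ c0)
    (H : ∀ k ∈ K, ∀ t ∈ Icc (0 : ℝ) 1,
      (∀ k' ∈ K, ∀ τ ∈ Icc (0 : ℝ) 1,
        pr2 e f (τ • a + (1 - τ) • k') = pr2 e f (t • a + (1 - t) • k) → τ ≤ t) →
      volume {s : ℝ | s ∈ Icc 0 t ∧ (t - s) • a + s • b + (1 - t) • k ∈ Es} ≤
        ENNReal.ofReal c0 ∧
      (pr2 e f (t • a + (1 - t) • k) ∉ G →
        ∀ s ∈ Icc 0 t, (t - s) • a + s • b + (1 - t) • k ∉ Es)) :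
    volume Es + ENNReal.ofReal (D / 3) * volume (shadow2 e f K) ≤
      ENNReal.ofReal (c0 * D) * volume G + volume K := by
  obtain ⟨Φ, hΦ, hΦa⟩ := exists_coords3 S.hu S.he S.hf S.hue S.huf S.hef
  set g : E → (ℝ × ℝ) × ℝ := fun x => ((inner ℝ e x, inner ℝ f x), inner ℝ u x) with hg
  have hΦg : ∀ T : Set E, Φ '' T = g '' T := fun T => image_congr fun x _ => hΦa x
  have hvol : ∀ T : Set E, volume (g '' T) = volume T := by
    intro T
    rw [← hΦg, MeasurableEquiv.image_eq_preimage_symm, (hΦ.symm Φ).measure_preimage_equiv]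
  have hgc : Continuous g := by fun_prop
  have hK'c : IsCompact (g '' K) := S.cpt.image hgc
  have hK'conv : Convex ℝ (g '' K) := by
    rintro _ ⟨x, hx, rfl⟩ _ ⟨y, hy, rfl⟩ α β hα hβ hαβ
    refine ⟨α • x + β • y, S.conv hx hy hα hβ hαβ, ?_⟩
    simp [hg, inner_add_right, inner_smul_right]
  have hfst : Prod.fst '' (g '' K) = shadow2 e f K := by
    rw [image_image, shadow2]
  have hginj : Function.Injective g := by
    intro x y hxy
    apply Φ.injective
    rw [hΦa, hΦa]
    exact hxy
  have hEm' : MeasurableSet (g '' Es) := by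
    rw [← hΦg]
    exact Φ.measurableSet_image.mpr hEm
  have heu : inner ℝ e u = 0 := by rw [real_inner_comm]; exact S.hue
  have hfu : inner ℝ f u = 0 := by rw [real_inner_comm]; exact S.huf
  have huu : inner ℝ u u = 1 := by rw [real_inner_self_eq_norm_sq, S.hu]; norm_num
  have hpr : ∀ (t : ℝ) (k : E),
      pr2 e f (t • a + (1 - t) • k) = (1 - t) • (g k).1 + t • pr2 e f a := by
    intro t k
    simp only [pr2, hg, inner_add_right, inner_smul_right, Prod.smul_mk, Prod.mk_add_mk,
      smul_eq_mul]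
    ext <;> simp <;> ring
  have hpt : ∀ (t s : ℝ) (k : E), g ((t - s) • a + s • b + (1 - t) • k) =
      ((1 - t) • (g k).1 + t • pr2 e f a, (1 - t) * (g k).2 + t * inner ℝ u a + s * D) := by
    intro t s k
    rw [S.hba]
    simp only [pr2, hg, inner_add_right, inner_smul_right, Prod.smul_mk, Prod.mk_add_mk,
      smul_eq_mul, heu, hfu, huu]
    ext <;> simp <;> ring
  have ha' : (pr2 e f a, inner ℝ u a) ∈ g '' K := ⟨a, S.ha, rfl⟩
  have hb' : (pr2 e f a, inner ℝ u a + D) ∈ g '' K := by
    refine ⟨b, S.hb, ?_⟩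
    rw [S.hba]
    simp only [pr2, hg, inner_add_right, inner_smul_right, heu, hfu, huu]
    simp
  have key := fiber_bound (K := g '' K) hK'c hK'conv (p0 := pr2 e f a) (z0 := inner ℝ u a) S.hD
    ha' hb' hEm' (image_mono hEK) hG hc0 (by
      rintro _ ⟨k, hk, rfl⟩ t ht hmax
      have hmax' : ∀ k' ∈ K, ∀ τ ∈ Icc (0 : ℝ) 1,
          pr2 e f (τ • a + (1 - τ) • k') = pr2 e f (t • a + (1 - t) • k) → τ ≤ t := by
        intro k' hk' τ hτ heq
        apply hmax (g k') ⟨k', hk', rfl⟩ τ hτ
        rw [← hpr, ← hpr]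
        exact heq
      obtain ⟨h1, h2⟩ := H k hk t ht hmax'
      constructor
      · have hset : {s : ℝ | s ∈ Icc 0 t ∧
            ((1 - t) • (g k).1 + t • pr2 e f a, (1 - t) * (g k).2 + t * inner ℝ u a + s * D) ∈
              g '' Es} = {s : ℝ | s ∈ Icc 0 t ∧ (t - s) • a + s • b + (1 - t) • k ∈ Es} := by
          ext s
          simp only [mem_ofPred_eq]
          rw [← hpt, hginj.mem_set_image]
        rw [hset]
        exact h1
      · intro hG' s hs hmem
        rw [← hpt, hginj.mem_set_image] at hmem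
        exact h2 (by rw [hpr]; exact hG') s hs hmem)
  rw [hvol, hvol, hfst] at key
  exact key

/-- `fiber_bound_E` with Es = ∅, G = ∅, c0 = 0. -/
theorem gamma_bound {K : Set E} {a b e f u : E} {D : ℝ} (S : Setup K a b e f u D) :
    ENNReal.ofReal (D / 3) * volume (shadow2 e f K) ≤ volume K := by
  have h := fiber_bound_E S (Es := ∅) MeasurableSet.empty (empty_subset _) (G := ∅)
    MeasurableSet.empty (c0 := 0) le_rfl (by
      intro k _ t _ _
      constructor
      · simp
      · intro _ s _ hs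
        exact hs)
  simpa using h

end Vale.Agent.Lib.P243
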