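import Mathlib
import Vale.Agent.Lib.P243.UniDefs

/-! # P243 universal bound, task F0: measurability and compactness of the basic sets -/

namespace Vale.Agent.Lib.P243

open MeasureTheory Set

variable {E : Type*} [NormedAddCommGroup E] [InnerProductSpace ℝ E]

/-- farSet K L = K ∩ (union over y in K of the open sets {x | L < |x - y|}). -/
theorem farSet_measurable [MeasurableSpace E] [BorelSpace E] {K : Set E} (hK : IsCompact K)
    (L : ℝ) : MeasurableSet (farSet K L) := by
  have h : farSet K L = K ∩ ⋃ y ∈ K, {x | L < ‖x - y‖} := by
    ext x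
    simp [farSet]
  rw [h]
  refine hK.isClosed.measurableSet.inter (IsOpen.measurableSet ?_)
  refine isOpen_biUnion fun y _ => ?_
  exact isOpen_lt continuous_const (continuous_id.sub continuous_const).norm

theorem farSet_subset (K : Set E) (L : ℝ) : farSet K L ⊆ K := fun _ hx => hx.1

theorem sect_subset (K : Set E) (a u : E) (h : ℝ) : sect K a u h ⊆ K := fun _ hx => hx.1

/-- K ∩ closed set. -/
theorem sect_isCompact {K : Set E} (hK : IsCompact K) (a u : E) (h : ℝ) :
    IsCompact (sect K a u h) := by
  have h1 : sect K a u h = K ∩ {x | inner ℝ u (x - a) = h} := rfl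
  rw [h1]
  refine hK.inter_right (isClosed_eq ?_ continuous_const)
  exact continuous_const.inner (continuous_id.sub continuous_const)

theorem sect_convex {K : Set E} (hK : Convex ℝ K) (a u : E) (h : ℝ) :
    Convex ℝ (sect K a u h) := by
  intro x hx y hy s t hs ht hst
  refine ⟨hK hx.1 hy.1 hs ht hst, ?_⟩
  have e : s • x + t • y - a = s • (x - a) + t • (y - a) := by
    have : a = s • a + t • a := by rw [← add_smul, hst, one_smul]
    rw [smul_sub, smul_sub]
    nth_rewrite 1 [this]
    abel
  rw [e, inner_add_right, inner_smul_right, inner_smul_right, hx.2, hy.2, ← add_mul, hst, one_mul]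

/-- continuous image of a compact set. -/
theorem shadow2_isCompact (e f : E) {K : Set E} (hK : IsCompact K) :
    IsCompact (shadow2 e f K) := by
  refine hK.image ?_
  exact (continuous_const.inner continuous_id).prodMk (continuous_const.inner continuous_id)

theorem shadow2_mono (e f : E) {K K' : Set E} (h : K ⊆ K') : shadow2 e f K ⊆ shadow2 e f K' :=
  image_mono h

end Vale.Agent.Lib.P243
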