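import Mathlib
import Vale.Agent.Lib.P243.UniFibreE
import Vale.Agent.Lib.P243.UniFar
import Vale.Agent.Lib.P243.UniMeas

/-! # P243 universal bound, task E2: the far set away from both ends is small -/

namespace Vale.Agent.Lib.P243

open MeasureTheory Set

/-- The area of a planar compact convex set minus its homothetic copy of ratio `1 - 5/10^4`. -/
theorem volume_diff_homothety_le {P : Set (ℝ × ℝ)} (hP : IsCompact P) (hc : Convex ℝ P)
    {p0 : ℝ × ℝ} (hp0 : p0 ∈ P) :
    volume (P \ (fun y : ℝ × ℝ => (1 - 5 / 10 ^ 4 : ℝ) • y + (5 / 10 ^ 4 : ℝ) • p0) '' P) ≤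
      ENNReal.ofReal (1 / 10 ^ 3) * volume P := by
  set P' : Set (ℝ × ℝ) := (fun y : ℝ × ℝ => (1 - 5 / 10 ^ 4 : ℝ) • y + (5 / 10 ^ 4 : ℝ) • p0) '' P
    with hP'
  have hP'c : IsCompact P' := hP.image (by fun_prop)
  have hsub : P' ⊆ P := by
    rintro _ ⟨y, hy, rfl⟩
    exact hc hy hp0 (by norm_num) (by norm_num) (by norm_num)
  have hvol : volume P' = ENNReal.ofReal ((1 - 5 / 10 ^ 4) ^ 2) * volume P := by
    have h1 : P' = AffineMap.homothety p0 (1 - 5 / 10 ^ 4 : ℝ) '' P := by
      rw [hP']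
      refine image_congr fun y _ => ?_
      rw [AffineMap.homothety_apply]
      simp only [vsub_eq_sub, vadd_eq_add, smul_sub]
      have : p0 = (1 - 5 / 10 ^ 4 : ℝ) • p0 + (5 / 10 ^ 4 : ℝ) • p0 := by
        rw [← add_smul]
        norm_num
      nth_rewrite 3 [this]
      abel
    rw [h1, Measure.addHaar_image_homothety]
    have h2 : Module.finrank ℝ (ℝ × ℝ) = 2 := by simp
    rw [h2, abs_of_nonneg (by positivity)]
  have hfin : volume P ≠ ⊤ := hP.measure_lt_top.ne
  have hsplit : volume (P \ P') + volume P' = volume P := by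
    rw [add_comm, ← measure_inter_add_sdiff P hP'c.measurableSet, inter_eq_right.mpr hsub]
  have hle : volume P ≤ ENNReal.ofReal (1 / 10 ^ 3) * volume P + volume P' := by
    rw [hvol, ← add_mul, ← ENNReal.ofReal_add (by positivity) (by positivity)]
    calc volume P = 1 * volume P := (one_mul _).symm
      _ ≤ _ := by
        gcongr
        rw [← ENNReal.ofReal_one]
        exact ENNReal.ofReal_le_ofReal (by norm_num)
  have hfin' : volume P' ≠ ⊤ := hP'c.measure_lt_top.ne
  exact ENNReal.le_of_add_le_add_right hfin' (hsplit.le.trans hle)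

variable {E : Type*} [NormedAddCommGroup E] [InnerProductSpace ℝ E]

theorem pr2_comb (e f : E) (α β : ℝ) (x y : E) :
    pr2 e f (α • x + β • y) = α • pr2 e f x + β • pr2 e f y := by
  simp [pr2, inner_add_right, inner_smul_right]

variable [FiniteDimensional ℝ E]
  [MeasurableSpace E] [BorelSpace E] [Fact (Module.finrank ℝ E = 2 + 1)]

/-- Apply `fiber_bound_E` with Es = the set on the left, c0 = 18/10^12, P = shadow2 e f K,
p0 = pr2 e f a, P' = (fun y => (1 - 5/10^4) • y + (5/10^4) • p0) '' P (compact, contained in P by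
convexity, area (1 - 5/10^4)^2 |P| by `Measure.addHaar_smul`/`addHaar_image_homothety`),
G = P \ P', so |G| = |P| - |P'| ≤ (1/10^3) |P|.
Check of H for k, t: p_s = (t - s) a + s b + (1 - t) k; if p_s in Es then `far_bound`
(la = t - s, lb = s, lk = 1 - t) gives t < 5/10^4 and (t - s < 9/10^12 or s < 9/10^12).
(i) so {s in Icc 0 t | p_s in Es} ⊆ Ico 0 (9/10^12) ∪ Ioc (t - 9/10^12) t, of length ≤ 18/10^12.
(ii) y = pr2 e f (t a + (1 - t) k) lies in P; if it is not in G it lies in P', i.e.
y = pr2 e f ((5/10^4) a + (1 - 5/10^4) k') with k' in K, so 5/10^4 ≤ t by maximality of t, and then no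
p_s lies in Es. -/
theorem alpha_bound {K : Set E} {a b e f u : E} {D : ℝ} (S : Setup K a b e f u D) :
    volume (farSet K ((1 - 1 / 10 ^ 12) * D) \
        (Metric.closedBall a (1 / 10 ^ 4 * D) ∪ Metric.closedBall b (1 / 10 ^ 4 * D))) +
      ENNReal.ofReal (D / 3) * volume (shadow2 e f K) ≤
    ENNReal.ofReal (18 / 10 ^ 15 * D) * volume (shadow2 e f K) + volume K := by
  set Es : Set E := farSet K ((1 - 1 / 10 ^ 12) * D) \
        (Metric.closedBall a (1 / 10 ^ 4 * D) ∪ Metric.closedBall b (1 / 10 ^ 4 * D)) with hEs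
  set P : Set (ℝ × ℝ) := shadow2 e f K with hP
  have hPc : IsCompact P := shadow2_isCompact e f S.cpt
  have hPconv : Convex ℝ P := shadow2_convex e f S.conv
  set p0 : ℝ × ℝ := pr2 e f a with hp0
  have hp0P : p0 ∈ P := ⟨a, S.ha, rfl⟩
  set P' : Set (ℝ × ℝ) := (fun y : ℝ × ℝ => (1 - 5 / 10 ^ 4 : ℝ) • y + (5 / 10 ^ 4 : ℝ) • p0) '' P
    with hP'
  have hP'c : IsCompact P' := hPc.image (by fun_prop)
  have hEm : MeasurableSet Es :=
    (farSet_measurable S.cpt _).diff
      (Metric.isClosed_closedBall.measurableSet.union Metric.isClosed_closedBall.measurableSet)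
  have hEK : Es ⊆ K := fun x hx => farSet_subset _ _ hx.1
  have hGm : MeasurableSet (P \ P') := hPc.measurableSet.diff hP'c.measurableSet
  -- consequence of `far_bound`
  have hfar : ∀ k ∈ K, ∀ t ∈ Icc (0 : ℝ) 1, ∀ s ∈ Icc 0 t,
      (t - s) • a + s • b + (1 - t) • k ∈ Es →
      t < 5 / 10 ^ 4 ∧ (t - s < 9 / 10 ^ 12 ∨ s < 9 / 10 ^ 12) := by
    intro k hk t ht s hs hmem
    have hna : 1 / 10 ^ 4 * D < ‖((t - s) • a + s • b + (1 - t) • k) - a‖ := by
      by_contra hcon
      apply hmem.2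
      left
      rw [Metric.mem_closedBall, dist_eq_norm]
      exact not_lt.mp hcon
    have hnb : 1 / 10 ^ 4 * D < ‖((t - s) • a + s • b + (1 - t) • k) - b‖ := by
      by_contra hcon
      apply hmem.2
      right
      rw [Metric.mem_closedBall, dist_eq_norm]
      exact not_lt.mp hcon
    have := far_bound S hk (la := t - s) (lb := s) (lk := 1 - t) (sub_nonneg.mpr hs.2) hs.1
      (sub_nonneg.mpr ht.2) (by ring) hmem.1 hna hnb
    exact ⟨by linarith [this.1], this.2⟩
  have key := fiber_bound_E S hEm hEK hGm (c0 := 18 / 10 ^ 12) (by positivity) ?_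
  · refine key.trans (add_le_add_left ?_ _)
    calc ENNReal.ofReal (18 / 10 ^ 12 * D) * volume (P \ P')
        ≤ ENNReal.ofReal (18 / 10 ^ 12 * D) * (ENNReal.ofReal (1 / 10 ^ 3) * volume P) := by
          gcongr
          exact volume_diff_homothety_le hPc hPconv hp0P
      _ = ENNReal.ofReal (18 / 10 ^ 15 * D) * volume P := by
          rw [← mul_assoc, ← ENNReal.ofReal_mul (by have := S.hD; positivity)]
          congr 2
          ring
  · intro k hk t ht hmax
    constructor
    · have hsub : {s : ℝ | s ∈ Icc 0 t ∧ (t - s) • a + s • b + (1 - t) • k ∈ Es} ⊆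
          Ico 0 (9 / 10 ^ 12) ∪ Ioc (t - 9 / 10 ^ 12) t := by
        rintro s ⟨hs, hmem⟩
        rcases (hfar k hk t ht s hs hmem).2 with h | h
        · right
          exact ⟨by linarith, hs.2⟩
        · left
          exact ⟨hs.1, h⟩
      refine (measure_mono hsub).trans ((measure_union_le _ _).trans ?_)
      rw [Real.volume_Ico, Real.volume_Ioc, ← ENNReal.ofReal_add (by norm_num) (by norm_num)]
      exact ENNReal.ofReal_le_ofReal (by norm_num)
    · intro hyG s hs hmem
      have hyP : pr2 e f (t • a + (1 - t) • k) ∈ P :=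
        ⟨t • a + (1 - t) • k, S.conv S.ha hk ht.1 (sub_nonneg.mpr ht.2) (by ring), rfl⟩
      have hyP' : pr2 e f (t • a + (1 - t) • k) ∈ P' := by
        by_contra hcon
        exact hyG ⟨hyP, hcon⟩
      obtain ⟨y', ⟨k', hk', rfl⟩, hy'⟩ := hyP'
      have h1 : pr2 e f ((5 / 10 ^ 4 : ℝ) • a + (1 - 5 / 10 ^ 4 : ℝ) • k') =
          pr2 e f (t • a + (1 - t) • k) := by
        rw [← hy', pr2_comb, add_comm]
        rfl
      have h2 := hmax k' hk' (5 / 10 ^ 4) ⟨by norm_num, by norm_num⟩ h1
      have h3 := (hfar k hk t ht s hs hmem).1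
      linarith

end Vale.Agent.Lib.P243
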