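import Mathlib

/-! # P243 universal bound, task G1: the final real arithmetic -/

namespace Vale.Agent.Lib.P243

/-- eta = 1/10^12. Proof.
Case 1: v ≥ (1 + eta/8) D A / 3. Then c ≥ v / D ≥ (1/3 + eta/24) A.
Case 2: v < (1 + eta/8) D A/3 ≤ (1 + eta/8) D P/3, so v - D P/3 < eta v / 8, and D P ≤ 3 v (hγ).
 hα: m ≤ 18/10^15 D P + (v - D P/3) ≤ (0.054 + 0.125) eta v.
 2a: yb < 0.4 eta v. Then xa < 0.579 eta v, so (1 - eta) D c ≥ (1 - 0.579 eta) v and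
   v ≥ D P/3 ≥ D A/3 give c ≥ (A/3)(1 - 0.579 eta)/(1 - eta) ≥ (1/3 + 1/10^14) A.
 2b: ya < 0.4 eta v: the same with xb.
 2c: both ≥ 0.4 eta v. hβa: 10 eta D σa ≥ 0.275 eta v, so D σa ≥ 0.0275 v; the same for σb.
   Then (D - 2 rho D) σa σb ≥ 0.9998 * 0.0275^2 v^2 / D ≥ 51 * 4/10^6 * P v  (as D P ≤ 3 v:
   51 * 4/10^6 * 3 = 6.12/10^4 ≤ 0.9998 * 7.5625/10^4), so hfat gives
   0.9998 D A ≤ 2.996 v, i.e. v ≥ 0.3337 D A, contradicting v < (1 + eta/8) D A/3. -/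
theorem final_arith {D v P A c m ya yb xa xb σa σb : ℝ} (hD : 0 < D) (hv : 0 < v) (hA : 0 < A)
    (hAP : A ≤ P) (hm : 0 ≤ m) (hya : 0 ≤ ya) (hyb : 0 ≤ yb) (hσa : 0 ≤ σa) (hσb : 0 ≤ σb)
    (hc : 0 ≤ c)
    (h0 : v ≤ D * c)
    (ha : v ≤ xa + (1 - 1 / 10 ^ 12) * D * c) (hb : v ≤ xb + (1 - 1 / 10 ^ 12) * D * c)
    (hxa : xa ≤ m + yb) (hxb : xb ≤ m + ya)
    (hγ : D / 3 * P ≤ v)
    (hα : m + D / 3 * P ≤ 18 / 10 ^ 15 * D * P + v)
    (hβa : ya + D / 3 * P ≤ 10 / 10 ^ 12 * D * σa + v)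
    (hβb : yb + D / 3 * P ≤ 10 / 10 ^ 12 * D * σb + v)
    (hfat : 51 * (2 / 10 ^ 3) ^ 2 * P * v ≤ (D - 2 * (1 / 10 ^ 4 * D)) * σa * σb →
      (D - 2 * (1 / 10 ^ 4 * D)) * A ≤ (3 - 2 * (2 / 10 ^ 3)) * v) :
    (1 / 3 + 1 / 10 ^ 14) * A ≤ c := by
  -- new atoms
  obtain ⟨X, hXdef⟩ : ∃ X, X = D * A := ⟨_, rfl⟩
  obtain ⟨Z, hZdef⟩ : ∃ Z, Z = D * P := ⟨_, rfl⟩
  obtain ⟨W, hWdef⟩ : ∃ W, W = D * c := ⟨_, rfl⟩
  obtain ⟨Sa, hSadef⟩ : ∃ Sa, Sa = D * σa := ⟨_, rfl⟩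
  obtain ⟨Sb, hSbdef⟩ : ∃ Sb, Sb = D * σb := ⟨_, rfl⟩
  have hX : 0 < X := by rw [hXdef]; exact mul_pos hD hA
  have hXZ : X ≤ Z := by rw [hXdef, hZdef]; exact mul_le_mul_of_nonneg_left hAP hD.le
  have h0' : v ≤ W := by rw [hWdef]; exact h0
  have ha' : v ≤ xa + (1 - 1 / 10 ^ 12) * W := by rw [hWdef]; linarith
  have hb' : v ≤ xb + (1 - 1 / 10 ^ 12) * W := by rw [hWdef]; linarith
  have hγ' : Z / 3 ≤ v := by rw [hZdef]; linarith
  have hα' : m + Z / 3 ≤ 18 / 10 ^ 15 * Z + v := by rw [hZdef]; linarith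
  have hβa' : ya + Z / 3 ≤ 10 / 10 ^ 12 * Sa + v := by rw [hZdef, hSadef]; linarith
  have hβb' : yb + Z / 3 ≤ 10 / 10 ^ 12 * Sb + v := by rw [hZdef, hSbdef]; linarith
  suffices hgoal : (1 / 3 + 1 / 10 ^ 14) * X ≤ W by
    have h1 : D * ((1 / 3 + 1 / 10 ^ 14) * A) ≤ D * c := by
      rw [hXdef, hWdef] at hgoal
      linarith
    exact le_of_mul_le_mul_left h1 hD
  by_cases h1 : (1 + 1 / 10 ^ 12 / 8) * (X / 3) ≤ v
  · -- Case 1
    linarith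
  · rw [not_le] at h1
    have hm' : m ≤ 179 / 1000 * (1 / 10 ^ 12) * v := by linarith
    by_cases h2a : yb < 4 / 10 * (1 / 10 ^ 12) * v
    · linarith
    · by_cases h2b : ya < 4 / 10 * (1 / 10 ^ 12) * v
      · linarith
      · exfalso
        rw [not_lt] at h2a h2b
        have hSa : 275 / 10000 * v ≤ Sa := by linarith
        have hSb : 275 / 10000 * v ≤ Sb := by linarith
        have hprod : (275 / 10000 * v) * (275 / 10000 * v) ≤ Sa * Sb :=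
          mul_le_mul hSa hSb (by positivity) (le_trans (by positivity) hSa)
        have hZv : Z * v ≤ 3 * v * v := by
          have : Z ≤ 3 * v := by linarith
          exact mul_le_mul_of_nonneg_right this hv.le
        have hvv : 0 < v * v := mul_pos hv hv
        have hprem : 51 * (2 / 10 ^ 3) ^ 2 * P * v ≤ (D - 2 * (1 / 10 ^ 4 * D)) * σa * σb := by
          have h3 : D * (51 * (2 / 10 ^ 3) ^ 2 * P * v)
              ≤ D * ((D - 2 * (1 / 10 ^ 4 * D)) * σa * σb) := by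
            have e1 : D * (51 * (2 / 10 ^ 3) ^ 2 * P * v) = 51 * (2 / 10 ^ 3) ^ 2 * (Z * v) := by
              rw [hZdef]; ring
            have e2 : D * ((D - 2 * (1 / 10 ^ 4 * D)) * σa * σb)
                = (1 - 2 / 10 ^ 4) * (Sa * Sb) := by
              rw [hSadef, hSbdef]; ring
            rw [e1, e2]
            nlinarith
          exact le_of_mul_le_mul_left h3 hD
        have h4 := hfat hprem
        have h5 : (1 - 2 / 10 ^ 4) * X ≤ (3 - 2 * (2 / 10 ^ 3)) * v := by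
          rw [hXdef]; linarith
        linarith

end Vale.Agent.Lib.P243
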