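import Mathlib
import Vale.Agent.Lib.P243.UniDefs
import Vale.Agent.Lib.P243.Pre19

/-! # P243 universal bound, task C1: the averaging identity for overlaps of translates -/

namespace Vale.Agent.Lib.P243

open MeasureTheory Set

/-- Tonelli: the left side is the double integral of 1_A(y) 1_B(y + w); integrate in w first
(translation invariance: the integral of 1_B(y + w) dw is |B|). -/
theorem lintegral_overlap {A B : Set (ℝ × ℝ)} (hA : MeasurableSet A) (hB : MeasurableSet B) :
    ∫⁻ w : ℝ × ℝ, volume {y : ℝ × ℝ | y ∈ A ∧ y + w ∈ B} = volume A * volume B :=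
  lintegral_measure_inter_shift (volume : Measure (ℝ × ℝ)) hA hB

end Vale.Agent.Lib.P243
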