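import Mathlib
import Vale.Agent.Lib.P243.UniStewart

/-! # P243 universal bound, task A2: far points near the end `a` -/

namespace Vale.Agent.Lib.P243

open MeasureTheory Set

variable {E : Type*} [NormedAddCommGroup E] [InnerProductSpace ℝ E]

/-- The real arithmetic behind `near_bound`. -/
theorem near_arith {D A B h la lb lk : ℝ} (hD : 0 < D) (hA : 0 ≤ A) (hB : 0 ≤ B)
    (ha : 0 ≤ la) (hb : 0 ≤ lb) (hk : 0 ≤ lk) (hsum : la + lb + lk = 1)
    (hbr : la * lb * D ^ 2 + la * lk * A ^ 2 + lb * lk * B ^ 2 < 2 / 10 ^ 12 * D ^ 2)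
    (hh : 0 ≤ h) (hlin : lb * D + lk * h ≤ 1 / 10 ^ 4 * D) (hAh : A ^ 2 ≤ 2 * D * h)
    (htri : D ≤ A + B) : lb < 9 / 10 ^ 12 := by
  have hlb : lb ≤ 1 / 10 ^ 4 := by
    have h1 : lb * D ≤ 1 / 10 ^ 4 * D := by nlinarith [mul_nonneg hk hh]
    exact le_of_mul_le_mul_right h1 hD
  have hD2 : 0 < D ^ 2 := by positivity
  have e1 : 0 ≤ la * lk * A ^ 2 := by positivity
  have e0 : 0 ≤ lb * lk * B ^ 2 := by positivity
  rcases le_or_gt (D / 2) B with hB2 | hB2
  · have hBB : D ^ 2 / 4 ≤ B ^ 2 := by nlinarith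
    have e2 : lb * lk * (D ^ 2 / 4) ≤ lb * lk * B ^ 2 :=
      mul_le_mul_of_nonneg_left hBB (by positivity)
    have e3 : la * lb * (D ^ 2 / 4) ≤ la * lb * D ^ 2 := by
      apply mul_le_mul_of_nonneg_left _ (by positivity)
      linarith
    have e4 : lb * (1 - lb) * (D ^ 2 / 4) = la * lb * (D ^ 2 / 4) + lb * lk * (D ^ 2 / 4) := by
      have h5 : 1 - lb = la + lk := by linarith
      rw [h5]; ring
    have h3 : lb * (1 - lb) / 4 < 2 / 10 ^ 12 := by
      have h6 : (lb * (1 - lb) / 4) * D ^ 2 < 2 / 10 ^ 12 * D ^ 2 := by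
        have h7 : (lb * (1 - lb) / 4) * D ^ 2 = lb * (1 - lb) * (D ^ 2 / 4) := by ring
        linarith
      exact lt_of_mul_lt_mul_right h6 hD2.le
    have h8 : lb * (1 - 1 / 10 ^ 4) ≤ lb * (1 - lb) :=
      mul_le_mul_of_nonneg_left (by linarith) hb
    norm_num at h3 h8 ⊢
    linarith
  · have hA2 : D / 2 < A := by linarith
    have hAA : D ^ 2 / 4 < A ^ 2 := by nlinarith
    have hh8 : D / 8 < h := by
      have h1 : D * (D / 8) < D * h := by nlinarith
      exact lt_of_mul_lt_mul_left h1 hD.le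
    have hlk : lk ≤ 8 / 10 ^ 4 := by
      have h1 : lk * (D / 8) ≤ lk * h := mul_le_mul_of_nonneg_left hh8.le hk
      have h2 : lk * D ≤ 8 / 10 ^ 4 * D := by nlinarith [mul_nonneg hb hD.le]
      exact le_of_mul_le_mul_right h2 hD
    have hla : 1 - 9 / 10 ^ 4 ≤ la := by
      norm_num at hlk hlb ⊢
      linarith
    have h3 : la * lb < 2 / 10 ^ 12 := by
      have h6 : (la * lb) * D ^ 2 < 2 / 10 ^ 12 * D ^ 2 := by linarith
      exact lt_of_mul_lt_mul_right h6 hD2.le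
    have h8 : (1 - 9 / 10 ^ 4) * lb ≤ la * lb := mul_le_mul_of_nonneg_right hla hb
    norm_num at h3 h8 ⊢
    linarith

/-- Proof. Put p = la a + lb b + lk k, eta = 1/10^12, rho = 1/10^4, A = |a-k|, B = |b-k|.
`far_bracket`: la lb D^2 + la lk A^2 + lb lk B^2 < 2 eta D^2.
p - a = lb (b - a) + lk (k - a), so <u, p - a> = lb D + lk <u, k - a> with <u, k - a> ≥ 0
(`height_nonneg`) and <u, p - a> ≤ |p - a| ≤ rho D. Hence lb ≤ rho.
Case B ≥ D/2: bracket ≥ lb (la D^2 + lk B^2) ≥ lb (la + lk) D^2/4 = lb (1 - lb) D^2 / 4, so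
lb < 8 eta / (1 - rho) < 9 eta.
Case B < D/2: A ≥ D - B > D/2 (triangle inequality, `norm_ab`), `height_ge` gives
<u, k - a> ≥ A^2/(2D) > D/8, so lk D/8 ≤ rho D, lk ≤ 8 rho, la ≥ 1 - 9 rho and
bracket ≥ la lb D^2 gives lb < 2 eta/(1 - 9 rho) < 9 eta. -/
theorem near_bound {K : Set E} {a b e f u : E} {D : ℝ} (S : Setup K a b e f u D)
    {k : E} (hkK : k ∈ K) {la lb lk : ℝ} (ha : 0 ≤ la) (hb : 0 ≤ lb) (hk : 0 ≤ lk)
    (hsum : la + lb + lk = 1)
    (hV : la • a + lb • b + lk • k ∈ farSet K ((1 - 1 / 10 ^ 12) * D))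
    (hn : ‖(la • a + lb • b + lk • k) - a‖ ≤ 1 / 10 ^ 4 * D) :
    lb < 9 / 10 ^ 12 := by
  have hbr := far_bracket S hkK ha hb hk hsum hV
  have hh := height_nonneg S hkK
  have hAh := height_ge S hkK
  have hle := height_le_norm S (la • a + lb • b + lk • k)
  have hab := norm_ab S
  have hpa : (la • a + lb • b + lk • k) - a = (lb * D) • u + lk • (k - a) := by
    have hla : la = 1 - lb - lk := by linarith
    rw [S.hba, hla]
    module
  have hin : inner ℝ u ((la • a + lb • b + lk • k) - a) = lb * D + lk * inner ℝ u (k - a) := by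
    rw [hpa, inner_add_right, inner_smul_right, inner_smul_right, real_inner_self_eq_norm_sq,
      S.hu]
    ring
  have hlin : lb * D + lk * inner ℝ u (k - a) ≤ 1 / 10 ^ 4 * D := by
    rw [← hin]; exact hle.trans hn
  have htri : D ≤ ‖a - k‖ + ‖b - k‖ := by
    rw [← hab]
    have h1 : a - b = (a - k) - (b - k) := by abel
    rw [h1]
    exact norm_sub_le _ _
  have hAh' : ‖a - k‖ ^ 2 ≤ 2 * D * inner ℝ u (k - a) := by
    rw [norm_sub_rev]; exact hAh
  exact near_arith S.hD (norm_nonneg _) (norm_nonneg _) ha hb hk hsum hbr hh hlin hAh' htri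

end Vale.Agent.Lib.P243
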