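import Mathlib
import Vale.Agent.Lib.P243.UniFibreE
import Vale.Agent.Lib.P243.UniNear
import Vale.Agent.Lib.P243.UniMeas

/-! # P243 universal bound, task E3: the far set near the end `a` is controlled by a section -/

namespace Vale.Agent.Lib.P243

open MeasureTheory Set

variable {E : Type*} [NormedAddCommGroup E] [InnerProductSpace ℝ E] [FiniteDimensional ℝ E]
  [MeasurableSpace E] [BorelSpace E] [Fact (Module.finrank ℝ E = 2 + 1)]

omit [FiniteDimensional ℝ E] [MeasurableSpace E] [BorelSpace E]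
  [Fact (Module.finrank ℝ E = 2 + 1)] in
theorem pr2_add (e f x y : E) : pr2 e f (x + y) = pr2 e f x + pr2 e f y := by
  simp [pr2, inner_add_right]

omit [FiniteDimensional ℝ E] [MeasurableSpace E] [BorelSpace E]
  [Fact (Module.finrank ℝ E = 2 + 1)] in
theorem pr2_smul (e f : E) (c : ℝ) (x : E) : pr2 e f (c • x) = c • pr2 e f x := by
  simp [pr2, inner_smul_right]

omit [FiniteDimensional ℝ E] [MeasurableSpace E] [BorelSpace E]
  [Fact (Module.finrank ℝ E = 2 + 1)] in
theorem Setup.pr2_b {K : Set E} {a b e f u : E} {D : ℝ} (S : Setup K a b e f u D) :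
    pr2 e f b = pr2 e f a := by
  rw [S.hba, pr2_add, pr2_smul]
  have : pr2 e f u = 0 := by
    simp only [pr2]
    rw [real_inner_comm, S.hue, real_inner_comm, S.huf]
    rfl
  rw [this, smul_zero, add_zero]

omit [FiniteDimensional ℝ E] [MeasurableSpace E] [BorelSpace E]
  [Fact (Module.finrank ℝ E = 2 + 1)] in
/-- Geometric step. rho = 1/10^4, z = <u, p - a> in [0, rho D] (`height_nonneg`,
`height_le_norm`). The point x = (1 - rho) p + (rho - (1 - rho) z / D) b + ((1 - rho) z / D) a is a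
convex combination of points of K, has height (1 - rho) z + (rho - (1 - rho) z/D) D = rho D and
horizontal coordinates (1 - rho) pr2 p + rho pr2 a (as pr2 b = pr2 a). -/
theorem section_contains {K : Set E} {a b e f u : E} {D : ℝ} (S : Setup K a b e f u D)
    {p : E} (hp : p ∈ K) (hn : ‖p - a‖ ≤ 1 / 10 ^ 4 * D) :
    (1 - 1 / 10 ^ 4 : ℝ) • pr2 e f p + (1 / 10 ^ 4 : ℝ) • pr2 e f a ∈
      shadow2 e f (sect K a u (1 / 10 ^ 4 * D)) := by
  have hD := S.hD
  set z : ℝ := inner ℝ u (p - a) with hz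
  have hz0 : 0 ≤ z := height_nonneg S hp
  have hz1 : z ≤ 1 / 10 ^ 4 * D := (height_le_norm S p).trans hn
  set c : ℝ := (1 - 1 / 10 ^ 4) * z / D with hc
  have hc0 : 0 ≤ c := by rw [hc]; apply div_nonneg (mul_nonneg (by norm_num) hz0) hD.le
  have hcD : c * D = (1 - 1 / 10 ^ 4) * z := by rw [hc]; field_simp
  have hc1 : c ≤ 1 / 10 ^ 4 := by
    have : c * D ≤ 1 / 10 ^ 4 * D := by rw [hcD]; nlinarith
    exact le_of_mul_le_mul_right this hD
  set x : E := (1 - 1 / 10 ^ 4 : ℝ) • p + ((1 / 10 ^ 4 - c) • b + c • a) with hx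
  have hxK : x ∈ K := by
    have h1 : (1 / 10 ^ 4 - c) • b + c • a
        = (1 / 10 ^ 4 : ℝ) • ((1 - 10 ^ 4 * c) • b + (10 ^ 4 * c) • a) := by
      rw [smul_add, smul_smul, smul_smul]
      congr 2 <;> ring
    have h2 : (1 - 10 ^ 4 * c) • b + (10 ^ 4 * c) • a ∈ K :=
      S.conv S.hb S.ha (by linarith) (by positivity) (by ring)
    rw [hx, h1]
    exact S.conv hp h2 (by norm_num) (by norm_num) (by norm_num)
  refine ⟨x, ⟨hxK, ?_⟩, ?_⟩
  · have e1 : x - a = (1 - 1 / 10 ^ 4 : ℝ) • (p - a) + ((1 / 10 ^ 4 - c) * D) • u := by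
      rw [hx, S.hba]
      simp only [smul_sub, smul_add, sub_smul, mul_smul, one_smul]
      abel
    rw [e1, inner_add_right, inner_smul_right, inner_smul_right, real_inner_self_eq_norm_sq,
      S.hu, ← hz]
    nlinarith
  · show pr2 e f x = _
    rw [hx, pr2_add, pr2_add, pr2_smul, pr2_smul, pr2_smul, S.pr2_b, ← add_smul]
    congr 2
    ring

/-- Apply `fiber_bound_E` with Es = the set on the left, c0 = 9/10^12,
F = shadow2 e f (sect K a u (rho D)) (compact), p0 = pr2 e f a,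
G = {y | (1 - rho) • y + rho • p0 in F} (closed, a homothetic copy of F:
area (1 - rho)^(-2) |F|, and 9 (1 - rho)^(-2) ≤ 10).
Check of H: p_s = (t - s) a + s b + (1 - t) k. (i) p_s in Es gives s < 9/10^12 by `near_bound`
(la = t - s, lb = s, lk = 1 - t), so the set is contained in Ico 0 (9/10^12).
(ii) pr2 p_s = pr2 (t a + (1 - t) k) as pr2 b = pr2 a; if p_s in Es then `section_contains` shows
that this point lies in G. -/
theorem beta_bound {K : Set E} {a b e f u : E} {D : ℝ} (S : Setup K a b e f u D) :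
    volume (farSet K ((1 - 1 / 10 ^ 12) * D) ∩ Metric.closedBall a (1 / 10 ^ 4 * D)) +
      ENNReal.ofReal (D / 3) * volume (shadow2 e f K) ≤
    ENNReal.ofReal (10 / 10 ^ 12 * D) * volume (shadow2 e f (sect K a u (1 / 10 ^ 4 * D))) +
      volume K := by
  have hD := S.hD
  set F : Set (ℝ × ℝ) := shadow2 e f (sect K a u (1 / 10 ^ 4 * D)) with hF
  have hFc : IsCompact F := shadow2_isCompact e f (sect_isCompact S.cpt a u _)
  set p0 : ℝ × ℝ := pr2 e f a with hp0
  set G : Set (ℝ × ℝ) := {y | (1 - 1 / 10 ^ 4 : ℝ) • y + (1 / 10 ^ 4 : ℝ) • p0 ∈ F} with hG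
  have hGpre : G = (fun y : ℝ × ℝ => (1 - 1 / 10 ^ 4 : ℝ) • y) ⁻¹'
      ((fun y : ℝ × ℝ => y + (1 / 10 ^ 4 : ℝ) • p0) ⁻¹' F) := rfl
  have hGm : MeasurableSet G := by
    rw [hGpre]
    exact (measurable_const_smul _) ((measurable_add_const _) hFc.measurableSet)
  have hGv : volume G = ENNReal.ofReal (((1 - 1 / 10 ^ 4 : ℝ) ^ 2)⁻¹) * volume F := by
    rw [hGpre, Measure.addHaar_preimage_smul _ (by norm_num), measure_preimage_add_right]
    congr 2
    have : Module.finrank ℝ (ℝ × ℝ) = 2 := by simp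
    rw [this, abs_of_nonneg (by positivity)]
  set Es : Set E := farSet K ((1 - 1 / 10 ^ 12) * D) ∩ Metric.closedBall a (1 / 10 ^ 4 * D)
    with hEs
  have hEm : MeasurableSet Es :=
    (farSet_measurable S.cpt _).inter Metric.isClosed_closedBall.measurableSet
  have hEK : Es ⊆ K := fun x hx => farSet_subset K _ hx.1
  have key := fiber_bound_E S hEm hEK hGm (c0 := 9 / 10 ^ 12) (by norm_num) ?_
  · refine key.trans ?_
    refine add_le_add ?_ le_rfl
    rw [hGv, ← mul_assoc, ← ENNReal.ofReal_mul (by positivity)]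
    refine mul_le_mul' (ENNReal.ofReal_le_ofReal ?_) le_rfl
    have : (9 / 10 ^ 12 : ℝ) * ((1 - 1 / 10 ^ 4 : ℝ) ^ 2)⁻¹ ≤ 10 / 10 ^ 12 := by norm_num
    calc (9 / 10 ^ 12 : ℝ) * D * ((1 - 1 / 10 ^ 4 : ℝ) ^ 2)⁻¹
        = ((9 / 10 ^ 12 : ℝ) * ((1 - 1 / 10 ^ 4 : ℝ) ^ 2)⁻¹) * D := by ring
      _ ≤ 10 / 10 ^ 12 * D := by gcongr
  · intro k hk t ht _
    refine ⟨?_, ?_⟩
    · have hsub : {s : ℝ | s ∈ Icc 0 t ∧ (t - s) • a + s • b + (1 - t) • k ∈ Es}
          ⊆ Icc 0 (9 / 10 ^ 12) := by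
        rintro s ⟨hs, hsE⟩
        refine ⟨hs.1, le_of_lt ?_⟩
        refine near_bound S hk (la := t - s) (lb := s) (lk := 1 - t) (by linarith [hs.2]) hs.1
          (by linarith [ht.2]) (by ring) hsE.1 ?_
        have := hsE.2
        rwa [Metric.mem_closedBall, dist_eq_norm] at this
      refine (measure_mono hsub).trans ?_
      rw [Real.volume_Icc, sub_zero]
    · intro hnG s hs hsE
      apply hnG
      have hpK : (t - s) • a + s • b + (1 - t) • k ∈ K := hEK hsE
      have hn : ‖(t - s) • a + s • b + (1 - t) • k - a‖ ≤ 1 / 10 ^ 4 * D := by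
        have := hsE.2
        rwa [Metric.mem_closedBall, dist_eq_norm] at this
      have h1 := section_contains S hpK hn
      have h2 : pr2 e f ((t - s) • a + s • b + (1 - t) • k) = pr2 e f (t • a + (1 - t) • k) := by
        simp only [pr2_add, pr2_smul, S.pr2_b]
        rw [← add_smul]
        congr 2
        ring
      rw [h2] at h1
      exact h1

end Vale.Agent.Lib.P243
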