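import Mathlib
import Vale.Agent.Lib.P243.UniDefs

/-! # P243 universal bound, task F1: a set of diameter at most L costs at least volume / L -/

namespace Vale.Agent.Lib.P243

open MeasureTheory Set

variable {E : Type*} [NormedAddCommGroup E] [InnerProductSpace ℝ E] [FiniteDimensional ℝ E]
  [MeasurableSpace E] [BorelSpace E] [Fact (Module.finrank ℝ E = 2 + 1)]

/-- A set of reals with all mutual distances at most L has Lebesgue measure at most L. -/
theorem volume_le_of_dist_le {T : Set ℝ} {L : ℝ}
    (hT : ∀ r ∈ T, ∀ s ∈ T, |r - s| ≤ L) : volume T ≤ ENNReal.ofReal L := by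
  rcases T.eq_empty_or_nonempty with rfl | ⟨r0, hr0⟩
  · simp
  · have hbdd : BddBelow T := ⟨r0 - L, fun r hr => by
      have := hT r0 hr0 r hr
      have := (abs_le.mp this).2
      linarith⟩
    have hsub : T ⊆ Icc (sInf T) (sInf T + L) := by
      intro r hr
      refine ⟨csInf_le hbdd hr, ?_⟩
      have : r - L ≤ sInf T := by
        apply le_csInf ⟨r0, hr0⟩
        intro s hs
        have := hT r hr s hs
        have := (abs_le.mp this).2
        linarith
      linarith
    calc volume T ≤ volume (Icc (sInf T) (sInf T + L)) := measure_mono hsub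
      _ = ENNReal.ofReal L := by
        rw [Real.volume_Icc]
        congr 1
        ring

/-- Proof. Apply `lintegral_le_of_xray` to F = S.indicator (fun _ => ENNReal.ofReal (1/L)).
X-ray: for a unit vector w and a point x the set T = {r | x + r w in S} has |r - r'| ≤ L for
r, r' in T, so it is contained in an interval of length L (empty, or Icc (sInf T) (sInf T + L),
or: fix r0 in T ... use Icc (sSup T - L) (sSup T)); hence the integral of F (x + r w) dr is
(1/L) * volume T ≤ 1. The integral of F over S is (1/L) volume S. -/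
theorem cert_diam {S : Set E} (hS : MeasurableSet S) {L : ℝ} (hL : 0 < L)
    (hd : ∀ x ∈ S, ∀ y ∈ S, ‖x - y‖ ≤ L)
    {m : ℕ} (u : Fin m → E) (hu : ∀ i, ‖u i‖ = 1) (B : ∀ i, Set (ℝ ∙ u i)ᗮ)
    (hcov : ∀ x ∈ S, ∃ i, ∃ p ∈ B i, ∃ r : ℝ, x = (p : E) + r • u i) :
    volume S ≤ ENNReal.ofReal L * ∑ i, volume (B i) := by
  set c : ENNReal := ENNReal.ofReal (1 / L) with hc
  have hcL : ENNReal.ofReal L * c = 1 := by
    rw [hc, ← ENNReal.ofReal_mul hL.le]
    rw [mul_one_div_cancel hL.ne']
    simp
  have hF : Measurable (S.indicator (fun _ => c)) := measurable_const.indicator hS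
  have hX : ∀ w : E, ‖w‖ = 1 → ∀ x : E,
      ∫⁻ r : ℝ, S.indicator (fun _ => c) (x + r • w) ≤ 1 := by
    intro w hw x
    have hmeas : Measurable (fun r : ℝ => x + r • w) := by fun_prop
    have hTm : MeasurableSet ((fun r : ℝ => x + r • w) ⁻¹' S) := hmeas hS
    have heq : (fun r : ℝ => S.indicator (fun _ => c) (x + r • w))
        = ((fun r : ℝ => x + r • w) ⁻¹' S).indicator (fun _ => c) := by
      funext r
      rfl
    rw [heq, lintegral_indicator hTm, setLIntegral_const]
    have hvol : volume ((fun r : ℝ => x + r • w) ⁻¹' S) ≤ ENNReal.ofReal L := by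
      apply volume_le_of_dist_le
      intro r hr s hs
      have h := hd _ hr _ hs
      have h2 : (x + r • w) - (x + s • w) = (r - s) • w := by
        rw [sub_smul]; abel
      rw [h2, norm_smul, hw, mul_one, Real.norm_eq_abs] at h
      exact h
    calc c * volume ((fun r : ℝ => x + r • w) ⁻¹' S) ≤ c * ENNReal.ofReal L := by gcongr
      _ = 1 := by rw [mul_comm]; exact hcL
  have hmain := lintegral_le_of_xray hF hX (S := S) u hu B hcov
  rw [lintegral_indicator hS, Measure.restrict_restrict hS, inter_self, setLIntegral_const]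
    at hmain
  calc volume S = (ENNReal.ofReal L * c) * volume S := by rw [hcL, one_mul]
    _ = ENNReal.ofReal L * (c * volume S) := by rw [mul_assoc]
    _ ≤ ENNReal.ofReal L * ∑ i, volume (B i) := by gcongr

end Vale.Agent.Lib.P243
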