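import Mathlib
import Vale.Agent.Lib.P243.UniCert
import Vale.Agent.Lib.P243.UniMeas

/-! # P243 universal bound, task F2: the two certificates -/

namespace Vale.Agent.Lib.P243

open MeasureTheory Set

variable {E : Type*} [NormedAddCommGroup E] [InnerProductSpace ℝ E] [FiniteDimensional ℝ E]
  [MeasurableSpace E] [BorelSpace E] [Fact (Module.finrank ℝ E = 2 + 1)]

/-- `cert_diam` with S = K, L = D. -/
theorem cert_all {K : Set E} {a b e f u : E} {D : ℝ} (S : Setup K a b e f u D)
    {m : ℕ} (w : Fin m → E) (hw : ∀ i, ‖w i‖ = 1) (B : ∀ i, Set (ℝ ∙ w i)ᗮ)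
    (hcov : ∀ x ∈ K, ∃ i, ∃ p ∈ B i, ∃ r : ℝ, x = (p : E) + r • w i) :
    volume K ≤ ENNReal.ofReal D * ∑ i, volume (B i) :=
  cert_diam S.cpt.isClosed.measurableSet S.hD S.diam w hw B hcov

/-- Let V = farSet K ((1 - eta) D), Ba = closedBall a (rho D), T = K \ (V \ Ba) (measurable).
T has diameter ≤ (1 - eta) D: for x, y in T, if x is not in V then |x - y| ≤ (1 - eta) D by the
definition of farSet (y in K); same if y is not in V; otherwise both lie in Ba and
|x - y| ≤ 2 rho D ≤ (1 - eta) D. `cert_diam` for T, and volume K ≤ volume (V \ Ba) + volume T. -/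
theorem cert_end {K : Set E} {a b e f u : E} {D : ℝ} (S : Setup K a b e f u D)
    {m : ℕ} (w : Fin m → E) (hw : ∀ i, ‖w i‖ = 1) (B : ∀ i, Set (ℝ ∙ w i)ᗮ)
    (hcov : ∀ x ∈ K, ∃ i, ∃ p ∈ B i, ∃ r : ℝ, x = (p : E) + r • w i) :
    volume K ≤ volume (farSet K ((1 - 1 / 10 ^ 12) * D) \ Metric.closedBall a (1 / 10 ^ 4 * D)) +
      ENNReal.ofReal ((1 - 1 / 10 ^ 12) * D) * ∑ i, volume (B i) := by
  set L : ℝ := (1 - 1 / 10 ^ 12) * D with hL
  set V := farSet K L with hV
  set Ba := Metric.closedBall a (1 / 10 ^ 4 * D) with hBa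
  have hD := S.hD
  have hLpos : 0 < L := by
    rw [hL]
    have : (0 : ℝ) < 1 - 1 / 10 ^ 12 := by norm_num
    positivity
  have hVm : MeasurableSet V := farSet_measurable S.cpt L
  have hBm : MeasurableSet Ba := Metric.isClosed_closedBall.measurableSet
  have hKm : MeasurableSet K := S.cpt.isClosed.measurableSet
  set T := K \ (V \ Ba) with hT
  have hTm : MeasurableSet T := hKm.diff (hVm.diff hBm)
  have hnotV : ∀ x ∈ K, x ∉ V → ∀ y ∈ K, ‖x - y‖ ≤ L := by
    intro x hx hxV y hy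
    by_contra hcon
    rw [not_le] at hcon
    exact hxV ⟨hx, y, hy, hcon⟩
  have hdiam : ∀ x ∈ T, ∀ y ∈ T, ‖x - y‖ ≤ L := by
    intro x hx y hy
    by_cases hxV : x ∈ V
    · by_cases hyV : y ∈ V
      · have hxB : x ∈ Ba := by
          by_contra hcon
          exact hx.2 ⟨hxV, hcon⟩
        have hyB : y ∈ Ba := by
          by_contra hcon
          exact hy.2 ⟨hyV, hcon⟩
        rw [hBa, Metric.mem_closedBall, dist_eq_norm] at hxB hyB
        have h1 : ‖x - y‖ ≤ ‖x - a‖ + ‖y - a‖ := by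
          have : x - y = (x - a) - (y - a) := by abel
          rw [this]
          exact norm_sub_le _ _
        have h2 : 2 * (1 / 10 ^ 4 * D) ≤ L := by
          rw [hL]
          nlinarith
        linarith
      · have := hnotV y hy.1 hyV x hx.1
        rwa [norm_sub_rev] at this
    · exact hnotV x hx.1 hxV y hy.1
  have hcert := cert_diam hTm hLpos hdiam w hw B (fun x hx => hcov x hx.1)
  have hsub : K ⊆ (V \ Ba) ∪ T := by
    intro x hx
    by_cases h : x ∈ V \ Ba
    · exact Or.inl h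
    · exact Or.inr ⟨hx, h⟩
  calc volume K ≤ volume ((V \ Ba) ∪ T) := measure_mono hsub
    _ ≤ volume (V \ Ba) + volume T := measure_union_le _ _
    _ ≤ volume (V \ Ba) + ENNReal.ofReal L * ∑ i, volume (B i) := by gcongr

end Vale.Agent.Lib.P243
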