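import Mathlib
import Vale.Agent.Lib.P243.UniAvg

/-! # P243 universal bound, task C2: a weak Rogers-Shephard inequality in the plane -/

namespace Vale.Agent.Lib.P243

open MeasureTheory Set
open scoped Pointwise

/-- The difference body is compact (image of P x P under subtraction). -/
theorem diffBody_isCompact {P : Set (ℝ × ℝ)} (hP : IsCompact P) :
    IsCompact {w : ℝ × ℝ | ∃ p ∈ P, ∃ q ∈ P, w = p - q} := by
  have h := (hP.prod hP).image (f := fun z : (ℝ × ℝ) × (ℝ × ℝ) => z.1 - z.2) (by fun_prop)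
  convert h using 1
  ext w
  constructor
  · rintro ⟨p, hp, q, hq, rfl⟩
    exact ⟨(p, q), ⟨hp, hq⟩, rfl⟩
  · rintro ⟨⟨p, q⟩, ⟨hp, hq⟩, rfl⟩
    exact ⟨p, hp, q, hq, rfl⟩

/-- Proof. Let Δ = P - P and g(w) = |{y in P : y + w in P}|. `lintegral_overlap`: the integral of g
is |P|^2. If w = (1/2)(p - q) with p, q in P then {y in P : y + w in P} contains
(1/2) P + (1/2) q  (y = x/2 + q/2 in P and y + w = x/2 + p/2 in P by convexity), which has area
|P|/4 (`Measure.addHaar_smul`, finrank = 2). So g ≥ |P|/4 on (1/2) Δ, which has area |Δ|/4: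
|Δ|/4 * |P|/4 ≤ |P|^2; divide by |P| (positive and finite). -/
theorem volume_diffBody_le {P : Set (ℝ × ℝ)} (hP : IsCompact P) (hc : Convex ℝ P)
    (hpos : 0 < volume P) :
    volume {w : ℝ × ℝ | ∃ p ∈ P, ∃ q ∈ P, w = p - q} ≤ 16 * volume P := by
  have hcomp := diffBody_isCompact hP
  set Δ : Set (ℝ × ℝ) := {w : ℝ × ℝ | ∃ p ∈ P, ∃ q ∈ P, w = p - q} with hΔ
  have hfin : volume P ≠ ⊤ := hP.measure_lt_top.ne
  have hfr : Module.finrank ℝ (ℝ × ℝ) = 2 := by simp
  have hsm : ∀ s : Set (ℝ × ℝ), volume ((1/2 : ℝ) • s) = (1/4 : ENNReal) * volume s := by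
    intro s
    rw [Measure.addHaar_smul, hfr]
    congr 1
    have : |((1:ℝ)/2) ^ 2| = 1/4 := by norm_num
    rw [this, ENNReal.ofReal_div_of_pos (by norm_num)]
    norm_num
  have hg : ∀ w ∈ (1/2 : ℝ) • Δ,
      (1/4 : ENNReal) * volume P ≤ volume {y : ℝ × ℝ | y ∈ P ∧ y + w ∈ P} := by
    rintro w ⟨d, ⟨p, hp, q, hq, rfl⟩, rfl⟩
    rw [← hsm P, ← measure_preimage_add_right volume ((1/2 : ℝ) • q)
      {y : ℝ × ℝ | y ∈ P ∧ y + (fun x => (1/2 : ℝ) • x) (p - q) ∈ P}]
    refine measure_mono ?_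
    rintro y ⟨x, hx, rfl⟩
    constructor
    · exact hc hx hq (by norm_num) (by norm_num) (by norm_num)
    · have h1 := hc hx hp (a := 1/2) (b := 1/2) (by norm_num) (by norm_num) (by norm_num)
      have h2 : (fun x => (1/2 : ℝ) • x) x + (1/2 : ℝ) • q + (fun x => (1/2 : ℝ) • x) (p - q)
          = (1/2 : ℝ) • x + (1/2 : ℝ) • p := by
        simp only [smul_sub]
        abel
      rw [h2]
      exact h1
  have hmeas : MeasurableSet ((1/2 : ℝ) • Δ) := (hcomp.smul (1/2 : ℝ)).measurableSet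
  have h1 : (1/4 : ENNReal) * volume P * ((1/4 : ENNReal) * volume Δ) ≤ volume P * volume P := by
    rw [← lintegral_overlap hP.measurableSet hP.measurableSet, ← hsm Δ,
      ← setLIntegral_const]
    refine le_trans (setLIntegral_mono' hmeas hg) (setLIntegral_le_lintegral _ _)
  have h2 : volume P * ((1/16 : ENNReal) * volume Δ) ≤ volume P * volume P := by
    refine le_trans (le_of_eq ?_) h1
    have : (1/16 : ENNReal) = 1/4 * (1/4) := by
      rw [one_div, one_div, ← ENNReal.mul_inv (by norm_num) (by norm_num)]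
      norm_num
    rw [this]
    ring
  have h3 : (1/16 : ENNReal) * volume Δ ≤ volume P :=
    (ENNReal.mul_le_mul_iff_right hpos.ne' hfin).1 h2
  calc volume Δ = 16 * ((1/16 : ENNReal) * volume Δ) := by
        rw [← mul_assoc, one_div, ENNReal.mul_inv_cancel (by norm_num) (by norm_num), one_mul]
    _ ≤ 16 * volume P := by gcongr

end Vale.Agent.Lib.P243
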