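import Mathlib
import Vale.Agent.Lib.P243.UniRS
import Vale.Agent.Lib.P243.Pre19

/-! # P243 universal bound, task C3: two subsets of a convex set have translates with a large overlap -/

namespace Vale.Agent.Lib.P243

open MeasureTheory Set

/-- Proof. If |P| = 0 then |A| = 0 and any w works. Otherwise let g(w) = |{y in A : y + w in B}|;
g vanishes outside Δ = P - P (if y in A, y + w in B then w = (y + w) - y), so by
`lintegral_overlap` |A||B| is the integral of g over Δ. If 17 |P| g(w) < |A||B| for all w then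
17 |P| |A||B| = integral over Δ of 17 |P| g ≤ |Δ| |A||B| ≤ 16 |P| |A||B| (`volume_diffBody_le`),
which is impossible as |A||B| > 0 (it is bigger than 17 |P| g(0) ≥ 0), and all are finite. -/
theorem exists_overlap {A B P : Set (ℝ × ℝ)} (hA : IsCompact A) (hB : IsCompact B)
    (hP : IsCompact P) (hc : Convex ℝ P) (hAP : A ⊆ P) (hBP : B ⊆ P) :
    ∃ w : ℝ × ℝ, volume A * volume B ≤
      17 * volume P * volume {y : ℝ × ℝ | y ∈ A ∧ y + w ∈ B} := by
  by_cases h0 : volume P = 0
  · refine ⟨0, ?_⟩
    have : volume A = 0 := measure_mono_null hAP h0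
    rw [this, zero_mul]
    exact zero_le
  · obtain ⟨w, hw⟩ := exists_shift_plane hP hc h0 hA.measurableSet hB.measurableSet hAP hBP
    refine ⟨w, hw.trans ?_⟩
    have e : A ∩ {x | x + w ∈ B} = {y : ℝ × ℝ | y ∈ A ∧ y + w ∈ B} := rfl
    rw [e, mul_comm]
    gcongr
    norm_num

end Vale.Agent.Lib.P243
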