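import Mathlib
import Vale.Agent.Lib.P243.UniDefs

/-! # P243 universal bound, task D1: a set containing a segment of length L over each point of B -/

namespace Vale.Agent.Lib.P243

open MeasureTheory Set

variable {E : Type*} [NormedAddCommGroup E] [InnerProductSpace ℝ E] [FiniteDimensional ℝ E]
  [MeasurableSpace E] [BorelSpace E] [Fact (Module.finrank ℝ E = 2 + 1)]

/-- Proof: same set-up as `lintegral_cyl_le` in SymXray.lean (e, f from `exists_third`, κ from
`exists_coords`, Φ from `exists_coords3`). volume M = volume (Φ '' M) = the integral over y of the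
length of the fibre {r | (y, r) in Φ '' M} (`Measure.prod_apply`), which is at least the integral
over y in κ '' B of L (for y = κ p the fibre contains Icc r0 (r0 + L), since
Φ (p + r u) = (κ p, r)); `setLIntegral_const`; volume (κ '' B) = volume B (no measurability of B
needed: κ is a measure preserving equivalence). -/
theorem lower_cyl {M : Set E} (hM : MeasurableSet M) {u : E} (hu : ‖u‖ = 1) {L : ℝ} (hL : 0 ≤ L)
    (B : Set (ℝ ∙ u)ᗮ)
    (h : ∀ p ∈ B, ∃ r0 : ℝ, ∀ r ∈ Icc r0 (r0 + L), (p : E) + r • u ∈ M) :
    ENNReal.ofReal L * volume B ≤ volume M := by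
  obtain ⟨e, he, hue, -⟩ := exists_third (u := u) (e := u)
  obtain ⟨f, hf, huf, hef⟩ := exists_third (u := u) (e := e)
  obtain ⟨κ, hκ, hκa⟩ := exists_coords hu he hf hue huf hef
  obtain ⟨Φ, hΦ, hΦa⟩ := exists_coords3 hu he hf hue huf hef
  set N : Set ((ℝ × ℝ) × ℝ) := Φ.symm ⁻¹' M with hN
  have hNm : MeasurableSet N := Φ.symm.measurable hM
  have hNv : volume N = volume M := (hΦ.symm Φ).measure_preimage_equiv M
  have hBv : volume (κ '' B) = volume B := by
    rw [MeasurableEquiv.image_eq_preimage_symm, (hκ.symm κ).measure_preimage_equiv]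
  set g : ℝ × ℝ → ENNReal := fun y => volume (Prod.mk y ⁻¹' N) with hg
  have hgm : Measurable g := measurable_measure_prodMk_left hNm
  have hNg : volume N = ∫⁻ y, g y := by
    rw [Measure.volume_eq_prod, Measure.prod_apply hNm]
  have hsub : κ '' B ⊆ {y | ENNReal.ofReal L ≤ g y} := by
    rintro _ ⟨p, hp, rfl⟩
    obtain ⟨r0, hr0⟩ := h p hp
    have hI : Icc r0 (r0 + L) ⊆ Prod.mk (κ p) ⁻¹' N := by
      intro r hr
      show Φ.symm (κ p, r) ∈ M
      have : Φ.symm (κ p, r) = (p : E) + r • u := by
        apply Φ.injective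
        rw [Φ.apply_symm_apply, hΦa, hκa]
        have hpu : inner ℝ u (p : E) = 0 :=
          Submodule.mem_orthogonal_singleton_iff_inner_right.mp p.2
        simp only [inner_add_right, inner_smul_right]
        rw [real_inner_comm u e, hue, real_inner_comm u f, huf, real_inner_self_eq_norm_sq, hu,
          hpu]
        simp
      rw [this]
      exact hr0 r hr
    calc ENNReal.ofReal L = volume (Icc r0 (r0 + L)) := by
          rw [Real.volume_Icc]; congr 1; ring
      _ ≤ g (κ p) := measure_mono hI
  calc ENNReal.ofReal L * volume B = ENNReal.ofReal L * volume (κ '' B) := by rw [hBv]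
    _ ≤ ENNReal.ofReal L * volume {y | ENNReal.ofReal L ≤ g y} := by
        gcongr
    _ ≤ ∫⁻ y, g y := mul_meas_ge_le_lintegral hgm _
    _ = volume M := by rw [← hNg, hNv]

end Vale.Agent.Lib.P243
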