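import Mathlib
import Vale.Agent.Lib.P243.UniLower

/-! # P243 universal bound, task D3: a prism of long parallel chords improves `L |shadow| ≤ 3 vol` -/

namespace Vale.Agent.Lib.P243

open MeasureTheory Set

theorem prism_arith {L s m v bB β : ℝ} (hL : 0 < L) (hv : 0 < v) (hβ0 : 0 < β)
    (hβ1 : β ≤ 1) (hm : 3 * β ^ 2 * v ≤ m) (hmv : m ≤ v) (hB : L * bB ≤ m)
    (hcyl : ∀ b : ℝ, 0 ≤ b → b < 1 → bB ≤ b ^ 2 * s → m ≤ (3 * b ^ 2 - 2 * b ^ 3) * v) :
    L * s ≤ (3 - 2 * β) * v := by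
  have hmpos : 0 < m := lt_of_lt_of_le (by positivity) hm
  by_cases h : L * s ≤ m
  · nlinarith
  · push Not at h
    have hLs : 0 < L * s := lt_trans hmpos h
    set t : ℝ := m / (L * s) with ht
    have ht0 : 0 < t := div_pos hmpos hLs
    have ht1 : t < 1 := (div_lt_one hLs).2 h
    have htm : t * (L * s) = m := div_mul_cancel₀ m hLs.ne'
    set b1 : ℝ := Real.sqrt t with hb1
    have hb0 : 0 ≤ b1 := Real.sqrt_nonneg t
    have hbsq : b1 ^ 2 = t := Real.sq_sqrt ht0.le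
    have hblt : b1 < 1 := by
      rw [hb1, Real.sqrt_lt' one_pos]; simpa using ht1
    have hBb : bB ≤ b1 ^ 2 * s := by
      rw [hbsq]
      have h1 : L * bB ≤ L * (t * s) := by
        have : L * (t * s) = m := by rw [← htm]; ring
        rw [this]; exact hB
      exact le_of_mul_le_mul_left h1 hL
    have h2 := hcyl b1 hb0 hblt hBb
    have h3 : (3 * b1 ^ 2 - 2 * b1 ^ 3) * v = t * ((3 - 2 * b1) * v) := by
      rw [← hbsq]; ring
    rw [h3, ← htm] at h2
    have h4 : L * s ≤ (3 - 2 * b1) * v := le_of_mul_le_mul_left h2 ht0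
    have h5 : L * s ≤ 3 * v := by nlinarith
    have h6 : β ^ 2 ≤ t := by
      rw [ht, le_div_iff₀ hLs]
      have : β ^ 2 * (L * s) ≤ β ^ 2 * (3 * v) :=
        mul_le_mul_of_nonneg_left h5 (by positivity)
      nlinarith
    have h7 : β ≤ b1 := by
      rw [hb1]
      exact Real.le_sqrt_of_sq_le h6
    nlinarith

variable {E : Type*} [NormedAddCommGroup E] [InnerProductSpace ℝ E] [FiniteDimensional ℝ E]
  [MeasurableSpace E] [BorelSpace E] [Fact (Module.finrank ℝ E = 2 + 1)]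

omit [FiniteDimensional ℝ E] [MeasurableSpace E] [BorelSpace E]
  [Fact (Module.finrank ℝ E = 2 + 1)] in
theorem eq_proj_add_smul_prism {u : E} (hu : ‖u‖ = 1) (c : E) :
    c = (((ℝ ∙ u)ᗮ.orthogonalProjectionOnto c : (ℝ ∙ u)ᗮ) : E) + (inner ℝ u c) • u := by
  rw [Submodule.coe_orthogonalProjectionOnto_apply, Submodule.starProjection_orthogonal_val,
    Submodule.starProjection_unit_singleton ℝ hu]
  simp

/-- Proof. L = |d| > 0, w = d / L, M = the prism (compact: image of O x Icc 0 1; M ⊆ K by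
convexity), m = vol M ≤ v = vol K, s = area of the shadow of K along w (finite: image of a compact set),
B = orthogonal projection of O. hβ and β, v > 0 give m > 0.
`lower_cyl` (for p = proj o one has o = p + r0 w and o + σ d = p + (r0 + σ L) w):  L |B| ≤ m.
If L s ≤ m: L s ≤ v ≤ (3 - 2 β) v. done. Otherwise b1 = sqrt (m / (L s)) < 1, |B| ≤ m / L = b1^2 s,
so `vol_cylinder_le` gives m ≤ vol (K ∩ cylinder over B) ≤ (3 b1^2 - 2 b1^3) v
= (m / (L s)) (3 - 2 b1) v, i.e. L s ≤ (3 - 2 b1) v ≤ 3 v. Hence b1^2 = m/(L s) ≥ m/(3 v) ≥ β^2,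
so b1 ≥ β and L s ≤ (3 - 2 β) v. (Do the arithmetic in ℝ via toReal; all quantities are finite.) -/
theorem prism_bound {K : Set E} (hK : Convex ℝ K) (hKc : IsCompact K) (hv : 0 < volume K)
    {O : Set E} (hO : IsCompact O) {d : E} (hd : d ≠ 0)
    (hOK : ∀ x ∈ O, x ∈ K ∧ x + d ∈ K) {β : ℝ} (hβ0 : 0 < β) (hβ1 : β ≤ 1)
    (hβ : ENNReal.ofReal (3 * β ^ 2) * volume K ≤
      volume {x : E | ∃ o ∈ O, ∃ σ ∈ Icc (0 : ℝ) 1, x = o + σ • d}) :
    ENNReal.ofReal ‖d‖ * volume ((ℝ ∙ (‖d‖⁻¹ • d))ᗮ.orthogonalProjectionOnto '' K) ≤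
      ENNReal.ofReal (3 - 2 * β) * volume K := by
  set L : ℝ := ‖d‖ with hLdef
  have hL : 0 < L := norm_pos_iff.2 hd
  set w : E := L⁻¹ • d with hwdef
  have hw : ‖w‖ = 1 := by
    rw [hwdef, norm_smul, norm_inv, Real.norm_eq_abs, abs_of_pos hL, ← hLdef]
    exact inv_mul_cancel₀ hL.ne'
  have hdw : d = L • w := by
    rw [hwdef, smul_smul, mul_inv_cancel₀ hL.ne', one_smul]
  set M : Set E := {x : E | ∃ o ∈ O, ∃ σ ∈ Icc (0 : ℝ) 1, x = o + σ • d} with hMdef
  have hMimg : M = (fun q : E × ℝ => q.1 + q.2 • d) '' (O ×ˢ Icc (0 : ℝ) 1) := by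
    ext x
    constructor
    · rintro ⟨o, ho, σ, hσ, rfl⟩
      exact ⟨(o, σ), ⟨ho, hσ⟩, rfl⟩
    · rintro ⟨⟨o, σ⟩, ⟨ho, hσ⟩, rfl⟩
      exact ⟨o, ho, σ, hσ, rfl⟩
  have hMc : IsCompact M := by
    rw [hMimg]
    exact (hO.prod isCompact_Icc).image (by fun_prop)
  have hMK : M ⊆ K := by
    rintro x ⟨o, ho, σ, hσ, rfl⟩
    have h1 := hK (hOK o ho).1 (hOK o ho).2 (sub_nonneg.2 hσ.2) hσ.1 (by ring)
    have h2 : (1 - σ) • o + σ • (o + d) = o + σ • d := by
      rw [smul_add, sub_smul, one_smul]; abel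
    rwa [h2] at h1
  set P := (ℝ ∙ w)ᗮ.orthogonalProjectionOnto with hP
  set B : Set (ℝ ∙ w)ᗮ := P '' O with hB
  have hBK : B ⊆ P '' K := image_mono fun x hx => (hOK x hx).1
  have hSc : IsCompact (P '' K) := hKc.image P.continuous
  -- finiteness
  have fK : volume K ≠ ⊤ := hKc.measure_lt_top.ne
  have fM : volume M ≠ ⊤ := hMc.measure_lt_top.ne
  have fS : volume (P '' K) ≠ ⊤ := hSc.measure_lt_top.ne
  have fB : volume B ≠ ⊤ := ((measure_mono hBK).trans_lt hSc.measure_lt_top).ne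
  -- lower bound
  have hlow : ENNReal.ofReal L * volume B ≤ volume M := by
    refine lower_cyl hMc.measurableSet hw hL.le B ?_
    rintro _ ⟨o, ho, rfl⟩
    refine ⟨inner ℝ w o, fun r hr => ?_⟩
    refine ⟨o, ho, (r - inner ℝ w o) / L, ⟨div_nonneg (sub_nonneg.2 hr.1) hL.le, ?_⟩, ?_⟩
    · rw [div_le_one hL]; linarith [hr.2]
    · have h1 := eq_proj_add_smul_prism hw o
      have h2 : ((r - inner ℝ w o) / L) • d = (r - inner ℝ w o) • w := by
        rw [hdw, smul_smul, div_mul_cancel₀ _ hL.ne']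
      rw [h2, sub_smul]
      nth_rewrite 2 [h1]
      abel
  have hMcyl : M ⊆ K ∩ {x | ∃ p ∈ B, ∃ t : ℝ, x = (p : E) + t • w} := by
    intro x hx
    refine ⟨hMK hx, ?_⟩
    obtain ⟨o, ho, σ, -, rfl⟩ := hx
    refine ⟨P o, ⟨o, ho, rfl⟩, inner ℝ w o + σ * L, ?_⟩
    have h1 := eq_proj_add_smul_prism hw o
    have h2 : σ • d = (σ * L) • w := by rw [hdw, smul_smul]
    rw [h2, add_smul, ← add_assoc, ← h1]
  -- real numbers
  set v : ℝ := (volume K).toReal with hvdef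
  set m : ℝ := (volume M).toReal with hmdef
  set s : ℝ := (volume (P '' K)).toReal with hsdef
  set bB : ℝ := (volume B).toReal with hbdef
  have eK : volume K = ENNReal.ofReal v := (ENNReal.ofReal_toReal fK).symm
  have eM : volume M = ENNReal.ofReal m := (ENNReal.ofReal_toReal fM).symm
  have eS : volume (P '' K) = ENNReal.ofReal s := (ENNReal.ofReal_toReal fS).symm
  have eB : volume B = ENNReal.ofReal bB := (ENNReal.ofReal_toReal fB).symm
  have v0 : 0 ≤ v := ENNReal.toReal_nonneg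
  have m0 : 0 ≤ m := ENNReal.toReal_nonneg
  have s0 : 0 ≤ s := ENNReal.toReal_nonneg
  have b0 : 0 ≤ bB := ENNReal.toReal_nonneg
  have vpos : 0 < v := ENNReal.toReal_pos hv.ne' fK
  have r1 : 3 * β ^ 2 * v ≤ m := by
    rw [eK, eM, ← ENNReal.ofReal_mul (by positivity)] at hβ
    exact (ENNReal.ofReal_le_ofReal_iff m0).1 hβ
  have r2 : m ≤ v := ENNReal.toReal_mono fK (measure_mono hMK)
  have r3 : L * bB ≤ m := by
    rw [eB, eM, ← ENNReal.ofReal_mul hL.le] at hlow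
    exact (ENNReal.ofReal_le_ofReal_iff m0).1 hlow
  have r4 : ∀ b : ℝ, 0 ≤ b → b < 1 → bB ≤ b ^ 2 * s → m ≤ (3 * b ^ 2 - 2 * b ^ 3) * v := by
    intro b hb0 hb1 hbB
    have h1 := vol_cylinder_le hK hKc hw B hb0 hb1.le (fun _ => by
      rw [eB]
      show ENNReal.ofReal bB ≤ ENNReal.ofReal (b ^ 2) * volume (P '' K)
      rw [eS, ← ENNReal.ofReal_mul (by positivity)]
      exact ENNReal.ofReal_le_ofReal hbB)
    have h2 := (measure_mono hMcyl).trans h1
    have h3 : 0 ≤ 3 * b ^ 2 - 2 * b ^ 3 := by nlinarith [sq_nonneg b]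
    rw [eM, eK, ← ENNReal.ofReal_mul h3] at h2
    exact (ENNReal.ofReal_le_ofReal_iff (mul_nonneg h3 v0)).1 h2
  have key := prism_arith hL vpos hβ0 hβ1 r1 r2 r3 r4
  rw [eS, eK, ← ENNReal.ofReal_mul hL.le, ← ENNReal.ofReal_mul (by linarith)]
  exact ENNReal.ofReal_le_ofReal key

end Vale.Agent.Lib.P243
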