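import Mathlib
import Vale.Agent.Lib.P243.UniDefs

/-! # P243 universal bound, task D2: the volume of an oblique prism in coordinates -/

namespace Vale.Agent.Lib.P243

open MeasureTheory Set

/-- Proof. The set equals {x | (x.2 - z1)/h in Icc 0 1 and x.1 - ((x.2 - z1)/h) w in O}, which is
measurable. Fubini in the last variable (`Measure.prod_apply_symm`): the slice at level z in
Icc z1 (z1 + h) is the translate O + ((z - z1)/h) w, of area |O|, and is empty for other z. -/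
theorem shear_prism_volume {O : Set (ℝ × ℝ)} (hO : MeasurableSet O) (w : ℝ × ℝ) (z1 : ℝ)
    {h : ℝ} (hh : 0 < h) :
    volume {x : (ℝ × ℝ) × ℝ | ∃ y ∈ O, ∃ σ ∈ Icc (0 : ℝ) 1, x = (y + σ • w, z1 + σ * h)} =
      ENNReal.ofReal h * volume O := by
  have hset : {x : (ℝ × ℝ) × ℝ | ∃ y ∈ O, ∃ σ ∈ Icc (0 : ℝ) 1, x = (y + σ • w, z1 + σ * h)}
      = {x : (ℝ × ℝ) × ℝ | x.2 ∈ Icc z1 (z1 + h) ∧ x.1 - ((x.2 - z1) / h) • w ∈ O} := by
    ext x
    simp only [mem_setOf_eq]
    constructor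
    · rintro ⟨y, hy, σ, ⟨h0, h1⟩, rfl⟩
      have e : (z1 + σ * h - z1) / h = σ := by field_simp; ring
      refine ⟨⟨by nlinarith, by nlinarith⟩, ?_⟩
      simp only [e, add_sub_cancel_right]
      exact hy
    · rintro ⟨⟨h0, h1⟩, hx⟩
      refine ⟨_, hx, (x.2 - z1) / h, ⟨div_nonneg (by linarith) hh.le, ?_⟩, ?_⟩
      · rw [div_le_one hh]; linarith
      · ext <;> simp <;> field_simp <;> ring
  rw [hset]
  have hmeas : MeasurableSet
      {x : (ℝ × ℝ) × ℝ | x.2 ∈ Icc z1 (z1 + h) ∧ x.1 - ((x.2 - z1) / h) • w ∈ O} := by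
    have m1 : Measurable (fun x : (ℝ × ℝ) × ℝ => x.1 - ((x.2 - z1) / h) • w) := by fun_prop
    exact (measurable_snd measurableSet_Icc).inter (m1 hO)
  rw [show (volume : Measure ((ℝ × ℝ) × ℝ)) = (volume : Measure (ℝ × ℝ)).prod volume from rfl,
    Measure.prod_apply_symm hmeas]
  have hslice : ∀ z : ℝ, volume ((fun y : ℝ × ℝ => (y, z)) ⁻¹'
      {x : (ℝ × ℝ) × ℝ | x.2 ∈ Icc z1 (z1 + h) ∧ x.1 - ((x.2 - z1) / h) • w ∈ O})
      = (Icc z1 (z1 + h)).indicator (fun _ => volume O) z := by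
    intro z
    by_cases hz : z ∈ Icc z1 (z1 + h)
    · rw [indicator_of_mem hz]
      have : ((fun y : ℝ × ℝ => (y, z)) ⁻¹'
          {x : (ℝ × ℝ) × ℝ | x.2 ∈ Icc z1 (z1 + h) ∧ x.1 - ((x.2 - z1) / h) • w ∈ O})
          = (fun y : ℝ × ℝ => y + (-(((z - z1) / h) • w))) ⁻¹' O := by
        ext y
        simp only [mem_preimage, mem_setOf_eq, hz, true_and, sub_eq_add_neg]
      rw [this, measure_preimage_add_right]
    · rw [indicator_of_notMem hz]
      have : ((fun y : ℝ × ℝ => (y, z)) ⁻¹'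
          {x : (ℝ × ℝ) × ℝ | x.2 ∈ Icc z1 (z1 + h) ∧ x.1 - ((x.2 - z1) / h) • w ∈ O}) = ∅ := by
        ext y
        simp only [mem_preimage, mem_setOf_eq, hz, false_and, mem_empty_iff_false]
      rw [this, measure_empty]
  simp only [hslice]
  rw [lintegral_indicator_const measurableSet_Icc, Real.volume_Icc, mul_comm]
  congr 2
  ring

end Vale.Agent.Lib.P243
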