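import Mathlib
import Vale.Agent.Lib.P243.UniShear
import Vale.Agent.Lib.P243.UniMeas

/-! # P243 universal bound, task D4a: the volume of the prism between two sections -/

namespace Vale.Agent.Lib.P243

open MeasureTheory Set

variable {E : Type*} [NormedAddCommGroup E] [InnerProductSpace ℝ E] [FiniteDimensional ℝ E]
  [MeasurableSpace E] [BorelSpace E] [Fact (Module.finrank ℝ E = 2 + 1)]

/-- Proof. Φ from `exists_coords3 S.hu S.he S.hf S.hue S.huf S.hef`, d = w.1 e + w.2 f + h u,
Φ (x + σ d) = ((Φ x).1 + σ w, (Φ x).2 + σ h). Let O2 = {y | y in F_R and y + w in F_(R+h)}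
(compact or at least measurable: intersection of a compact set and a preimage of a compact set under a translation).
If y in O2: y = pr x with x in sect R, y + w = pr x' with x' in sect (R + h); x + d and x' have the
same image under Φ (heights: R + h), so x + d = x' in K. Hence Φ '' (prism in E) contains the
coordinate prism {(y + σ w, (<u, a> + R) + σ h) | y in O2, σ in Icc 0 1}, whose volume is
h |O2| by `shear_prism_volume`; volume (Φ '' T) = volume T. -/
theorem volume_prism_ge {K : Set E} {a b e f u : E} {D : ℝ} (S : Setup K a b e f u D)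
    (R : ℝ) (w : ℝ × ℝ) {h : ℝ} (hh : 0 < h) :
    ENNReal.ofReal h * volume {y : ℝ × ℝ | y ∈ shadow2 e f (sect K a u R) ∧
        y + w ∈ shadow2 e f (sect K a u (R + h))} ≤
      volume {x : E | ∃ o ∈ {o : E | o ∈ sect K a u R ∧ o + (w.1 • e + w.2 • f + h • u) ∈ K},
        ∃ σ ∈ Icc (0 : ℝ) 1, x = o + σ • (w.1 • e + w.2 • f + h • u)} := by
  obtain ⟨Φ, hΦ, hΦa⟩ := exists_coords3 S.hu S.he S.hf S.hue S.huf S.hef
  set dv : E := w.1 • e + w.2 • f + h • u with hdv
  have hee : inner ℝ e e = 1 := by rw [real_inner_self_eq_norm_sq, S.he]; norm_num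
  have hff : inner ℝ f f = 1 := by rw [real_inner_self_eq_norm_sq, S.hf]; norm_num
  have huu : inner ℝ u u = 1 := by rw [real_inner_self_eq_norm_sq, S.hu]; norm_num
  have heu : inner ℝ e u = 0 := by rw [real_inner_comm]; exact S.hue
  have hfu : inner ℝ f u = 0 := by rw [real_inner_comm]; exact S.huf
  have hfe : inner ℝ f e = 0 := by rw [real_inner_comm]; exact S.hef
  have hed : inner ℝ e dv = w.1 := by
    rw [hdv, inner_add_right, inner_add_right, inner_smul_right, inner_smul_right,
      inner_smul_right, hee, S.hef, heu]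
    ring
  have hfd : inner ℝ f dv = w.2 := by
    rw [hdv, inner_add_right, inner_add_right, inner_smul_right, inner_smul_right,
      inner_smul_right, hfe, hff, hfu]
    ring
  have hud : inner ℝ u dv = h := by
    rw [hdv, inner_add_right, inner_add_right, inner_smul_right, inner_smul_right,
      inner_smul_right, S.hue, S.huf, huu]
    ring
  clear_value dv
  set O2 : Set (ℝ × ℝ) := {y : ℝ × ℝ | y ∈ shadow2 e f (sect K a u R) ∧
        y + w ∈ shadow2 e f (sect K a u (R + h))} with hO2
  have hO2m : MeasurableSet O2 := by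
    have c1 := (shadow2_isCompact e f (sect_isCompact S.cpt a u R)).isClosed.measurableSet
    have c2 := (shadow2_isCompact e f (sect_isCompact S.cpt a u (R + h))).isClosed.measurableSet
    have m : Measurable (fun y : ℝ × ℝ => y + w) := by fun_prop
    exact c1.inter (m c2)
  set T : Set E := {x : E | ∃ o ∈ {o : E | o ∈ sect K a u R ∧ o + dv ∈ K},
        ∃ σ ∈ Icc (0 : ℝ) 1, x = o + σ • dv} with hT
  have hvol : volume (Φ '' T) = volume T := by
    rw [MeasurableEquiv.image_eq_preimage_symm, (hΦ.symm Φ).measure_preimage_equiv]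
  rw [← shear_prism_volume hO2m w (inner ℝ u a + R) hh, ← hvol]
  apply measure_mono
  rintro _ ⟨y, ⟨⟨x, hx, hxy⟩, ⟨x', hx', hxy'⟩⟩, σ, hσ, rfl⟩
  have hux : inner ℝ u x = inner ℝ u a + R := by
    have := hx.2
    rw [inner_sub_right] at this
    linarith
  have hux' : inner ℝ u x' = inner ℝ u a + R + h := by
    have := hx'.2
    rw [inner_sub_right] at this
    linarith
  have hy1 : inner ℝ e x = y.1 := congrArg Prod.fst hxy
  have hy2 : inner ℝ f x = y.2 := congrArg Prod.snd hxy
  have hy1' : inner ℝ e x' = y.1 + w.1 := congrArg Prod.fst hxy'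
  have hy2' : inner ℝ f x' = y.2 + w.2 := congrArg Prod.snd hxy'
  have hxd : x + dv = x' := by
    apply Φ.injective
    rw [hΦa, hΦa, inner_add_right, inner_add_right, inner_add_right, hed, hfd, hud, hy1, hy2,
      hy1', hy2', hux, hux']
  refine ⟨x + σ • dv, ⟨x, ⟨hx, hxd ▸ hx'.1⟩, σ, hσ, rfl⟩, ?_⟩
  rw [hΦa, inner_add_right, inner_add_right, inner_add_right, inner_smul_right, inner_smul_right,
    inner_smul_right, hed, hfd, hud, hy1, hy2, hux]
  rfl

end Vale.Agent.Lib.P243
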