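import Mathlib
import Vale.Agent.Lib.P243.UniPrism
import Vale.Agent.Lib.P243.UniPrismVol
import Vale.Agent.Lib.P243.UniOverlap

/-! # P243 universal bound, task D4: if both end sections are fat, some shadow is small -/

namespace Vale.Agent.Lib.P243

open MeasureTheory Set

variable {E : Type*} [NormedAddCommGroup E] [InnerProductSpace ℝ E] [FiniteDimensional ℝ E]
  [MeasurableSpace E] [BorelSpace E] [Fact (Module.finrank ℝ E = 2 + 1)]

/-- Proof. Fa = shadow2 e f (sect K a u R), Fb = shadow2 e f (sect K a u (D - R)),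
P = shadow2 e f K: compact, P convex (`shadow2_convex`), Fa, Fb ⊆ P. `exists_overlap` gives w with
|Fa||Fb| ≤ 17 |P| ω, ω = |{y in Fa | y + w in Fb}|. Let h = D - 2 R > 0 (so R + h = D - R),
d = w.1 e + w.2 f + h u (<u, d> = h, so d ≠ 0 and h ≤ |d|),
O = {o in sect K a u R | o + d in K} (compact). `volume_prism_ge`: h ω ≤ vol (prism).
From hyp: 51 β^2 |P| v ≤ h |Fa||Fb| ≤ 17 |P| h ω; cancel 17 |P| (positive, finite):
3 β^2 v ≤ h ω ≤ vol (prism). `prism_bound` gives |d| s ≤ (3 - 2 β) v for u' = d/|d|, and h ≤ |d|. -/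
theorem both_fat {K : Set E} {a b e f u : E} {D : ℝ} (S : Setup K a b e f u D)
    (hv : 0 < volume K) (hP : 0 < volume (shadow2 e f K))
    {R : ℝ} (hR : 0 < R) (hR2 : 2 * R < D) {β : ℝ} (hβ0 : 0 < β) (hβ1 : β ≤ 1)
    (hyp : ENNReal.ofReal (51 * β ^ 2) * volume (shadow2 e f K) * volume K ≤
      ENNReal.ofReal (D - 2 * R) * volume (shadow2 e f (sect K a u R)) *
        volume (shadow2 e f (sect K a u (D - R)))) :
    ∃ u' : E, ‖u'‖ = 1 ∧
      ENNReal.ofReal (D - 2 * R) * volume ((ℝ ∙ u')ᗮ.orthogonalProjectionOnto '' K) ≤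
        ENNReal.ofReal (3 - 2 * β) * volume K := by
  set Fa : Set (ℝ × ℝ) := shadow2 e f (sect K a u R) with hFa
  set Fb : Set (ℝ × ℝ) := shadow2 e f (sect K a u (D - R)) with hFb
  set P : Set (ℝ × ℝ) := shadow2 e f K with hPdef
  have hFac : IsCompact Fa := shadow2_isCompact e f (sect_isCompact S.cpt a u R)
  have hFbc : IsCompact Fb := shadow2_isCompact e f (sect_isCompact S.cpt a u (D - R))
  have hPc : IsCompact P := shadow2_isCompact e f S.cpt
  have hPconv : Convex ℝ P := shadow2_convex e f S.conv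
  have hFaP : Fa ⊆ P := shadow2_mono e f (sect_subset K a u R)
  have hFbP : Fb ⊆ P := shadow2_mono e f (sect_subset K a u (D - R))
  obtain ⟨w, hw⟩ := exists_overlap hFac hFbc hPc hPconv hFaP hFbP
  set h : ℝ := D - 2 * R with hh
  have hpos : 0 < h := by rw [hh]; linarith
  have hRh : R + h = D - R := by rw [hh]; ring
  set d : E := w.1 • e + w.2 • f + h • u with hd
  have hud : inner ℝ u d = h := by
    rw [hd, inner_add_right, inner_add_right, inner_smul_right, inner_smul_right,
      inner_smul_right, S.hue, S.huf, real_inner_self_eq_norm_sq, S.hu]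
    ring
  have hd0 : d ≠ 0 := by
    intro h0
    rw [h0, inner_zero_right] at hud
    linarith
  have hhd : h ≤ ‖d‖ := by
    have := real_inner_le_norm u d
    rw [hud, S.hu, one_mul] at this
    exact this
  have hdpos : 0 < ‖d‖ := norm_pos_iff.mpr hd0
  set O : Set E := {o : E | o ∈ sect K a u R ∧ o + d ∈ K} with hO
  have hOc : IsCompact O := by
    have e1 : O = sect K a u R ∩ (fun o : E => o + d) ⁻¹' K := rfl
    rw [e1]
    refine (sect_isCompact S.cpt a u R).inter_right ?_
    exact S.cpt.isClosed.preimage (by fun_prop)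
  have hOK : ∀ x ∈ O, x ∈ K ∧ x + d ∈ K := fun x hx => ⟨hx.1.1, hx.2⟩
  have hvol := volume_prism_ge S R w hpos
  rw [hRh] at hvol
  set ω : ENNReal := volume {y : ℝ × ℝ | y ∈ Fa ∧ y + w ∈ Fb} with hω
  have hPfin : volume P ≠ ⊤ := hPc.measure_lt_top.ne
  have hβ : ENNReal.ofReal (3 * β ^ 2) * volume K ≤
      volume {x : E | ∃ o ∈ O, ∃ σ ∈ Icc (0 : ℝ) 1, x = o + σ • d} := by
    refine le_trans ?_ hvol
    have h1 : (17 * volume P) * (ENNReal.ofReal (3 * β ^ 2) * volume K) ≤
        (17 * volume P) * (ENNReal.ofReal h * ω) := by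
      have e51 : ENNReal.ofReal (51 * β ^ 2) = 17 * ENNReal.ofReal (3 * β ^ 2) := by
        have : (51 : ℝ) * β ^ 2 = 17 * (3 * β ^ 2) := by ring
        rw [this, ENNReal.ofReal_mul (by norm_num)]
        norm_num
      calc (17 * volume P) * (ENNReal.ofReal (3 * β ^ 2) * volume K)
          = ENNReal.ofReal (51 * β ^ 2) * volume P * volume K := by
            rw [e51]; ring
        _ ≤ ENNReal.ofReal h * volume Fa * volume Fb := hyp
        _ = ENNReal.ofReal h * (volume Fa * volume Fb) := by ring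
        _ ≤ ENNReal.ofReal h * (17 * volume P * ω) := by gcongr
        _ = (17 * volume P) * (ENNReal.ofReal h * ω) := by ring
    have hne : (17 * volume P) ≠ 0 := mul_ne_zero (by norm_num) hP.ne'
    have hfin : (17 * volume P) ≠ ⊤ := ENNReal.mul_ne_top (by norm_num) hPfin
    exact (ENNReal.mul_le_mul_iff_right hne hfin).mp h1
  have key := prism_bound S.conv S.cpt hv hOc hd0 hOK hβ0 hβ1 hβ
  refine ⟨‖d‖⁻¹ • d, ?_, ?_⟩
  · rw [norm_smul, norm_inv, norm_norm, inv_mul_cancel₀ hdpos.ne']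
  · refine le_trans ?_ key
    gcongr

end Vale.Agent.Lib.P243
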