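import Mathlib
import Vale.Agent.Lib.P243.UniDefs

/-! # P243 universal bound, task G3: existence of a diameter and a frame -/

namespace Vale.Agent.Lib.P243

open MeasureTheory Set

variable {E : Type*} [NormedAddCommGroup E] [InnerProductSpace ℝ E] [FiniteDimensional ℝ E]
  [MeasurableSpace E] [BorelSpace E] [Fact (Module.finrank ℝ E = 2 + 1)]

/-- K x K is compact and nonempty, (x, y) -> |x - y| is continuous: take a maximiser (a, b)
(`IsCompact.exists_isMaxOn`), D = |b - a|. D > 0 because K has nonempty interior, hence contains two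
different points. u = (1/D)(b - a); e and f from `exists_third` as in `lintegral_cyl_le`. -/
theorem exists_setup {K : Set E} (hK : Convex ℝ K) (hKc : IsCompact K)
    (hKi : (interior K).Nonempty) : ∃ (a b e f u : E) (D : ℝ), Setup K a b e f u D := by
  obtain ⟨x0, hx0⟩ := hKi
  have hx0K : x0 ∈ K := interior_subset hx0
  have hne : (K ×ˢ K).Nonempty := ⟨(x0, x0), hx0K, hx0K⟩
  have hcont : ContinuousOn (fun p : E × E => ‖p.1 - p.2‖) (K ×ˢ K) :=
    (continuous_fst.sub continuous_snd).norm.continuousOn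
  obtain ⟨⟨a, b⟩, ⟨haK, hbK⟩, hmax⟩ := (hKc.prod hKc).exists_isMaxOn hne hcont
  have hdiam : ∀ x ∈ K, ∀ y ∈ K, ‖x - y‖ ≤ ‖a - b‖ := fun x hx y hy =>
    hmax (show (x, y) ∈ K ×ˢ K from ⟨hx, hy⟩)
  -- a second point of K
  obtain ⟨w, hw, -, -⟩ := exists_third (u := (0 : E)) (e := (0 : E))
  obtain ⟨r, hr, hball⟩ := Metric.isOpen_iff.mp isOpen_interior x0 hx0
  have hx1 : x0 + (r / 2) • w ∈ K := by
    apply interior_subset
    apply hball
    rw [Metric.mem_ball, dist_eq_norm, add_sub_cancel_left, norm_smul, hw, mul_one,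
      Real.norm_eq_abs, abs_of_pos (by linarith)]
    linarith
  have hD : 0 < ‖a - b‖ := by
    have h1 := hdiam _ hx1 _ hx0K
    rw [add_sub_cancel_left, norm_smul, hw, mul_one, Real.norm_eq_abs,
      abs_of_pos (by linarith)] at h1
    linarith
  set D : ℝ := ‖a - b‖ with hDdef
  set u : E := (1 / D) • (b - a) with hudef
  have hu : ‖u‖ = 1 := by
    rw [hudef, norm_smul, norm_sub_rev, ← hDdef, Real.norm_eq_abs, abs_of_pos (by positivity)]
    field_simp
  obtain ⟨e, he, hue, -⟩ := exists_third (u := u) (e := u)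
  obtain ⟨f, hf, huf, hef⟩ := exists_third (u := u) (e := e)
  refine ⟨a, b, e, f, u, D, ⟨hK, hKc, haK, hbK, hD, ?_, hdiam, he, hf, hu, hue, huf, hef⟩⟩
  rw [hudef, smul_smul, mul_one_div_cancel hD.ne', one_smul]
  abel

end Vale.Agent.Lib.P243
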