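import Mathlib
import Vale.Agent.Lib.P243.UniAlpha
import Vale.Agent.Lib.P243.UniBeta
import Vale.Agent.Lib.P243.UniFat
import Vale.Agent.Lib.P243.UniCertA
import Vale.Agent.Lib.P243.UniArith
import Vale.Agent.Lib.P243.UniSetup

/-! # P243 universal bound: assembly -/

namespace Vale.Agent.Lib.P243

open MeasureTheory Set

variable {E : Type*} [NormedAddCommGroup E] [InnerProductSpace ℝ E] [FiniteDimensional ℝ E]
  [MeasurableSpace E] [BorelSpace E] [Fact (Module.finrank ℝ E = 2 + 1)]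

theorem uni_main_setup {K : Set E} {a b e f u : E} {D : ℝ} (S : Setup K a b e f u D)
    (hKi : (interior K).Nonempty)
    {m : ℕ} (w : Fin m → E) (hw : ∀ i, ‖w i‖ = 1) (B : ∀ i, Set (ℝ ∙ w i)ᗮ)
    (hcov : ∀ x ∈ K, ∃ i, ∃ p ∈ B i, ∃ r : ℝ, x = (p : E) + r • w i)
    {Am : ENNReal}
    (hAm : ∀ w : E, ‖w‖ = 1 → Am ≤ volume ((ℝ ∙ w)ᗮ.orthogonalProjectionOnto '' K)) :
    ENNReal.ofReal (1 / 3 + 1 / 10 ^ 14) * Am ≤ ∑ i, volume (B i) := by
  set C := ∑ i, volume (B i) with hC
  by_cases hCtop : C = ⊤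
  · rw [hCtop]; exact le_top
  by_cases hA0 : Am = 0
  · rw [hA0, mul_zero]; exact zero_le
  have hD := S.hD
  have hvpos : 0 < volume K :=
    (isOpen_interior.measure_pos volume hKi).trans_le (measure_mono interior_subset)
  have hvfin : volume K ≠ ⊤ := S.cpt.measure_lt_top.ne
  set P := volume (shadow2 e f K) with hPdef
  have hPfin : P ≠ ⊤ := (shadow2_isCompact e f S.cpt).measure_lt_top.ne
  have hAP : Am ≤ P := by
    rw [hPdef, ← volume_shadow_eq S.hu S.he S.hf S.hue S.huf S.hef K]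
    exact hAm u S.hu
  have hAfin : Am ≠ ⊤ := ne_top_of_le_ne_top hPfin hAP
  have hPpos : 0 < P := lt_of_lt_of_le (pos_iff_ne_zero.mpr hA0) hAP
  set V := farSet K ((1 - 1 / 10 ^ 12) * D) with hV
  set Ba := Metric.closedBall a (1 / 10 ^ 4 * D) with hBa
  set Bb := Metric.closedBall b (1 / 10 ^ 4 * D) with hBb
  have hVK : V ⊆ K := farSet_subset K _
  have hsubfin : ∀ T : Set E, T ⊆ K → volume T ≠ ⊤ :=
    fun T h => ne_top_of_le_ne_top hvfin (measure_mono h)
  set σa := volume (shadow2 e f (sect K a u (1 / 10 ^ 4 * D))) with hσa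
  set σb := volume (shadow2 e f (sect K a u (D - 1 / 10 ^ 4 * D))) with hσb
  have hσafin : σa ≠ ⊤ :=
    ne_top_of_le_ne_top hPfin (measure_mono (shadow2_mono e f (sect_subset K a u _)))
  have hσbfin : σb ≠ ⊤ :=
    ne_top_of_le_ne_top hPfin (measure_mono (shadow2_mono e f (sect_subset K a u _)))
  have hmfin : volume (V \ (Ba ∪ Bb)) ≠ ⊤ := hsubfin _ (diff_subset.trans hVK)
  have hyafin : volume (V ∩ Ba) ≠ ⊤ := hsubfin _ (inter_subset_left.trans hVK)
  have hybfin : volume (V ∩ Bb) ≠ ⊤ := hsubfin _ (inter_subset_left.trans hVK)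
  have hxafin : volume (V \ Ba) ≠ ⊤ := hsubfin _ (diff_subset.trans hVK)
  have hxbfin : volume (V \ Bb) ≠ ⊤ := hsubfin _ (diff_subset.trans hVK)
  -- the inequalities in ENNReal
  have e0 := cert_all S w hw B hcov
  have ea := cert_end S w hw B hcov
  have eb := cert_end S.swap w hw B hcov
  have eγ := gamma_bound S
  have eα := alpha_bound S
  have eβa := beta_bound S
  have eβb := beta_bound S.swap
  rw [S.sect_swap] at eβb
  have exa : volume (V \ Ba) ≤ volume (V \ (Ba ∪ Bb)) + volume (V ∩ Bb) := by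
    refine le_trans (measure_mono ?_) (measure_union_le _ _)
    intro x hx
    by_cases hxb : x ∈ Bb
    · exact Or.inr ⟨hx.1, hxb⟩
    · exact Or.inl ⟨hx.1, fun h => h.elim hx.2 hxb⟩
  have exb : volume (V \ Bb) ≤ volume (V \ (Ba ∪ Bb)) + volume (V ∩ Ba) := by
    refine le_trans (measure_mono ?_) (measure_union_le _ _)
    intro x hx
    by_cases hxa : x ∈ Ba
    · exact Or.inr ⟨hx.1, hxa⟩
    · exact Or.inl ⟨hx.1, fun h => h.elim hxa hx.2⟩
  have hofin : ∀ r : ℝ, ENNReal.ofReal r ≠ ⊤ := fun r => ENNReal.ofReal_ne_top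
  have key : (1 / 3 + 1 / 10 ^ 14) * Am.toReal ≤ C.toReal := by
    apply final_arith (D := D) (v := (volume K).toReal) (P := P.toReal) (A := Am.toReal)
      (c := C.toReal) (m := (volume (V \ (Ba ∪ Bb))).toReal) (ya := (volume (V ∩ Ba)).toReal)
      (yb := (volume (V ∩ Bb)).toReal) (xa := (volume (V \ Ba)).toReal)
      (xb := (volume (V \ Bb)).toReal) (σa := σa.toReal) (σb := σb.toReal) hD
      (ENNReal.toReal_pos hvpos.ne' hvfin) (ENNReal.toReal_pos hA0 hAfin)
      (ENNReal.toReal_mono hPfin hAP) ENNReal.toReal_nonneg ENNReal.toReal_nonneg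
      ENNReal.toReal_nonneg ENNReal.toReal_nonneg ENNReal.toReal_nonneg ENNReal.toReal_nonneg
    · have := ENNReal.toReal_mono (ENNReal.mul_ne_top (hofin _) hCtop) e0
      rwa [ENNReal.toReal_mul, ENNReal.toReal_ofReal hD.le] at this
    · have := ENNReal.toReal_mono
        (ENNReal.add_ne_top.mpr ⟨hxafin, ENNReal.mul_ne_top (hofin _) hCtop⟩) ea
      rwa [ENNReal.toReal_add hxafin (ENNReal.mul_ne_top (hofin _) hCtop), ENNReal.toReal_mul,
        ENNReal.toReal_ofReal (by positivity)] at this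
    · have := ENNReal.toReal_mono
        (ENNReal.add_ne_top.mpr ⟨hxbfin, ENNReal.mul_ne_top (hofin _) hCtop⟩) eb
      rwa [ENNReal.toReal_add hxbfin (ENNReal.mul_ne_top (hofin _) hCtop), ENNReal.toReal_mul,
        ENNReal.toReal_ofReal (by positivity)] at this
    · have := ENNReal.toReal_mono (ENNReal.add_ne_top.mpr ⟨hmfin, hybfin⟩) exa
      rwa [ENNReal.toReal_add hmfin hybfin] at this
    · have := ENNReal.toReal_mono (ENNReal.add_ne_top.mpr ⟨hmfin, hyafin⟩) exb
      rwa [ENNReal.toReal_add hmfin hyafin] at this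
    · have := ENNReal.toReal_mono hvfin eγ
      rwa [ENNReal.toReal_mul, ENNReal.toReal_ofReal (by positivity)] at this
    · have := ENNReal.toReal_mono
        (ENNReal.add_ne_top.mpr ⟨ENNReal.mul_ne_top (hofin _) hPfin, hvfin⟩) eα
      rwa [ENNReal.toReal_add hmfin (ENNReal.mul_ne_top (hofin _) hPfin),
        ENNReal.toReal_add (ENNReal.mul_ne_top (hofin _) hPfin) hvfin, ENNReal.toReal_mul,
        ENNReal.toReal_mul, ENNReal.toReal_ofReal (by positivity),
        ENNReal.toReal_ofReal (by positivity)] at this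
    · have := ENNReal.toReal_mono
        (ENNReal.add_ne_top.mpr ⟨ENNReal.mul_ne_top (hofin _) hσafin, hvfin⟩) eβa
      rwa [ENNReal.toReal_add hyafin (ENNReal.mul_ne_top (hofin _) hPfin),
        ENNReal.toReal_add (ENNReal.mul_ne_top (hofin _) hσafin) hvfin, ENNReal.toReal_mul,
        ENNReal.toReal_mul, ENNReal.toReal_ofReal (by positivity),
        ENNReal.toReal_ofReal (by positivity)] at this
    · have := ENNReal.toReal_mono
        (ENNReal.add_ne_top.mpr ⟨ENNReal.mul_ne_top (hofin _) hσbfin, hvfin⟩) eβb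
      rwa [ENNReal.toReal_add hybfin (ENNReal.mul_ne_top (hofin _) hPfin),
        ENNReal.toReal_add (ENNReal.mul_ne_top (hofin _) hσbfin) hvfin, ENNReal.toReal_mul,
        ENNReal.toReal_mul, ENNReal.toReal_ofReal (by positivity),
        ENNReal.toReal_ofReal (by positivity)] at this
    · intro hyp
      have hh : 0 ≤ D - 2 * (1 / 10 ^ 4 * D) := by nlinarith
      have hyp' : ENNReal.ofReal (51 * (2 / 10 ^ 3 : ℝ) ^ 2) * P * volume K ≤
          ENNReal.ofReal (D - 2 * (1 / 10 ^ 4 * D)) * σa * σb := by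
        rw [← ENNReal.ofReal_toReal hPfin, ← ENNReal.ofReal_toReal hvfin,
          ← ENNReal.ofReal_toReal hσafin, ← ENNReal.ofReal_toReal hσbfin,
          ← ENNReal.ofReal_mul (by positivity), ← ENNReal.ofReal_mul (by positivity),
          ← ENNReal.ofReal_mul hh,
          ← ENNReal.ofReal_mul (mul_nonneg hh ENNReal.toReal_nonneg)]
        exact ENNReal.ofReal_le_ofReal hyp
      obtain ⟨u', hu', hfat⟩ := both_fat S hvpos hPpos (R := 1 / 10 ^ 4 * D) (by positivity)
        (by nlinarith) (β := 2 / 10 ^ 3) (by norm_num) (by norm_num) hyp'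
      have h1 : ENNReal.ofReal (D - 2 * (1 / 10 ^ 4 * D)) * Am ≤
          ENNReal.ofReal (3 - 2 * (2 / 10 ^ 3)) * volume K :=
        le_trans (mul_le_mul_right (hAm u' hu') _) hfat
      have := ENNReal.toReal_mono (ENNReal.mul_ne_top (hofin _) hvfin) h1
      rwa [ENNReal.toReal_mul, ENNReal.toReal_mul, ENNReal.toReal_ofReal hh,
        ENNReal.toReal_ofReal (by norm_num)] at this
  rw [← ENNReal.ofReal_toReal hAfin, ← ENNReal.ofReal_toReal hCtop,
    ← ENNReal.ofReal_mul (by norm_num)]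
  exact ENNReal.ofReal_le_ofReal key

/-- Universal bound: every covering of a convex body in a three-dimensional space by finitely many cylinders
has total base area at least `(1/3 + 10^-14)` times any lower bound of all the shadow areas. -/
theorem uni_main {K : Set E} (hK : Convex ℝ K) (hKc : IsCompact K) (hKi : (interior K).Nonempty)
    {m : ℕ} (w : Fin m → E) (hw : ∀ i, ‖w i‖ = 1) (B : ∀ i, Set (ℝ ∙ w i)ᗮ)
    (hcov : ∀ x ∈ K, ∃ i, ∃ p ∈ B i, ∃ r : ℝ, x = (p : E) + r • w i)
    {Am : ENNReal}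
    (hAm : ∀ w : E, ‖w‖ = 1 → Am ≤ volume ((ℝ ∙ w)ᗮ.orthogonalProjectionOnto '' K)) :
    ENNReal.ofReal (1 / 3 + 1 / 10 ^ 14) * Am ≤ ∑ i, volume (B i) := by
  obtain ⟨a, b, e, f, u, D, S⟩ := exists_setup hK hKc hKi
  exact uni_main_setup S hKi w hw B hcov hAm

end Vale.Agent.Lib.P243
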