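import Mathlib

/-!
# Stewart identity and the arithmetic of almost diametral points
-/

namespace Vale.Agent.Lib.P243.Pre29

variable {E : Type*} [NormedAddCommGroup E] [InnerProductSpace ℝ E]

/-- Variance (Stewart) identity for a barycentre of three points. -/
theorem stewart (a b k x : E) {la lb lk : ℝ} (h : la + lb + lk = 1) :
    ‖la • a + lb • b + lk • k - x‖ ^ 2 =
      la * ‖a - x‖ ^ 2 + lb * ‖b - x‖ ^ 2 + lk * ‖k - x‖ ^ 2
        - (la * lb * ‖a - b‖ ^ 2 + la * lk * ‖a - k‖ ^ 2 + lb * lk * ‖b - k‖ ^ 2) := by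
  have hlk : lk = 1 - la - lb := by linarith
  subst hlk
  simp only [← real_inner_self_eq_norm_sq, inner_sub_left, inner_sub_right, inner_add_left,
    inner_add_right, inner_smul_left, inner_smul_right, real_inner_comm]
  simp only [RCLike.conj_to_real]
  ring

/-- A barycentre of three points of a set of diameter `D` which is almost at distance `D` from
a fourth point has a small Stewart defect. -/
theorem stewart_lt {a b k x : E} {D η la lb lk : ℝ} (hD : 0 < D) (hη1 : η ≤ 1)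
    (hax : ‖a - x‖ ≤ D) (hbx : ‖b - x‖ ≤ D) (hkx : ‖k - x‖ ≤ D)
    (hla : 0 ≤ la) (hlb : 0 ≤ lb) (hlk : 0 ≤ lk) (hsum : la + lb + lk = 1)
    (hfar : (1 - η) * D < ‖la • a + lb • b + lk • k - x‖) :
    la * lb * ‖a - b‖ ^ 2 + la * lk * ‖a - k‖ ^ 2 + lb * lk * ‖b - k‖ ^ 2 < 2 * η * D ^ 2 := by
  have hst := stewart a b k x hsum
  have h1 : ((1 - η) * D) ^ 2 < ‖la • a + lb • b + lk • k - x‖ ^ 2 := by
    have h0 : 0 ≤ (1 - η) * D := mul_nonneg (by linarith) hD.le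
    exact pow_lt_pow_left₀ hfar h0 (by norm_num)
  have ha2 : ‖a - x‖ ^ 2 ≤ D ^ 2 := pow_le_pow_left₀ (norm_nonneg _) hax 2
  have hb2 : ‖b - x‖ ^ 2 ≤ D ^ 2 := pow_le_pow_left₀ (norm_nonneg _) hbx 2
  have hk2 : ‖k - x‖ ^ 2 ≤ D ^ 2 := pow_le_pow_left₀ (norm_nonneg _) hkx 2
  have h2 : la * ‖a - x‖ ^ 2 + lb * ‖b - x‖ ^ 2 + lk * ‖k - x‖ ^ 2 ≤ D ^ 2 := by
    have e1 := mul_le_mul_of_nonneg_left ha2 hla
    have e2 := mul_le_mul_of_nonneg_left hb2 hlb
    have e3 := mul_le_mul_of_nonneg_left hk2 hlk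
    have : la * D ^ 2 + lb * D ^ 2 + lk * D ^ 2 = D ^ 2 := by
      rw [← add_mul, ← add_mul, hsum, one_mul]
    linarith
  have h3 : ((1 - η) * D) ^ 2 = D ^ 2 - 2 * η * D ^ 2 + η ^ 2 * D ^ 2 := by ring
  have h4 : 0 ≤ η ^ 2 * D ^ 2 := by positivity
  linarith

/-- Real arithmetic, near case. -/
theorem near_real {D α β la lb lk η : ℝ} (hD : 0 < D) (hα0 : 0 ≤ α) (hβ0 : 0 ≤ β)
    (hαβ : D ≤ α + β) (hla : 0 ≤ la) (hlb : 0 ≤ lb) (hlk : 0 ≤ lk) (hsum : la + lb + lk = 1)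
    (hS : la * lb * D ^ 2 + la * lk * α ^ 2 + lb * lk * β ^ 2 < 2 * η * D ^ 2)
    (hN : lb * D ^ 2 + lk * α ^ 2 / 2 ≤ 1 / 10000 * D ^ 2) : lb < 9 * η := by
  have hD2 : 0 < D ^ 2 := by positivity
  have hlbρ : lb ≤ 1 / 10000 := by
    have : lb * D ^ 2 ≤ 1 / 10000 * D ^ 2 := by
      have : 0 ≤ lk * α ^ 2 / 2 := by positivity
      linarith
    exact le_of_mul_le_mul_right this hD2
  have t1 : 0 ≤ la * lk * α ^ 2 := by positivity
  have t2 : 0 ≤ lb * lk * β ^ 2 := by positivity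
  have t3 : 0 ≤ la * lb * D ^ 2 := by positivity
  rcases le_or_gt (D / 2) β with hβ | hβ
  · have hβ2 : D ^ 2 / 4 ≤ β ^ 2 := by nlinarith
    have h1 : lb * ((1 - 1 / 10000) * (D ^ 2 / 4)) ≤ la * lb * D ^ 2 + lb * lk * β ^ 2 := by
      have e1 : lb * lk * (D ^ 2 / 4) ≤ lb * lk * β ^ 2 :=
        mul_le_mul_of_nonneg_left hβ2 (by positivity)
      have e2 : lb * ((1 - 1 / 10000) * (D ^ 2 / 4)) ≤ lb * ((la + lk) * (D ^ 2 / 4)) := by
        apply mul_le_mul_of_nonneg_left _ hlb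
        apply mul_le_mul_of_nonneg_right _ (by positivity)
        linarith
      have e3 : lb * la * (D ^ 2 / 4) ≤ lb * la * D ^ 2 := by
        apply mul_le_mul_of_nonneg_left _ (by positivity)
        linarith
      nlinarith
    have h2 : lb * ((1 - 1 / 10000) / 4) * D ^ 2 < 2 * η * D ^ 2 := by nlinarith
    have h3 : lb * ((1 - 1 / 10000) / 4) < 2 * η := lt_of_mul_lt_mul_right h2 hD2.le
    linarith
  · have hα : D / 2 < α := by linarith
    have hα2 : D ^ 2 / 4 ≤ α ^ 2 := by nlinarith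
    have hlk8 : lk ≤ 8 / 10000 := by
      have e1 : lk * (D ^ 2 / 4) ≤ lk * α ^ 2 := mul_le_mul_of_nonneg_left hα2 hlk
      have e2 : lk * α ^ 2 / 2 ≤ 1 / 10000 * D ^ 2 := by
        have : 0 ≤ lb * D ^ 2 := by positivity
        linarith
      have e3 : lk * D ^ 2 ≤ 8 / 10000 * D ^ 2 := by linarith
      exact le_of_mul_le_mul_right e3 hD2
    have hla9 : 99 / 100 ≤ la := by linarith
    have h2 : lb * (99 / 100) * D ^ 2 < 2 * η * D ^ 2 := by
      have : lb * (99 / 100) * D ^ 2 ≤ la * lb * D ^ 2 := by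
        apply mul_le_mul_of_nonneg_right _ hD2.le
        nlinarith
      linarith
    have h3 : lb * (99 / 100) < 2 * η := lt_of_mul_lt_mul_right h2 hD2.le
    linarith

/-- Real arithmetic, far case, the larger weight. -/
theorem far_aux {D α β la lb lk η : ℝ} (hD : 0 < D) (hα0 : 0 ≤ α) (hβ0 : 0 ≤ β)
    (hη : η ≤ 1 / 10 ^ 12) (hla : 0 ≤ la) (hlb : 0 ≤ lb) (hlk : 0 ≤ lk) (hlk1 : lk ≤ 1)
    (hS : la * lb * D ^ 2 + la * lk * α ^ 2 + lb * lk * β ^ 2 < 2 * η * D ^ 2)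
    (hle : lb ≤ la) (hA : 1 / 10000 * D < lb * D + lk * α) : la < 21 / 100000 := by
  have hD2 : 0 < D ^ 2 := by positivity
  have t1 : 0 ≤ la * lk * α ^ 2 := by positivity
  have t2 : 0 ≤ lb * lk * β ^ 2 := by positivity
  have t3 : 0 ≤ la * lb * D ^ 2 := by positivity
  have h1 : la * lb < 2 * η := by
    have : la * lb * D ^ 2 < 2 * η * D ^ 2 := by linarith
    exact lt_of_mul_lt_mul_right this hD2.le
  have hlb : lb < 15 / 10 ^ 7 := by
    by_contra hcon
    push Not at hcon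
    have : (15 / 10 ^ 7 : ℝ) * (15 / 10 ^ 7) ≤ la * lb :=
      mul_le_mul (hcon.trans hle) hcon (by norm_num) hla
    norm_num at this hη
    linarith
  have h2 : 985 / 10 ^ 7 * D < lk * α := by
    have : lb * D < 15 / 10 ^ 7 * D := mul_lt_mul_of_pos_right hlb hD
    norm_num at this hA ⊢
    linarith
  by_contra hcon
  push Not at hcon
  have h3 : (985 / 10 ^ 7 * D) ^ 2 ≤ (lk * α) ^ 2 :=
    pow_le_pow_left₀ (by positivity) h2.le 2
  have h4 : (lk * α) ^ 2 ≤ lk * α ^ 2 := by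
    have : lk * lk ≤ lk * 1 := mul_le_mul_of_nonneg_left hlk1 hlk
    have h5 : lk * lk * α ^ 2 ≤ lk * 1 * α ^ 2 := mul_le_mul_of_nonneg_right this (by positivity)
    calc (lk * α) ^ 2 = lk * lk * α ^ 2 := by ring
      _ ≤ lk * 1 * α ^ 2 := h5
      _ = lk * α ^ 2 := by ring
  have h6 : 21 / 100000 * (985 / 10 ^ 7 * D) ^ 2 ≤ la * (lk * α ^ 2) :=
    mul_le_mul hcon (h3.trans h4) (by positivity) hla
  have h7 : la * (lk * α ^ 2) < 2 * η * D ^ 2 := by
    have : la * (lk * α ^ 2) = la * lk * α ^ 2 := by ring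
    linarith
  have h8 : 2 * η * D ^ 2 ≤ 2 * (1 / 10 ^ 12) * D ^ 2 := by
    apply mul_le_mul_of_nonneg_right _ hD2.le
    linarith
  have h9 : (21 / 100000 * (985 / 10 ^ 7 * D) ^ 2 : ℝ) = 21 / 100000 * (985 / 10 ^ 7) ^ 2 * D ^ 2 := by
    ring
  have h10 : (2 * (1 / 10 ^ 12) : ℝ) * D ^ 2 < 21 / 100000 * (985 / 10 ^ 7) ^ 2 * D ^ 2 := by
    apply mul_lt_mul_of_pos_right _ hD2
    norm_num
  linarith

/-- Real arithmetic, far case. -/
theorem far_real {D α β la lb lk η : ℝ} (hD : 0 < D) (hα0 : 0 ≤ α) (hβ0 : 0 ≤ β)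
    (hη : η ≤ 1 / 10 ^ 12) (hla : 0 ≤ la) (hlb : 0 ≤ lb) (hlk : 0 ≤ lk) (hsum : la + lb + lk = 1)
    (hS : la * lb * D ^ 2 + la * lk * α ^ 2 + lb * lk * β ^ 2 < 2 * η * D ^ 2)
    (hA : 1 / 10000 * D < lb * D + lk * α) (hB : 1 / 10000 * D < la * D + lk * β) :
    la + lb < 5 / 10000 ∧ (D / 2 ≤ α → la < 9 * η) ∧ (D / 2 ≤ β → lb < 9 * η) := by
  have hD2 : 0 < D ^ 2 := by positivity
  have hlk1 : lk ≤ 1 := by linarith
  have t1 : 0 ≤ la * lk * α ^ 2 := by positivity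
  have t2 : 0 ≤ lb * lk * β ^ 2 := by positivity
  have t3 : 0 ≤ la * lb * D ^ 2 := by positivity
  have hs : la + lb < 5 / 10000 := by
    rcases le_total lb la with h | h
    · have := far_aux hD hα0 hβ0 hη hla hlb hlk hlk1 hS h hA
      linarith
    · have hS' : lb * la * D ^ 2 + lb * lk * β ^ 2 + la * lk * α ^ 2 < 2 * η * D ^ 2 := by
        have : lb * la * D ^ 2 = la * lb * D ^ 2 := by ring
        linarith
      have := far_aux hD hβ0 hα0 hη hlb hla hlk hlk1 hS' h hB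
      linarith
  have hlk2 : 9995 / 10000 < lk := by linarith
  refine ⟨hs, ?_, ?_⟩
  · intro hα
    have hα2 : D ^ 2 / 4 ≤ α ^ 2 := by nlinarith
    have e1 : la * (9995 / 10000 * (D ^ 2 / 4)) ≤ la * (lk * α ^ 2) :=
      mul_le_mul_of_nonneg_left (mul_le_mul hlk2.le hα2 (by positivity) hlk) hla
    have e2 : la * (9995 / 40000) * D ^ 2 < 2 * η * D ^ 2 := by nlinarith
    have e3 : la * (9995 / 40000) < 2 * η := lt_of_mul_lt_mul_right e2 hD2.le
    linarith
  · intro hβ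
    have hβ2 : D ^ 2 / 4 ≤ β ^ 2 := by nlinarith
    have e1 : lb * (9995 / 10000 * (D ^ 2 / 4)) ≤ lb * (lk * β ^ 2) :=
      mul_le_mul_of_nonneg_left (mul_le_mul hlk2.le hβ2 (by positivity) hlk) hlb
    have e2 : lb * (9995 / 40000) * D ^ 2 < 2 * η * D ^ 2 := by nlinarith
    have e3 : lb * (9995 / 40000) < 2 * η := lt_of_mul_lt_mul_right e2 hD2.le
    linarith

/-- `⟪k - a, b - a⟫ ≥ ‖a - k‖ ^ 2 / 2` as soon as `‖b - k‖ ≤ ‖a - b‖`. -/
theorem inner_ge_of_dist_le {a b k : E} (h : ‖b - k‖ ≤ ‖a - b‖) :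
    ‖a - k‖ ^ 2 / 2 ≤ inner ℝ (k - a) (b - a) := by
  have h2 : ‖b - k‖ ^ 2 ≤ ‖a - b‖ ^ 2 := pow_le_pow_left₀ (norm_nonneg _) h 2
  have e : ‖b - k‖ ^ 2 = ‖a - b‖ ^ 2 + ‖a - k‖ ^ 2 - 2 * inner ℝ (k - a) (b - a) := by
    simp only [← real_inner_self_eq_norm_sq, inner_sub_left, inner_sub_right, real_inner_comm]
    ring
  linarith

/-- Step (2), near case: an almost diametral barycentre close to `a` has a tiny `b`-weight. -/
theorem near_bound {a b k x : E} {D η la lb lk : ℝ} (hD : 0 < D) (hη1 : η ≤ 1)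
    (hab : ‖a - b‖ = D) (hbk : ‖b - k‖ ≤ D)
    (hax : ‖a - x‖ ≤ D) (hbx : ‖b - x‖ ≤ D) (hkx : ‖k - x‖ ≤ D)
    (hla : 0 ≤ la) (hlb : 0 ≤ lb) (hlk : 0 ≤ lk) (hsum : la + lb + lk = 1)
    (hfar : (1 - η) * D < ‖la • a + lb • b + lk • k - x‖)
    (hnear : ‖la • a + lb • b + lk • k - a‖ ≤ 1 / 10000 * D) : lb < 9 * η := by
  have hS := stewart_lt hD hη1 hax hbx hkx hla hlb hlk hsum hfar
  rw [hab] at hS
  have htri : D ≤ ‖a - k‖ + ‖b - k‖ := by
    rw [← hab]
    have : a - b = (a - k) - (b - k) := by abel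
    rw [this]
    exact norm_sub_le _ _
  refine near_real hD (norm_nonneg _) (norm_nonneg _) htri hla hlb hlk hsum hS ?_
  have hp : la • a + lb • b + lk • k - a = lb • (b - a) + lk • (k - a) := by
    have : la = 1 - lb - lk := by linarith
    subst this
    module
  have hin : inner ℝ (la • a + lb • b + lk • k - a) (b - a)
      = lb * D ^ 2 + lk * inner ℝ (k - a) (b - a) := by
    rw [hp, inner_add_left, inner_smul_left, inner_smul_left, real_inner_self_eq_norm_sq,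
      norm_sub_rev b a, hab]
    simp
  have hcs : inner ℝ (la • a + lb • b + lk • k - a) (b - a) ≤ 1 / 10000 * D * D := by
    refine (real_inner_le_norm _ _).trans ?_
    rw [norm_sub_rev b a, hab]
    exact mul_le_mul_of_nonneg_right hnear hD.le
  have hk := inner_ge_of_dist_le (a := a) (b := b) (k := k) (by rw [hab]; exact hbk)
  have hk' : lk * (‖a - k‖ ^ 2 / 2) ≤ lk * inner ℝ (k - a) (b - a) :=
    mul_le_mul_of_nonneg_left hk hlk
  nlinarith

/-- Step (2), far case: an almost diametral barycentre away from both `a` and `b` has tiny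
total weight on `a, b`, and one of the two weights is of order `η`. -/
theorem far_bound {a b k x : E} {D η la lb lk : ℝ} (hD : 0 < D) (hη : η ≤ 1 / 10 ^ 12)
    (hab : ‖a - b‖ = D)
    (hax : ‖a - x‖ ≤ D) (hbx : ‖b - x‖ ≤ D) (hkx : ‖k - x‖ ≤ D)
    (hla : 0 ≤ la) (hlb : 0 ≤ lb) (hlk : 0 ≤ lk) (hsum : la + lb + lk = 1)
    (hfar : (1 - η) * D < ‖la • a + lb • b + lk • k - x‖)
    (hfa : 1 / 10000 * D < ‖la • a + lb • b + lk • k - a‖)
    (hfb : 1 / 10000 * D < ‖la • a + lb • b + lk • k - b‖) :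
    la + lb < 5 / 10000 ∧ (D / 2 ≤ ‖a - k‖ → la < 9 * η) ∧ (D / 2 ≤ ‖b - k‖ → lb < 9 * η) := by
  have hη1 : η ≤ 1 := hη.trans (by norm_num)
  have hS := stewart_lt hD hη1 hax hbx hkx hla hlb hlk hsum hfar
  rw [hab] at hS
  refine far_real hD (norm_nonneg _) (norm_nonneg _) hη hla hlb hlk hsum hS ?_ ?_
  · have hp : la • a + lb • b + lk • k - a = lb • (b - a) + lk • (k - a) := by
      have : la = 1 - lb - lk := by linarith
      subst this
      module
    refine hfa.trans_le ?_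
    rw [hp]
    refine (norm_add_le _ _).trans ?_
    rw [norm_smul, norm_smul, Real.norm_of_nonneg hlb, Real.norm_of_nonneg hlk,
      norm_sub_rev b a, hab, norm_sub_rev k a]
  · have hp : la • a + lb • b + lk • k - b = la • (a - b) + lk • (k - b) := by
      have : la = 1 - lb - lk := by linarith
      subst this
      module
    refine hfb.trans_le ?_
    rw [hp]
    refine (norm_add_le _ _).trans ?_
    rw [norm_smul, norm_smul, Real.norm_of_nonneg hla, Real.norm_of_nonneg hlk,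
      hab, norm_sub_rev k b]

/-- One of the two distances from `k` to the ends of a diameter is at least half of it. -/
theorem half_le_or {a b k : E} {D : ℝ} (hab : ‖a - b‖ = D) :
    D / 2 ≤ ‖a - k‖ ∨ D / 2 ≤ ‖b - k‖ := by
  have htri : D ≤ ‖a - k‖ + ‖b - k‖ := by
    rw [← hab]
    have : a - b = (a - k) - (b - k) := by abel
    rw [this]
    exact norm_sub_le _ _
  by_contra hcon
  push Not at hcon
  linarith [hcon.1, hcon.2]

end Vale.Agent.Lib.P243.Pre29
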