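import Mathlib
import Vale.Agent.Lib.P243.UniDefs

/-!
# The diameter certificate
-/

namespace Vale.Agent.Lib.P243.Pre29

open MeasureTheory Set

variable {E : Type*} [NormedAddCommGroup E] [InnerProductSpace ℝ E] [FiniteDimensional ℝ E]
  [MeasurableSpace E] [BorelSpace E] [Fact (Module.finrank ℝ E = 2 + 1)]

omit [FiniteDimensional ℝ E] [MeasurableSpace E] [BorelSpace E]
  [Fact (Module.finrank ℝ E = 2 + 1)] in
/-- A line meets a set of diameter at most `L` in a set of length at most `L`. -/
theorem volume_line_le {S : Set E} {L : ℝ}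
    (hdiam : ∀ x ∈ S, ∀ y ∈ S, ‖x - y‖ ≤ L) {u : E} (hu : ‖u‖ = 1) (x : E) :
    volume {r : ℝ | x + r • u ∈ S} ≤ ENNReal.ofReal L := by
  refine (Real.volume_le_diam _).trans ?_
  refine Metric.ediam_le fun r hr s hs => ?_
  rw [edist_dist]
  refine ENNReal.ofReal_le_ofReal ?_
  have h := hdiam _ hr _ hs
  have e : x + r • u - (x + s • u) = (r - s) • u := by module
  rw [e, norm_smul, hu, mul_one] at h
  rw [Real.dist_eq]
  exact h

/-- Certificate (0): a measurable set of diameter at most `L` covered by cylinders has volume at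
most `L` times the total base area. -/
theorem volume_le_of_diam {S : Set E} (hS : MeasurableSet S) {L : ℝ} (hL : 0 < L)
    (hdiam : ∀ x ∈ S, ∀ y ∈ S, ‖x - y‖ ≤ L)
    {m : ℕ} (u : Fin m → E) (hu : ∀ i, ‖u i‖ = 1) (B : ∀ i, Set (ℝ ∙ u i)ᗮ)
    (hcov : ∀ x ∈ S, ∃ i, ∃ p ∈ B i, ∃ r : ℝ, x = (p : E) + r • u i) :
    volume S ≤ ENNReal.ofReal L * ∑ i, volume (B i) := by
  set c : ENNReal := ENNReal.ofReal L⁻¹ with hc
  have hcL : c * ENNReal.ofReal L = 1 := by
    rw [hc, ← ENNReal.ofReal_mul (by positivity), inv_mul_cancel₀ hL.ne', ENNReal.ofReal_one]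
  set F : E → ENNReal := S.indicator (fun _ => c) with hF
  have hFm : Measurable F := measurable_const.indicator hS
  have hX : ∀ v : E, ‖v‖ = 1 → ∀ x : E, ∫⁻ r : ℝ, F (x + r • v) ≤ 1 := by
    intro v hv x
    have hm : MeasurableSet {r : ℝ | x + r • v ∈ S} := by
      have : Measurable fun r : ℝ => x + r • v := by fun_prop
      exact this hS
    have e : (fun r : ℝ => F (x + r • v)) = {r : ℝ | x + r • v ∈ S}.indicator (fun _ => c) := by
      funext r
      simp only [hF, indicator]
      rfl
    rw [e, lintegral_indicator_const hm]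
    calc c * volume {r : ℝ | x + r • v ∈ S} ≤ c * ENNReal.ofReal L := by
          gcongr
          exact volume_line_le hdiam hv x
      _ = 1 := hcL
  have key := lintegral_le_of_xray hFm hX u hu B hcov
  have e2 : ∫⁻ x in S, F x = c * volume S := by
    rw [hF, lintegral_indicator hS, Measure.restrict_restrict hS, inter_self, lintegral_const,
      Measure.restrict_apply_univ]
  rw [e2] at key
  calc volume S = ENNReal.ofReal L * (c * volume S) := by
        rw [← mul_assoc, mul_comm (ENNReal.ofReal L), hcL, one_mul]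
    _ ≤ ENNReal.ofReal L * ∑ i, volume (B i) := by gcongr

omit [FiniteDimensional ℝ E] [Fact (Module.finrank ℝ E = 2 + 1)] in
theorem farSet_subset (K : Set E) (c : ℝ) : farSet K c ⊆ K := fun _ hx => hx.1

omit [FiniteDimensional ℝ E] [Fact (Module.finrank ℝ E = 2 + 1)] in
theorem measurableSet_farSet {K : Set E} (hK : IsCompact K) (c : ℝ) :
    MeasurableSet (farSet K c) := by
  have e : farSet K c = K ∩ ⋃ y ∈ K, {x : E | c < ‖x - y‖} := by
    ext x
    simp only [farSet, mem_inter_iff, mem_iUnion, exists_prop]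
    rfl
  rw [e]
  refine hK.measurableSet.inter (IsOpen.measurableSet ?_)
  refine isOpen_biUnion fun y _ => ?_
  exact isOpen_lt continuous_const (by fun_prop)

/-- Certificate (0) applied to `S_a`: the part of `K` outside `farSet K c`, together with a small
ball around `a`, has diameter at most `c`. -/
theorem volume_le_farSet_add {K : Set E} (hK : IsCompact K) {c R : ℝ} (hc : 0 < c)
    (hR : 2 * R ≤ c) (a : E)
    {m : ℕ} (u : Fin m → E) (hu : ∀ i, ‖u i‖ = 1) (B : ∀ i, Set (ℝ ∙ u i)ᗮ)
    (hcov : ∀ x ∈ K, ∃ i, ∃ p ∈ B i, ∃ r : ℝ, x = (p : E) + r • u i) :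
    volume K ≤ volume (farSet K c \ Metric.closedBall a R)
      + ENNReal.ofReal c * ∑ i, volume (B i) := by
  set W : Set E := farSet K c \ Metric.closedBall a R with hW
  have hWm : MeasurableSet W := (measurableSet_farSet hK c).diff Metric.isClosed_closedBall.measurableSet
  have hSm : MeasurableSet (K \ W) := hK.measurableSet.diff hWm
  have hdiam : ∀ x ∈ K \ W, ∀ y ∈ K \ W, ‖x - y‖ ≤ c := by
    rintro x ⟨hxK, hxW⟩ y ⟨hyK, hyW⟩
    by_contra hcon
    push Not at hcon
    have hxV : x ∈ farSet K c := ⟨hxK, y, hyK, hcon⟩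
    have hyV : y ∈ farSet K c := ⟨hyK, x, hxK, by rwa [norm_sub_rev]⟩
    have hxa : x ∈ Metric.closedBall a R := by
      by_contra h
      exact hxW ⟨hxV, h⟩
    have hya : y ∈ Metric.closedBall a R := by
      by_contra h
      exact hyW ⟨hyV, h⟩
    rw [Metric.mem_closedBall, dist_eq_norm] at hxa hya
    have : ‖x - y‖ ≤ ‖x - a‖ + ‖y - a‖ := by
      have e : x - y = (x - a) - (y - a) := by abel
      rw [e]
      exact norm_sub_le _ _
    linarith
  have h1 := volume_le_of_diam hSm hc hdiam u hu B (fun x hx => hcov x hx.1)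
  calc volume K ≤ volume (W ∪ K \ W) := by
        refine measure_mono fun x hx => ?_
        by_cases h : x ∈ W
        · exact Or.inl h
        · exact Or.inr ⟨hx, h⟩
    _ ≤ volume W + volume (K \ W) := measure_union_le _ _
    _ ≤ volume W + ENNReal.ofReal c * ∑ i, volume (B i) := by gcongr

end Vale.Agent.Lib.P243.Pre29
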